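import Vale.Agent.P224.R2.H424.Rel36
import Vale.Agent.P224.R2.H577.RelL

/-!
The relative tail for the dimensions 36 to 44, in the form of the block theorems.
-/

namespace Vale.Agent.P224.R2.H424.Tls

open MeasureTheory Set Filter Function Real Module Matrix Vale.Agent.P224
  Vale.Agent.P224.R2.H820 Vale.Agent.P224.R2.H582 Vale.Agent.P224.R2.H627
  Vale.Agent.P224.R2.H728 Vale.Agent.P224.R2.H484 Vale.Agent.P224.R2.H925
open Vale.Agent.P224.SM2 hiding ker
open Vale.Agent.P224.R2.H176 (NearData NearOut)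
open scoped Topology RealInnerProductSpace ContDiff Manifold

set_option linter.unusedSectionVars false

section

variable {V W M : Type*} [NormedAddCommGroup V] [InnerProductSpace ℝ V] [FiniteDimensional ℝ V]
  [NormedAddCommGroup W] [InnerProductSpace ℝ W] [FiniteDimensional ℝ W]
  [TopologicalSpace M] [ChartedSpace V M]
  [MeasurableSpace V] [BorelSpace V] [MeasurableSpace M] [BorelSpace M]
  [MeasurableSpace W] [BorelSpace W] [IsManifold 𝓘(ℝ, V) ∞ M] [CompactSpace M] [T2Space M]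

/-- the relative tail, any `κ`, `36 ≤ m ≤ 46` -/
theorem relU36 (hm : 36 ≤ finrank ℝ V) (hm' : finrank ℝ V ≤ 46)
    (hW : finrank ℝ W = finrank ℝ V + 2) {F : M → W}
    (hF : SphImm V F) (hmin : ∀ x n, IsUnitNormal V F x n → meanCurv V F x n = 0)
    {m : ℕ} (hmm : m = finrank ℝ V) {ν : ℝ} {κ ε : ℚ} (hε : relFX1 m ≤ ε) :
    H925.RelU (91 / 5) (61 / 5) V W M [(κ, ε)] ν m F := by
  have hfin : IsFiniteMeasure (volM V F) := isFiniteMeasure_volM hF
  intro N b j hd k hk _
  rw [List.mem_singleton] at hk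
  subst hk
  have h := rel36_min hm hm' hW hF hmin hd.smooth hd.unit b j hmm
  have e2 : ((relFX1 m : ℚ) : ℝ) ≤ ε := by exact_mod_cast hε
  have h0 := hd.t0.hh_nonneg (diagonal j)
  have h3 := absTail_mono h (mul_le_mul_of_nonneg_right e2 h0)
  push_cast
  exact h3

lemma relFX1_le {m : ℕ} (h1 : 36 ≤ m) (h2 : m ≤ 44) : relFX1 m ≤ 45 / 1000 := by
  obtain ⟨i, rfl⟩ : ∃ i, m = 36 + i := ⟨m - 36, by omega⟩
  have h : ∀ i < 9, relFX1 (36 + i) ≤ 45 / 1000 := by decide +kernel
  exact h i (by omega)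

/-- the relative tail `45/1000`, `36 ≤ m ≤ 44` -/
theorem relU44 (hm : 36 ≤ finrank ℝ V) (hm' : finrank ℝ V ≤ 44)
    (hW : finrank ℝ W = finrank ℝ V + 2) {F : M → W}
    (hF : SphImm V F) (hmin : ∀ x n, IsUnitNormal V F x n → meanCurv V F x n = 0) {ν : ℝ} :
    H925.RelU (91 / 5) (61 / 5) V W M [(1000, 45 / 1000)] ν (finrank ℝ V) F :=
  relU36 hm (by omega) hW hF hmin rfl (relFX1_le hm hm')

end

end Vale.Agent.P224.R2.H424.Tls
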