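import Vale.Agent.P224.R2.H424.Tls1
import Vale.Agent.P224.R2.H484.TintC

/-!
The relative tail bound, simple version: integration over the levels on a rational grid.
-/

namespace Vale.Agent.P224.R2.H424.Tls

open MeasureTheory Set Filter Function Real Module Vale.Agent.P224 Vale.Agent.P224.SM2
  Vale.Agent.P224.R2.H820 Vale.Agent.P224.R2.H869 Vale.Agent.P224.R2.H582
  Vale.Agent.P224.R2.H484 Vale.Agent.P224.R2.H627
open scoped RealInnerProductSpace

set_option linter.unusedSectionVars false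

/-- the grid -/
noncomputable def tg (c : ℕ) : ℝ := 40 * c / (400 + c ^ 2)
noncomputable def kg (c : ℕ) : ℝ := (400 - c ^ 2) / (400 + c ^ 2)

lemma tg_zero : tg 0 = 0 := by unfold tg; norm_num
lemma tg_end : tg 20 = 1 := by unfold tg; norm_num
lemma tg_nonneg (c : ℕ) : 0 ≤ tg c := by unfold tg; positivity

lemma tg_mono (c : ℕ) (hc : c < 20) : tg c ≤ tg (c + 1) := by
  unfold tg
  have h : (c : ℝ) ≤ 19 := by exact_mod_cast (by omega : c ≤ 19)
  have h0 : (0 : ℝ) ≤ c := Nat.cast_nonneg c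
  push_cast
  rw [div_le_div_iff₀ (by positivity) (by positivity)]
  nlinarith [mul_nonneg h0 (sub_nonneg.2 h)]

lemma kg_sq (c : ℕ) : 1 - tg c ^ 2 = kg c ^ 2 := by
  unfold tg kg
  have h0 : (0 : ℝ) < 400 + c ^ 2 := by positivity
  field_simp
  ring

lemma kg_nonneg (c : ℕ) (hc : c ≤ 20) : 0 ≤ kg c := by
  unfold kg
  have h : (c : ℝ) ≤ 20 := by exact_mod_cast hc
  have h0 : (0 : ℝ) ≤ c := Nat.cast_nonneg c
  refine div_nonneg ?_ (by positivity)
  nlinarith

lemma kg_pos (c : ℕ) (hc : c < 20) : 0 < kg c := by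
  unfold kg
  have h : (c : ℝ) ≤ 19 := by exact_mod_cast (by omega : c ≤ 19)
  have h0 : (0 : ℝ) ≤ c := Nat.cast_nonneg c
  refine div_pos ?_ (by positivity)
  nlinarith

lemma kg_anti (c : ℕ) (hc : c < 20) : kg (c + 1) ≤ kg c := by
  unfold kg
  have h0 : (0 : ℝ) ≤ c := Nat.cast_nonneg c
  push_cast
  rw [div_le_div_iff₀ (by positivity) (by positivity)]
  nlinarith

lemma sqrt_kg (c : ℕ) (hc : c ≤ 20) : √(1 - tg c ^ 2) = kg c := by
  rw [kg_sq, Real.sqrt_sq (kg_nonneg c hc)]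

/-- upper bounds of the weight on the cells -/
noncomputable def Gt : ℕ → ℝ
  | 0 => 4611 / 100000
  | 1 => 3557 / 50000
  | 2 => 513 / 6250
  | 3 => 8441 / 100000
  | 4 => 8203 / 100000
  | 5 => 1937 / 25000
  | 6 => 7263 / 100000
  | 7 => 1713 / 25000
  | 8 => 3219 / 50000
  | 9 => 189 / 3125
  | 10 => 5699 / 100000
  | 11 => 5401 / 100000
  | 12 => 161 / 3125
  | 13 => 4949 / 100000
  | 14 => 4787 / 100000
  | 15 => 4661 / 100000
  | 16 => 2283 / 50000
  | 17 => 2249 / 50000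
  | 18 => 4453 / 100000
  | 19 => 1107 / 25000
  | _ => 1

lemma Gt_nonneg (c : ℕ) (hc : c < 20) : 0 ≤ Gt c := by
  interval_cases c <;> (unfold Gt; norm_num)

lemma gt_0 {T : ℝ} (ha : 0 ≤ T) (hb : T ≤ 40 / 401) : gT T ≤ 4611 / 100000 := by
  refine gT_le (a := 0) (s := 0) (f := 489 / 5000) (by norm_num) (by norm_num) (by norm_num) ha ?_
    (by unfold gx; norm_num)
  refine (fx_mono (le_trans (by norm_num) ha) hb (by norm_num)).trans ?_
  unfold fx
  norm_num

lemma gt_1 {T : ℝ} (ha : 40 / 401 ≤ T) (hb : T ≤ 20 / 101) : gT T ≤ 3557 / 50000 := by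
  refine gT_le (a := 40 / 401) (s := 1403 / 10000) (f := 573 / 3125) (by norm_num) (by norm_num) (by norm_num) ha ?_
    (by unfold gx; norm_num)
  refine (fx_mono (le_trans (by norm_num) ha) hb (by norm_num)).trans ?_
  unfold fx
  norm_num

lemma gt_2 {T : ℝ} (ha : 20 / 101 ≤ T) (hb : T ≤ 120 / 409) : gT T ≤ 513 / 6250 := by
  refine gT_le (a := 20 / 101) (s := 2747 / 10000) (f := 12437 / 50000) (by norm_num) (by norm_num) (by norm_num) ha ?_
    (by unfold gx; norm_num)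
  refine (fx_mono (le_trans (by norm_num) ha) hb (by norm_num)).trans ?_
  unfold fx
  norm_num

lemma gt_3 {T : ℝ} (ha : 120 / 409 ≤ T) (hb : T ≤ 5 / 13) : gT T ≤ 8441 / 100000 := by
  refine gT_le (a := 120 / 409) (s := 3981 / 10000) (f := 7297 / 25000) (by norm_num) (by norm_num) (by norm_num) ha ?_
    (by unfold gx; norm_num)
  refine (fx_mono (le_trans (by norm_num) ha) hb (by norm_num)).trans ?_
  unfold fx
  norm_num

lemma gt_4 {T : ℝ} (ha : 5 / 13 ≤ T) (hb : T ≤ 8 / 17) : gT T ≤ 8203 / 100000 := by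
  refine gT_le (a := 5 / 13) (s := 1269 / 2500) (f := 15771 / 50000) (by norm_num) (by norm_num) (by norm_num) ha ?_
    (by unfold gx; norm_num)
  refine (fx_mono (le_trans (by norm_num) ha) hb (by norm_num)).trans ?_
  unfold fx
  norm_num

lemma gt_5 {T : ℝ} (ha : 8 / 17 ≤ T) (hb : T ≤ 60 / 109) : gT T ≤ 1937 / 25000 := by
  refine gT_le (a := 8 / 17) (s := 6021 / 10000) (f := 16211 / 50000) (by norm_num) (by norm_num) (by norm_num) ha ?_
    (by unfold gx; norm_num)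
  refine (fx_mono (le_trans (by norm_num) ha) hb (by norm_num)).trans ?_
  unfold fx
  norm_num

lemma gt_6 {T : ℝ} (ha : 60 / 109 ≤ T) (hb : T ≤ 280 / 449) : gT T ≤ 7263 / 100000 := by
  refine gT_le (a := 60 / 109) (s := 6819 / 10000) (f := 13 / 40) (by norm_num) (by norm_num) (by norm_num) ha ?_
    (by unfold gx; norm_num)
  exact fx_le_max

lemma gt_7 {T : ℝ} (ha : 280 / 449 ≤ T) (hb : T ≤ 20 / 29) : gT T ≤ 1713 / 25000 := by
  refine gT_le (a := 280 / 449) (s := 7483 / 10000) (f := 4041 / 12500) (by norm_num) (by norm_num) (by norm_num) ha ?_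
    (by unfold gx; norm_num)
  refine (fx_anti (by norm_num) ha (by norm_num)).trans ?_
  unfold fx
  norm_num

lemma gt_8 {T : ℝ} (ha : 20 / 29 ≤ T) (hb : T ≤ 360 / 481) : gT T ≤ 3219 / 50000 := by
  refine gT_le (a := 20 / 29) (s := 2007 / 2500) (f := 31673 / 100000) (by norm_num) (by norm_num) (by norm_num) ha ?_
    (by unfold gx; norm_num)
  refine (fx_anti (by norm_num) ha (by norm_num)).trans ?_
  unfold fx
  norm_num

lemma gt_9 {T : ℝ} (ha : 360 / 481 ≤ T) (hb : T ≤ 4 / 5) : gT T ≤ 189 / 3125 := by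
  refine gT_le (a := 360 / 481) (s := 8473 / 10000) (f := 30749 / 100000) (by norm_num) (by norm_num) (by norm_num) ha ?_
    (by unfold gx; norm_num)
  refine (fx_anti (by norm_num) ha (by norm_num)).trans ?_
  unfold fx
  norm_num

lemma gt_10 {T : ℝ} (ha : 4 / 5 ≤ T) (hb : T ≤ 440 / 521) : gT T ≤ 5699 / 100000 := by
  refine gT_le (a := 4 / 5) (s := 4417 / 5000) (f := 5949 / 20000) (by norm_num) (by norm_num) (by norm_num) ha ?_
    (by unfold gx; norm_num)
  refine (fx_anti (by norm_num) ha (by norm_num)).trans ?_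
  unfold fx
  norm_num

lemma gt_11 {T : ℝ} (ha : 440 / 521 ≤ T) (hb : T ≤ 15 / 17) : gT T ≤ 5401 / 100000 := by
  refine gT_le (a := 440 / 521) (s := 2281 / 2500) (f := 28773 / 100000) (by norm_num) (by norm_num) (by norm_num) ha ?_
    (by unfold gx; norm_num)
  refine (fx_anti (by norm_num) ha (by norm_num)).trans ?_
  unfold fx
  norm_num

lemma gt_12 {T : ℝ} (ha : 15 / 17 ≤ T) (hb : T ≤ 520 / 569) : gT T ≤ 161 / 3125 := by
  refine gT_le (a := 15 / 17) (s := 2339 / 2500) (f := 5579 / 20000) (by norm_num) (by norm_num) (by norm_num) ha ?_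
    (by unfold gx; norm_num)
  refine (fx_anti (by norm_num) ha (by norm_num)).trans ?_
  unfold fx
  norm_num

lemma gt_13 {T : ℝ} (ha : 520 / 569 ≤ T) (hb : T ≤ 140 / 149) : gT T ≤ 4949 / 100000 := by
  refine gT_le (a := 520 / 569) (s := 477 / 500) (f := 848 / 3125) (by norm_num) (by norm_num) (by norm_num) ha ?_
    (by unfold gx; norm_num)
  refine (fx_anti (by norm_num) ha (by norm_num)).trans ?_
  unfold fx
  norm_num

lemma gt_14 {T : ℝ} (ha : 140 / 149 ≤ T) (hb : T ≤ 24 / 25) : gT T ≤ 4787 / 100000 := by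
  refine gT_le (a := 140 / 149) (s := 9683 / 10000) (f := 5301 / 20000) (by norm_num) (by norm_num) (by norm_num) ha ?_
    (by unfold gx; norm_num)
  refine (fx_anti (by norm_num) ha (by norm_num)).trans ?_
  unfold fx
  norm_num

lemma gt_15 {T : ℝ} (ha : 24 / 25 ≤ T) (hb : T ≤ 40 / 41) : gT T ≤ 4661 / 100000 := by
  refine gT_le (a := 24 / 25) (s := 9793 / 10000) (f := 25999 / 100000) (by norm_num) (by norm_num) (by norm_num) ha ?_
    (by unfold gx; norm_num)
  refine (fx_anti (by norm_num) ha (by norm_num)).trans ?_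
  unfold fx
  norm_num

lemma gt_16 {T : ℝ} (ha : 40 / 41 ≤ T) (hb : T ≤ 680 / 689) : gT T ≤ 2283 / 50000 := by
  refine gT_le (a := 40 / 41) (s := 79 / 80) (f := 2561 / 10000) (by norm_num) (by norm_num) (by norm_num) ha ?_
    (by unfold gx; norm_num)
  refine (fx_anti (by norm_num) ha (by norm_num)).trans ?_
  unfold fx
  norm_num

lemma gt_17 {T : ℝ} (ha : 680 / 689 ≤ T) (hb : T ≤ 180 / 181) : gT T ≤ 2249 / 50000 := by
  refine gT_le (a := 680 / 689) (s := 4967 / 5000) (f := 25327 / 100000) (by norm_num) (by norm_num) (by norm_num) ha ?_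
    (by unfold gx; norm_num)
  refine (fx_anti (by norm_num) ha (by norm_num)).trans ?_
  unfold fx
  norm_num

lemma gt_18 {T : ℝ} (ha : 180 / 181 ≤ T) (hb : T ≤ 760 / 761) : gT T ≤ 4453 / 100000 := by
  refine gT_le (a := 180 / 181) (s := 2493 / 2500) (f := 25139 / 100000) (by norm_num) (by norm_num) (by norm_num) ha ?_
    (by unfold gx; norm_num)
  refine (fx_anti (by norm_num) ha (by norm_num)).trans ?_
  unfold fx
  norm_num

lemma gt_19 {T : ℝ} (ha : 760 / 761 ≤ T) (hb : T ≤ 1) : gT T ≤ 1107 / 25000 := by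
  refine gT_le (a := 760 / 761) (s := 9993 / 10000) (f := 25033 / 100000) (by norm_num) (by norm_num) (by norm_num) ha ?_
    (by unfold gx; norm_num)
  refine (fx_anti (by norm_num) ha (by norm_num)).trans ?_
  unfold fx
  norm_num

lemma gT_le_Gt (c : ℕ) (hc : c < 20) {T : ℝ} (h1 : tg c < T) (h2 : T ≤ tg (c + 1)) :
    gT T ≤ Gt c := by
  unfold tg at h1 h2
  interval_cases c
  · exact gt_0 (le_trans (by norm_num) h1.le) (h2.trans (by norm_num))
  · exact gt_1 (le_trans (by norm_num) h1.le) (h2.trans (by norm_num))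
  · exact gt_2 (le_trans (by norm_num) h1.le) (h2.trans (by norm_num))
  · exact gt_3 (le_trans (by norm_num) h1.le) (h2.trans (by norm_num))
  · exact gt_4 (le_trans (by norm_num) h1.le) (h2.trans (by norm_num))
  · exact gt_5 (le_trans (by norm_num) h1.le) (h2.trans (by norm_num))
  · exact gt_6 (le_trans (by norm_num) h1.le) (h2.trans (by norm_num))
  · exact gt_7 (le_trans (by norm_num) h1.le) (h2.trans (by norm_num))
  · exact gt_8 (le_trans (by norm_num) h1.le) (h2.trans (by norm_num))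
  · exact gt_9 (le_trans (by norm_num) h1.le) (h2.trans (by norm_num))
  · exact gt_10 (le_trans (by norm_num) h1.le) (h2.trans (by norm_num))
  · exact gt_11 (le_trans (by norm_num) h1.le) (h2.trans (by norm_num))
  · exact gt_12 (le_trans (by norm_num) h1.le) (h2.trans (by norm_num))
  · exact gt_13 (le_trans (by norm_num) h1.le) (h2.trans (by norm_num))
  · exact gt_14 (le_trans (by norm_num) h1.le) (h2.trans (by norm_num))
  · exact gt_15 (le_trans (by norm_num) h1.le) (h2.trans (by norm_num))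
  · exact gt_16 (le_trans (by norm_num) h1.le) (h2.trans (by norm_num))
  · exact gt_17 (le_trans (by norm_num) h1.le) (h2.trans (by norm_num))
  · exact gt_18 (le_trans (by norm_num) h1.le) (h2.trans (by norm_num))
  · exact gt_19 (le_trans (by norm_num) h1.le) (h2.trans (by norm_num))

/-- the constant of the relative tail -/
noncomputable def relC (m j : ℕ) (φ : ℝ) (θ C : ℕ → ℝ) : ℝ :=
  cM m * ∑ c ∈ Finset.range 20, Gt c * (kg c - kg (c + 1)) *
    (4 * m * C c * ((1 + φ * (tg (c + 1) ^ 2 / kg (c + 1) ^ 2))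
        * (Mo (m - 1) (j + 2) + θ c * Mo (m - 1) (j + 1))
      + φ * (tg (c + 1) ^ 2 / kg (c + 1) ^ 2) * (Mo (m - 1) j + Mo (m - 1) (j + 1) / θ c)))

variable {X : Type*} [MeasurableSpace X] {E : Type*} [NormedAddCommGroup E]
  [InnerProductSpace ℝ E] [MeasurableSpace E] [BorelSpace E] [SecondCountableTopology E]
  {μ : Measure X} [IsFiniteMeasure μ] {m q : ℕ} {p n z : X → E}

/-- the integrated relative tail -/
theorem tls_gen [Nontrivial E] (hm : 17 ≤ m) (h2 : Two μ m p n) (h1 : MinRow μ m p n)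
    (hA : 0 < μ.real univ) {C0 : ℝ} (hz : Measurable z)
    (hzC : ∀ x, ‖z x‖ ≤ C0)
    (hzp : ∀ x y, ⟪n x, p y⟫ - ⟪p x, n y⟫ = ⟪z x, p y⟫ - ⟪p x, z y⟫)
    {φ : ℝ} (hφ : 0 ≤ φ) (hF : ∫ x, ⟪z x, p x⟫ ^ 2 ∂μ ≤ φ * ∫ x, ‖z x‖ ^ 2 ∂μ)
    {j : ℕ} {l : ℝ → ℝ} {θ C : ℕ → ℝ} (hθ : ∀ c < 20, 0 < θ c) (hC0 : ∀ c < 20, 0 ≤ C c)
    (hC : ∀ c < 20, ∀ T ∈ Ioo (0 : ℝ) 1, tg c < T → T ≤ tg (c + 1) →
      ∀ t ∈ Icc (0 : ℝ) 1, m * t - l T ≤ C c * t ^ j) (h19 : C 19 = 0) :
    ∃ τ : ℝ → ℝ, IntervalIntegrable τ volume 0 1 ∧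
      (∀ T ∈ Ioo (0 : ℝ) 1, (m + 1) * (m + 2) * T ^ 2 * rM m T / (1 - T ^ 2) / 2
        * E2 μ p n (TK m T (l T)) ≤ τ T * μ.real univ ^ 2) ∧
      ∫ T in (0 : ℝ)..1, τ T = relC m j φ θ C * ((∫ x, ‖z x‖ ^ 2 ∂μ) / μ.real univ) := by
  have hm0 : (0 : ℝ) < m := by exact_mod_cast (by omega : 0 < m)
  set A := μ.real univ with hAd
  set H := ∫ x, ‖z x‖ ^ 2 ∂μ with hH
  have hH0 : 0 ≤ H := integral_nonneg fun x => by positivity
  have hM0 := Mo_nonneg (m - 1) j
  have hM1 := Mo_nonneg (m - 1) (j + 1)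
  have hM2 := Mo_nonneg (m - 1) (j + 2)
  set w : ℕ → ℝ := fun c => 4 * m * C c * ((1 + φ * (tg (c + 1) ^ 2 / kg (c + 1) ^ 2))
        * (Mo (m - 1) (j + 2) + θ c * Mo (m - 1) (j + 1))
      + φ * (tg (c + 1) ^ 2 / kg (c + 1) ^ 2) * (Mo (m - 1) j + Mo (m - 1) (j + 1) / θ c)) with hw
  have hw0 : ∀ c < 20, 0 ≤ w c := fun c hc => by
    have := hθ c hc
    have := hC0 c hc
    rw [hw]
    positivity
  have hΦ : ∀ c < 20, ∀ T ∈ Ioo (0 : ℝ) 1, tg c < T → T ≤ tg (c + 1) →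
      m * (√(1 - T ^ 2) ^ (m + 1) * E2 μ p n (TK m T (l T)) / A ^ 2) ≤ w c * (H / A) := by
    intro c hc T hT h3 h4
    have hk : 0 < 1 - T ^ 2 := by nlinarith [hT.1, hT.2]
    have hcc := hC0 c hc
    have hθc := hθ c hc
    have h5 := E2_TK_rel (l := l T) h2 h1 (by omega) ⟨hT.1.le, hT.2⟩ hcc (hC c hc T hT h3 h4) hθc
      hz hzC hzp
    rw [← hH] at h5
    rw [← mul_div_assoc, div_le_iff₀ (by positivity)]
    have e : w c * (H / A) * A ^ 2 = w c * H * A := by
      field_simp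
    rw [e]
    refine (mul_le_mul_of_nonneg_left h5 hm0.le).trans ?_
    rcases eq_or_lt_of_le hcc with h0 | h0
    · rw [← h0]
      have := hw0 c hc
      have : 0 ≤ w c * H * A := by positivity
      simpa using this
    · have hc19 : c < 19 := by
        rcases Nat.lt_or_ge c 19 with h | h
        · exact h
        · exfalso
          have : c = 19 := by omega
          rw [this, h19] at h0
          exact lt_irrefl _ h0
      have hkp : 0 < kg (c + 1) := kg_pos _ (by omega)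
      have h6 : T ^ 2 / (1 - T ^ 2) ≤ tg (c + 1) ^ 2 / kg (c + 1) ^ 2 := by
        have h7 : T ^ 2 ≤ tg (c + 1) ^ 2 := pow_le_pow_left₀ hT.1.le h4 2
        rw [← kg_sq]
        have h8 : 0 < 1 - tg (c + 1) ^ 2 := by rw [kg_sq]; positivity
        rw [div_le_div_iff₀ hk h8]
        nlinarith
      have h9 : T ^ 2 / (1 - T ^ 2) * ∫ x, ⟪z x, p x⟫ ^ 2 ∂μ
          ≤ φ * (tg (c + 1) ^ 2 / kg (c + 1) ^ 2) * H := by
        have hFn : 0 ≤ ∫ x, ⟪z x, p x⟫ ^ 2 ∂μ := integral_nonneg fun x => by positivity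
        calc T ^ 2 / (1 - T ^ 2) * ∫ x, ⟪z x, p x⟫ ^ 2 ∂μ
            ≤ tg (c + 1) ^ 2 / kg (c + 1) ^ 2 * (φ * H) :=
              mul_le_mul h6 hF hFn (by positivity)
          _ = _ := by ring
      have hP : 0 ≤ Mo (m - 1) (j + 2) + θ c * Mo (m - 1) (j + 1) := by positivity
      have hR : 0 ≤ Mo (m - 1) j + Mo (m - 1) (j + 1) / θ c := by positivity
      have k1 := mul_le_mul_of_nonneg_right h9 hP
      have k2 := mul_le_mul_of_nonneg_right h9 hR
      have k3 : (H + T ^ 2 / (1 - T ^ 2) * ∫ x, ⟪z x, p x⟫ ^ 2 ∂μ)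
            * (Mo (m - 1) (j + 2) + θ c * Mo (m - 1) (j + 1))
          + T ^ 2 / (1 - T ^ 2) * (∫ x, ⟪z x, p x⟫ ^ 2 ∂μ)
            * (Mo (m - 1) j + Mo (m - 1) (j + 1) / θ c)
          ≤ H * ((1 + φ * (tg (c + 1) ^ 2 / kg (c + 1) ^ 2))
        * (Mo (m - 1) (j + 2) + θ c * Mo (m - 1) (j + 1))
      + φ * (tg (c + 1) ^ 2 / kg (c + 1) ^ 2) * (Mo (m - 1) j + Mo (m - 1) (j + 1) / θ c)) := by
        nlinarith
      have k4 := mul_le_mul_of_nonneg_left k3 (show 0 ≤ (m : ℝ) * (A * (4 * C c)) by positivity)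
      refine le_trans (le_of_eq ?_) (k4.trans (le_of_eq ?_))
      · ring
      · rw [hw]
        ring
  obtain ⟨τ, i1, i2, i3⟩ := tau_cells hm (n := 20) (t := tg) (κ := kg) (G := Gt)
    (φ := fun c => w c * (H / A))
    (Φ := fun T => m * (√(1 - T ^ 2) ^ (m + 1) * E2 μ p n (TK m T (l T)) / A ^ 2))
    tg_zero tg_end tg_mono sqrt_kg Gt_nonneg (fun c hc => mul_nonneg (hw0 c hc) (by positivity))
    (fun c hc T hT h1 h2 => gT_le_Gt c hc h1 h2) hΦ
  · refine ⟨τ, i1, ?_, ?_⟩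
    · intro T hT
      have h3 := i2 T hT
      have hk : 0 < 1 - T ^ 2 := by nlinarith [hT.1, hT.2]
      have hs := pow_pos (Real.sqrt_pos.2 hk) (m + 1)
      have h4 := mul_le_mul_of_nonneg_right h3 (sq_nonneg A)
      refine le_trans (le_of_eq ?_) h4
      unfold cf
      field_simp
    · rw [i3]
      unfold relC
      rw [mul_assoc, Finset.sum_mul]
      congr 1
      refine Finset.sum_congr rfl fun c hc => ?_
      rw [hw]
      ring

/-- the bound of the excess -/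
lemma excess_le {j : ℕ} (hj : 2 ≤ j) {X l : ℝ} (hX : 0 ≤ X) (hl : 0 < l) :
    X - l ≤ ((j : ℝ) - 1) ^ (j - 1) / j ^ j * X ^ j / l ^ (j - 1) := by
  obtain ⟨i, rfl⟩ : ∃ i, j = i + 1 := ⟨j - 1, by omega⟩
  have hi : 1 ≤ i := by omega
  have hi0 : (0 : ℝ) < i := by exact_mod_cast hi
  simp only [Nat.add_sub_cancel]
  push_cast
  have h1 := one_add_mul_le_pow (R := ℝ) (a := X / l * (i / (i + 1)) - 1) (by
    have : 0 ≤ X / l * ((i : ℝ) / (i + 1)) := by positivity
    linarith) (i + 1)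
  have e1 : 1 + ((i + 1 : ℕ) : ℝ) * (X / l * (i / (i + 1)) - 1) = i * (X / l - 1) := by
    push_cast
    field_simp
    ring
  have e2 : (1 + (X / l * ((i : ℝ) / (i + 1)) - 1)) ^ (i + 1)
      = X ^ (i + 1) / l ^ (i + 1) * ((i : ℝ) ^ (i + 1) / (i + 1) ^ (i + 1)) := by
    rw [add_sub_cancel, mul_pow, div_pow, div_pow]
  rw [e1, e2] at h1
  have h2 := mul_le_mul_of_nonneg_left h1 (show 0 ≤ l / i by positivity)
  have e3 : l / i * (i * (X / l - 1)) = X - l := by
    field_simp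
  have e4 : l / i * (X ^ (i + 1) / l ^ (i + 1) * ((i : ℝ) ^ (i + 1) / (i + 1) ^ (i + 1)))
      = ((i : ℝ) + 1 - 1) ^ i / (i + 1) ^ (i + 1) * X ^ (i + 1) / l ^ i := by
    rw [add_sub_cancel_right]
    field_simp
    ring
  rw [e3, e4] at h2
  exact h2

end Vale.Agent.P224.R2.H424.Tls
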