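import Vale.Agent.P224.R2.H424.BoxO5
import Vale.Agent.P224.R2.H742.SO7

/-!
The constant of the small box in the form used by the odd dimensions.
-/

namespace Vale.Agent.P224.R2.H424.BoxO

open MeasureTheory Set Filter Function Real Module Vale.Agent.P224 Vale.Agent.P224.FV
open Vale.Agent.P224.SM2 Vale.Agent.P224.R2.H820 Vale.Agent.P224.R2.H728
open Vale.Agent.P224.R2.H582 Vale.Agent.P224.R2.H470
open Vale.Agent.P224.R2.H460
open Vale.Agent.P224.R2.H662 (dop dop_symm)
open Vale.Agent.P224.R2.H742 (BoxC e7_S)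
open scoped Topology RealInnerProductSpace ContDiff Manifold

set_option linter.unusedSectionVars false

section

variable {V W M : Type*} [NormedAddCommGroup V] [InnerProductSpace ℝ V] [FiniteDimensional ℝ V]
  [NormedAddCommGroup W] [InnerProductSpace ℝ W] [FiniteDimensional ℝ W]
  [TopologicalSpace M] [ChartedSpace V M]
  [MeasurableSpace V] [BorelSpace V] [MeasurableSpace M] [BorelSpace M]
  [MeasurableSpace W] [BorelSpace W] [IsManifold 𝓘(ℝ, V) ∞ M]
  [CompactSpace M] [T2Space M]

/-- **the constant of the small box**, all near data -/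
theorem boxC_O [Nonempty M] (hm : 400 ≤ finrank ℝ V) (hW : finrank ℝ W = finrank ℝ V + 2)
    {F : M → W} (hF : SphImm V F) (hmin : ∀ x n, IsUnitNormal V F x n → meanCurv V F x n = 0)
    {ν : ℝ} : BoxC V F ν (37 / 2500) := by
  intro N b j hnd hh1 hfr
  have hmR : (400 : ℝ) ≤ (finrank ℝ V : ℝ) := by exact_mod_cast hm
  have hfin : IsFiniteMeasure (volM V F) := isFiniteMeasure_volM hF
  have hvpos : 0 < volM V F univ := volM_pos_of_isOpen hW hF isOpen_univ univ_nonempty
  have hnz : NeZero (volM V F) := ⟨fun h => by rw [h] at hvpos; simp at hvpos⟩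
  have hone : OneP (nrm (volM V F)) (finrank ℝ V) F N :=
    oneP_nrm hW hF hmin hnd.smooth hnd.unit
  have hsc : SecondCountableTopology M := ChartedSpace.secondCountable_of_sigmaCompact V M
  have hpr : IsProbabilityMeasure (nrm (volM V F)) := hnd.t0.prob
  rcases (hnd.t0.hh_nonneg (Matrix.diagonal j)).eq_or_lt with h0 | h0
  · rw [← h0, mul_zero]
    refine intervalIntegral.integral_nonneg (by norm_num) fun T hT => ?_
    have hT1 : T < 1 := hT.2.trans_lt (by norm_num)
    have h3 : 0 ≤ wq (469 / 1000) (201 / 200) (181 / 50) T := by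
      unfold wq
      have := hT.1
      have := hT.2
      nlinarith
    exact mul_nonneg h3 (mul_nonneg (cw_pos hT.1 hT1).le (LL_nonneg hT.1 hT1 hone.np))
  · have hu := e7_S hnd.t0 hmR hnd.lsq hfr hh1
    exact box_O5 hm hW hF hmin hnd.smooth hnd.unit b j rfl hnd.lsq h0 hh1 hfr hu

end

end Vale.Agent.P224.R2.H424.BoxO
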