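import Vale.Agent.P224.R2.H424.Tls2
import Vale.Agent.P224.R2.H484.AbsT

/-!
The relative tail bound, simple version: rational check for given dimensions and thresholds.
-/

namespace Vale.Agent.P224.R2.H424.Tls

open MeasureTheory Set Filter Function Real Module Vale.Agent.P224 Vale.Agent.P224.SM2
  Vale.Agent.P224.R2.H820 Vale.Agent.P224.R2.H869 Vale.Agent.P224.R2.H582
  Vale.Agent.P224.R2.H484 Vale.Agent.P224.R2.H627
open scoped RealInnerProductSpace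

set_option linter.unusedSectionVars false

/-- the grid in the rational numbers -/
def tgQ (c : ℕ) : ℚ := 40 * c / (400 + c ^ 2)
def kgQ (c : ℕ) : ℚ := (400 - c ^ 2) / (400 + c ^ 2)

lemma tgQ_cast (c : ℕ) : ((tgQ c : ℚ) : ℝ) = tg c := by unfold tgQ tg; push_cast; ring
lemma kgQ_cast (c : ℕ) : ((kgQ c : ℚ) : ℝ) = kg c := by unfold kgQ kg; push_cast; ring

def GtQ : ℕ → ℚ
  | 0 => 4611 / 100000
  | 1 => 3557 / 50000
  | 2 => 513 / 6250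
  | 3 => 8441 / 100000
  | 4 => 8203 / 100000
  | 5 => 1937 / 25000
  | 6 => 7263 / 100000
  | 7 => 1713 / 25000
  | 8 => 3219 / 50000
  | 9 => 189 / 3125
  | 10 => 5699 / 100000
  | 11 => 5401 / 100000
  | 12 => 161 / 3125
  | 13 => 4949 / 100000
  | 14 => 4787 / 100000
  | 15 => 4661 / 100000
  | 16 => 2283 / 50000
  | 17 => 2249 / 50000
  | 18 => 4453 / 100000
  | 19 => 1107 / 25000
  | _ => 1

lemma GtQ_cast (c : ℕ) (hc : c < 20) : ((GtQ c : ℚ) : ℝ) = Gt c := by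
  interval_cases c <;> (unfold GtQ Gt; norm_num)

/-- the constant of a cell -/
def CQ (m j : ℕ) (l : ℚ) : ℚ :=
  if (m : ℚ) ≤ l then 0 else ((j : ℚ) - 1) ^ (j - 1) / j ^ j * m ^ j / l ^ (j - 1)

lemma CQ_nonneg {m j : ℕ} (hj : 1 ≤ j) {l : ℚ} (hl : 0 < l) : 0 ≤ CQ m j l := by
  have : (1 : ℚ) ≤ j := by exact_mod_cast hj
  have : (0 : ℚ) ≤ (j : ℚ) - 1 := by linarith
  unfold CQ
  split_ifs <;> positivity

lemma CQ_spec {m j : ℕ} (hj : 2 ≤ j) {lq : ℚ} (hl : 0 < lq) {l t : ℝ} (h : (lq : ℝ) ≤ l)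
    (ht : t ∈ Icc (0 : ℝ) 1) : m * t - l ≤ (CQ m j lq : ℚ) * t ^ j := by
  have hlr : (0 : ℝ) < lq := by exact_mod_cast hl
  have hm : (0 : ℝ) ≤ m := Nat.cast_nonneg m
  unfold CQ
  split_ifs with h1
  · have h2 : (m : ℝ) ≤ lq := by exact_mod_cast h1
    push_cast
    nlinarith [ht.1, ht.2, mul_le_mul_of_nonneg_left ht.2 hm]
  · have h3 := excess_le hj (mul_nonneg hm ht.1) hlr
    push_cast
    refine (sub_le_sub_left h _).trans (h3.trans (le_of_eq ?_))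
    rw [mul_pow]
    ring

/-- the rational value -/
def relQ (m j : ℕ) (φ : ℚ) (lc th : ℕ → ℚ) (M0 M1 M2 : ℚ) : ℚ :=
  cMQ m * sumQ (fun c => GtQ c * (kgQ c - kgQ (c + 1)) *
    (4 * m * CQ m j (lc c) * ((1 + φ * (tgQ (c + 1) ^ 2 / kgQ (c + 1) ^ 2)) * (M2 + th c * M1)
      + φ * (tgQ (c + 1) ^ 2 / kgQ (c + 1) ^ 2) * (M0 + M1 / th c)))) 20

/-- bound of a moment constant -/
lemma Mo_le_of {q j : ℕ} (hqj : 0 < q + j) {a : ℚ} (ha : 0 ≤ a)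
    (h : 4 * (j : ℚ) ^ j * q ^ q ≤ a ^ 2 * ((q : ℚ) + j) ^ (q + j)) : Mo q j ≤ (a : ℝ) := by
  have hn : (0 : ℝ) < (q : ℝ) + j := by exact_mod_cast hqj
  have ha' : (0 : ℝ) ≤ a := by exact_mod_cast ha
  have h' : 4 * (j : ℝ) ^ j * q ^ q ≤ a ^ 2 * ((q : ℝ) + j) ^ (q + j) := by exact_mod_cast h
  refine (sq_le_sq₀ (Mo_nonneg q j) ha').1 ?_
  unfold Mo
  have e1 : √((j : ℝ) / (q + j)) ^ 2 = j / (q + j) := Real.sq_sqrt (by positivity)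
  have e2 : √((q : ℝ) / (q + j)) ^ 2 = q / (q + j) := Real.sq_sqrt (by positivity)
  have e3 : (2 * (√((j : ℝ) / (q + j)) ^ j * √((q : ℝ) / (q + j)) ^ q)) ^ 2
      = 4 * (j : ℝ) ^ j * q ^ q / ((q : ℝ) + j) ^ (q + j) := by
    rw [mul_pow, mul_pow, ← pow_mul, ← pow_mul, mul_comm j 2, mul_comm q 2, pow_mul, pow_mul,
      e1, e2, div_pow, div_pow, pow_add]
    field_simp
    ring
  rw [e3, div_le_iff₀ (by positivity)]
  exact h'

/-- the check -/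
def relOK (m j : ℕ) (φ : ℚ) (lc th : ℕ → ℚ) (M0 M1 M2 ε : ℚ) : Bool :=
  decide (2 ≤ j) && decide (0 ≤ φ) && decide (0 ≤ M0) && decide (0 ≤ M1) && decide (0 ≤ M2)
    && decide (4 * (j : ℚ) ^ j * ((m - 1 : ℕ) : ℚ) ^ (m - 1)
        ≤ M0 ^ 2 * (((m - 1 : ℕ) : ℚ) + j) ^ (m - 1 + j))
    && decide (4 * ((j + 1 : ℕ) : ℚ) ^ (j + 1) * ((m - 1 : ℕ) : ℚ) ^ (m - 1)
        ≤ M1 ^ 2 * (((m - 1 : ℕ) : ℚ) + ((j + 1 : ℕ) : ℚ)) ^ (m - 1 + (j + 1)))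
    && decide (4 * ((j + 2 : ℕ) : ℚ) ^ (j + 2) * ((m - 1 : ℕ) : ℚ) ^ (m - 1)
        ≤ M2 ^ 2 * (((m - 1 : ℕ) : ℚ) + ((j + 2 : ℕ) : ℚ)) ^ (m - 1 + (j + 2)))
    && (List.range 20).all (fun c => decide (0 < lc c) && decide (0 < th c))
    && decide ((m : ℚ) ≤ lc 19)
    && decide (relQ m j φ lc th M0 M1 M2 ≤ ε)

variable {X : Type*} [MeasurableSpace X] {E : Type*} [NormedAddCommGroup E]
  [InnerProductSpace ℝ E] [MeasurableSpace E] [BorelSpace E] [SecondCountableTopology E]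
  {μ : Measure X} [IsFiniteMeasure μ] {m q : ℕ} {p n z : X → E}

/-- the relative tail of a dimension -/
theorem rel_block [Nontrivial E] {j : ℕ} {φ M0 M1 M2 ε : ℚ} {lc th : ℕ → ℚ}
    (hok : relOK m j φ lc th M0 M1 M2 ε = true)
    (hm : 17 ≤ m) (h2 : Two μ m p n) (h1 : MinRow μ m p n)
    (hA : 0 < μ.real univ) {C0 : ℝ} (hz : Measurable z)
    (hzC : ∀ x, ‖z x‖ ≤ C0)
    (hzp : ∀ x y, ⟪n x, p y⟫ - ⟪p x, n y⟫ = ⟪z x, p y⟫ - ⟪p x, z y⟫)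
    (hF : ∫ x, ⟪z x, p x⟫ ^ 2 ∂μ ≤ φ * ∫ x, ‖z x‖ ^ 2 ∂μ) {l : ℝ → ℝ}
    (hl : ∀ c < 20, ∀ T ∈ Ioo (0 : ℝ) 1, tg c < T → T ≤ tg (c + 1) → ((lc c : ℚ) : ℝ) ≤ l T) :
    ∃ τ : ℝ → ℝ, IntervalIntegrable τ volume 0 1 ∧
      (∀ T ∈ Ioo (0 : ℝ) 1, (m + 1) * (m + 2) * T ^ 2 * rM m T / (1 - T ^ 2) / 2
        * E2 μ p n (TK m T (l T)) ≤ τ T * (μ.real univ) ^ 2) ∧
      ∫ T in (0 : ℝ)..1, τ T ≤ ε * ((∫ x, ‖z x‖ ^ 2 ∂μ) / μ.real univ) := by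
  unfold relOK at hok
  simp only [Bool.and_eq_true, decide_eq_true_eq, List.all_eq_true, List.mem_range] at hok
  obtain ⟨⟨⟨⟨⟨⟨⟨⟨⟨⟨hj, hφ⟩, hM0⟩, hM1⟩, hM2⟩, k0⟩, k1⟩, k2⟩, hlt⟩, h19⟩, hsum⟩ := hok
  have hlc : ∀ c < 20, 0 < lc c := fun c hc => (hlt c hc).1
  have hth : ∀ c < 20, (0 : ℝ) < (th c : ℚ) := fun c hc => by exact_mod_cast (hlt c hc).2
  have hφ' : (0 : ℝ) ≤ φ := by exact_mod_cast hφ
  have b0 : Mo (m - 1) j ≤ (M0 : ℝ) := Mo_le_of (by omega) hM0 k0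
  have b1 : Mo (m - 1) (j + 1) ≤ (M1 : ℝ) := Mo_le_of (by omega) hM1 k1
  have b2 : Mo (m - 1) (j + 2) ≤ (M2 : ℝ) := Mo_le_of (by omega) hM2 k2
  obtain ⟨τ, i1, i2, i3⟩ := tls_gen (l := l) (j := j) (φ := (φ : ℝ)) (θ := fun c => ((th c : ℚ) : ℝ))
    (C := fun c => ((CQ m j (lc c) : ℚ) : ℝ)) hm h2 h1 hA hz hzC hzp hφ' hF
    hth
    (fun c hc => by exact_mod_cast CQ_nonneg (by omega) (hlc c hc))
    (fun c hc T hT t1 t2 t ht => CQ_spec hj (hlc c hc) (hl c hc T hT t1 t2) ht)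
    (by simp only [CQ, h19, if_true]; norm_num)
  refine ⟨τ, i1, i2, i3.le.trans (mul_le_mul_of_nonneg_right ?_ ?_)⟩
  · have h5 : cM m ≤ (cMQ m : ℚ) := cM_le (by omega) le_rfl
    refine le_trans ?_ (Rat.cast_le.2 hsum)
    unfold relQ
    rw [Rat.cast_mul, sumQ_cast]
    refine mul_le_mul h5 (Finset.sum_le_sum fun c hc => ?_) (Finset.sum_nonneg fun c hc => ?_)
      ((cM_nonneg m).trans h5)
    · have hc := Finset.mem_range.1 hc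
      have hG := Gt_nonneg c hc
      have hk := sub_nonneg.2 (kg_anti c hc)
      have hC : (0 : ℝ) ≤ (CQ m j (lc c) : ℚ) := by
        exact_mod_cast CQ_nonneg (by omega) (hlc c hc)
      have ht := hth c hc
      push_cast
      rw [GtQ_cast c hc, kgQ_cast, kgQ_cast, tgQ_cast]
      gcongr
    · have hc := Finset.mem_range.1 hc
      have hG := Gt_nonneg c hc
      have hk := sub_nonneg.2 (kg_anti c hc)
      have hC : (0 : ℝ) ≤ (CQ m j (lc c) : ℚ) := by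
        exact_mod_cast CQ_nonneg (by omega) (hlc c hc)
      have ht := hth c hc
      have := Mo_nonneg (m - 1) j
      have := Mo_nonneg (m - 1) (j + 1)
      have := Mo_nonneg (m - 1) (j + 2)
      positivity
  · have : 0 ≤ ∫ x, ‖z x‖ ^ 2 ∂μ := integral_nonneg fun x => by positivity
    positivity

/-- the trivial bound of the radial part -/
lemma rad_le (hz : Measurable z) {C0 : ℝ} (hzC : ∀ x, ‖z x‖ ≤ C0) (hp : ∀ x, ‖p x‖ = 1)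
    (hmp : Measurable p) :
    ∫ x, ⟪z x, p x⟫ ^ 2 ∂μ ≤ ((1 : ℚ) : ℝ) * ∫ x, ‖z x‖ ^ 2 ∂μ := by
  have hb : ∀ x, ⟪z x, p x⟫ ^ 2 ≤ ‖z x‖ ^ 2 := fun x => by
    have h1 := abs_real_inner_le_norm (z x) (p x)
    rw [hp x, mul_one] at h1
    have := pow_le_pow_left₀ (abs_nonneg _) h1 2
    rwa [sq_abs] at this
  have h0 : ∀ x, ‖z x‖ ^ 2 ≤ C0 ^ 2 := fun x => pow_le_pow_left₀ (norm_nonneg _) (hzC x) 2
  have i2 : Integrable (fun x => ‖z x‖ ^ 2) μ :=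
    Integrable.of_bound (hz.norm.pow_const 2).aestronglyMeasurable (C0 ^ 2)
      (ae_of_all _ fun x => by
        rw [Real.norm_of_nonneg (by positivity)]
        exact h0 x)
  have i1 : Integrable (fun x => ⟪z x, p x⟫ ^ 2) μ :=
    Integrable.of_bound ((hz.inner hmp).pow_const 2).aestronglyMeasurable (C0 ^ 2)
      (ae_of_all _ fun x => by
        rw [Real.norm_of_nonneg (by positivity)]
        exact (hb x).trans (h0 x))
  rw [Rat.cast_one, one_mul]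
  exact integral_mono i1 i2 hb

end Vale.Agent.P224.R2.H424.Tls
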