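import Vale.Agent.P224.R2.H424.Abs5

/-!
Third pass, second part: lower bound of `V`, upper bounds of `S` and `E`.
-/

namespace Vale.Agent.P224.R2.H424

open Set Vale.Agent.P224.R2.H355 Vale.Agent.P224.R2.H876

namespace HS

variable {a L : ℝ} (s : HSol a L) (hp : Par a L)
include hp

lemma F_le8 : ∀ h ∈ Icc (0 : ℝ) 1, s.F h ≤ 8 * h ^ 2 := by
  intro h hh
  have h0 := hh.1
  have e := (abs_le.1 (F_sub' s hp h hh)).2
  have e1 := mul_le_mul_of_nonneg_left (E_le s hp h hh) (show 0 ≤ 6 * h by linarith)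
  have e3 := mul_le_mul_of_nonneg_right hp.L1 (sq_nonneg h)
  nlinarith

lemma F1_le31 : ∀ h ∈ Icc (0 : ℝ) 1, s.F1 h ≤ 30.6 * h := by
  intro h hh
  have h0 := hh.1
  have e := (abs_le.1 (F1_sub' s hp h hh)).2
  have e1 := E_le s hp h hh
  have e2 := mul_le_mul_of_nonneg_left (abs_le.1 (bE1 s hp h hh)).2 h0
  have e3 := mul_le_mul_of_nonneg_right hp.L1 h0
  nlinarith

/-- the hat function of `B` dominates `3 E + 2 h E'` -/
lemma E_le_B : ∀ h ∈ Icc (0 : ℝ) 1, 3 * s.E h + 2 * h * s.E1 h ≤ B s h := by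
  intro h hh
  have h0 := hh.1
  have h1 := hh.2
  have hpos := one_pos' hh
  have hL := hp.L0
  have f := (by positivity : 0 ≤ 3.74 * h ^ 2).trans (F_ge s hp h hh)
  have f1 := (mul_nonneg (by norm_num) h0 : 0 ≤ 5.49 * h).trans (F1_ge s hp h hh)
  have e : B s h = 3 * s.E h + 2 * h * s.E1 h + L / 4 * ((3 * s.F h + 2 * h * s.F1 h) / (1 + h)
      - 2 * h * s.F h / (1 + h) ^ 2) := by
    unfold B Eh Eh1 R R1
    ring
  have e2 : 2 * h * s.F h / (1 + h) ^ 2 ≤ (3 * s.F h + 2 * h * s.F1 h) / (1 + h) := by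
    rw [div_le_div_iff₀ (pow_pos hpos 2) hpos]
    have k1 : 0 ≤ 2 * h * s.F1 h := by positivity
    have k2 : 2 * h * s.F h ≤ (3 * s.F h + 2 * h * s.F1 h) * (1 + h) := by
      nlinarith [mul_nonneg h0 f, mul_nonneg h0 k1]
    calc 2 * h * s.F h * (1 + h) ≤ (3 * s.F h + 2 * h * s.F1 h) * (1 + h) * (1 + h) :=
          mul_le_mul_of_nonneg_right k2 hpos.le
      _ = _ := by ring
  rw [e]
  have := mul_nonneg (show 0 ≤ L / 4 by positivity) (sub_nonneg.2 e2)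
  linarith

variable {x : ℝ} (hx : a * x = 1) (hx0 : 0 < x) (hx1 : x ≤ 2 / 17) (haL : a * L ≤ 1.0035 * x)
include hx hx0 hx1

/-- first order lower bound of `V'` and `V` -/
lemma V_lo : ∀ h ∈ Icc (0 : ℝ) 1, x * h * (3 / 4 + x * (-3 / 4 + 11 / 4 * h ^ 2)) ≤ s.V1 h ∧
    1 + x * (3 / 8 * h ^ 2 + x * (-3 / 8 * h ^ 2 + 11 / 16 * h ^ 4)) ≤ s.V h := by
  have ha := hp.ha
  refine V_cmp_lo s hp (U := fun h => 1 + x * (3 / 8 * h ^ 2 + x * (-3 / 8 * h ^ 2
      + 11 / 16 * h ^ 4)))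
    (U1 := fun h => x * h * (3 / 4 + x * (-3 / 4 + 11 / 4 * h ^ 2)))
    (U2 := fun h => x * (3 / 4 + x * (-3 / 4 + 33 / 4 * h ^ 2)))
    (by fun_prop) (by fun_prop) ?_ ?_ (by simp) ?_ ?_
  · intro h _
    have i := hasDerivAt_id h
    have d1 := ((i.pow 2).const_mul (-3 / 8)).add ((i.pow 4).const_mul (11 / 16))
    have d2 := ((((i.pow 2).const_mul (3 / 8)).add (d1.const_mul x)).const_mul x).const_add 1
    refine d2.congr_deriv ?_
    simp only [id]
    push_cast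
    ring
  · intro h _
    have i := hasDerivAt_id h
    have d1 := ((i.pow 2).const_mul (11 / 4)).const_add (-3 / 4)
    have d2 := (i.const_mul x).mul ((d1.const_mul x).const_add (3 / 4))
    refine d2.congr_deriv ?_
    simp only [id, Pi.pow_apply]
    push_cast
    ring
  · refine ⟨1, zero_le_one, fun h hh => ?_⟩
    have h0 := hh.1
    have h1 := hh.2
    have e1 := V1_nonneg s hp h hh
    have hh2 : h ^ 2 ≤ 1 := by nlinarith
    have e2 : 3 / 4 + x * (-3 / 4 + 11 / 4 * h ^ 2) ≤ 1 := by nlinarith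
    have e3 : x * h * (3 / 4 + x * (-3 / 4 + 11 / 4 * h ^ 2)) ≤ x * h * 1 :=
      mul_le_mul_of_nonneg_left e2 (by positivity)
    have e4 : x * h ≤ 1 * h := mul_le_mul_of_nonneg_right (by linarith) h0
    linarith
  · intro h hh
    have h0 := hh.1
    have h1 := hh.2
    have hL := hp.L0
    have eS := mul_nonneg (show 0 ≤ L / 8 by positivity) (S_nonneg s hp h hh)
    have p1 : 0 ≤ 3 / 17 - 449 / 272 * h ^ 2 + 1089 / 272 * h ^ 4 := by
      nlinarith [sq_nonneg (h ^ 2 - 449 / 2178)]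
    have c1 : 0 ≤ 1 - 17 / 2 * x := by linarith
    have key : 0 ≤ x * h * ((1 - 17 / 2 * x) * (17 / 16 * h ^ 2) + 17 / 2 * x *
        (3 / 17 - 449 / 272 * h ^ 2 + 1089 / 272 * h ^ 4)) := by
      refine mul_nonneg (by positivity) (add_nonneg (mul_nonneg c1 (by positivity))
        (mul_nonneg (by positivity) p1))
    have e4 : 3 / 2 * h * (1 + x * (3 / 8 * h ^ 2 + x * (-3 / 8 * h ^ 2 + 11 / 16 * h ^ 4)))
        - (2 * h * (1 - h ^ 2) * (x * (3 / 4 + x * (-3 / 4 + 33 / 4 * h ^ 2)))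
        + (2 * a - 6 * h ^ 2) * (x * h * (3 / 4 + x * (-3 / 4 + 11 / 4 * h ^ 2))))
        = x * h * ((1 - 17 / 2 * x) * (17 / 16 * h ^ 2) + 17 / 2 * x *
        (3 / 17 - 449 / 272 * h ^ 2 + 1089 / 272 * h ^ 4)) := by
      linear_combination (-(2 * h * (3 / 4 + x * (-3 / 4 + 11 / 4 * h ^ 2)))) * hx
    linarith

include haL

lemma L_le : L ≤ 0.1181 * x := by
  have h1 : L = a * L * x := by
    have : a * L * x = L * (a * x) := by ring
    rw [this, hx, mul_one]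
  have h2 : a * L * x ≤ 1.0035 * x * x := mul_le_mul_of_nonneg_right haL hx0.le
  nlinarith

/-- the supersolution of `B` -/
lemma B_up : ∀ h ∈ Icc (0 : ℝ) 1, B s h ≤ (5 - 22.1 * L) * h + 140 / 3 * x * h ^ 6 := by
  have ha := hp.ha
  have hL := hp.L0
  have hLx := L_le hp hx hx0 hx1 haL
  refine le_of_le (a := fun h => 2 * h * (1 - h ^ 2)) (c := fun h => 2 * a + h - 7 * h ^ 2)
    (f := B s) (g := B1 s) (F := fun h => (5 - 22.1 * L) * h + 140 / 3 * x * h ^ 6)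
    (G := fun h => (5 - 22.1 * L) + 280 * x * h ^ 5) zero_le_one
    (cont_B s) (fun h hh => deriv_B s hh) (by fun_prop) (fun y _ => ?_) (by simp) (by simp)
    (fun h hh => by nlinarith [hh.1, hh.2]) (fun h hh => ?_)
  · have i := hasDerivAt_id y
    have d := (i.const_mul (5 - 22.1 * L)).add ((i.pow 6).const_mul (140 / 3 * x))
    refine d.congr_deriv ?_
    simp only [id]
    push_cast
    ring
  · rw [hB s hp hh]
    have h0 := hh.1
    have h1 := hh.2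
    have hpos := one_pos' hh
    obtain ⟨v1, v⟩ := V_up s hp hx hx0 hx1 haL h hh
    have f := F_le8 s hp h hh
    have f0 : 0 ≤ s.F h := (by positivity : (0 : ℝ) ≤ 3.74 * h ^ 2).trans (F_ge s hp h hh)
    have f1 := F1_le31 s hp h hh
    have eh := Eh_ge s hp h hh
    have haL0 : 0 ≤ a * L := mul_nonneg hp.a0.le hL
    -- the right hand side is at most Y / (1 + h)
    set Y := 2 * a * h * ((5 + 2 * h) * (1 + x * (3 / 8 * h ^ 2 + x * Iu h))
        + (4 * a - 10 + 6 * h + 4 * h ^ 2) * (x * h * (3 / 4 + x * pu h)))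
        + a * L / 2 * ((3 - h) * (8 * h ^ 2) + 2 * h * (1 - h) * (30.6 * h))
        - 1.498 * h ^ 2 * (1 + h) with hY
    have k1 : 2 * a * h / (1 + h) * ((5 + 2 * h) * s.V h
        + (4 * a - 10 + 6 * h + 4 * h ^ 2) * s.V1 h) ≤ 2 * a * h * ((5 + 2 * h) * (1
        + x * (3 / 8 * h ^ 2 + x * Iu h))
        + (4 * a - 10 + 6 * h + 4 * h ^ 2) * (x * h * (3 / 4 + x * pu h))) / (1 + h) := by
      rw [div_mul_eq_mul_div]
      refine div_le_div_of_nonneg_right ?_ hpos.le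
      refine mul_le_mul_of_nonneg_left ?_ (by positivity)
      exact add_le_add (mul_le_mul_of_nonneg_left v (by linarith))
        (mul_le_mul_of_nonneg_left v1 (by nlinarith))
    have k2 : a * L / 2 * (((3 - h) * s.F h + 2 * h * (1 - h) * s.F1 h) / (1 + h)
        - 2 * h * s.F h / (1 + h) ^ 2) ≤ a * L / 2 * ((3 - h) * (8 * h ^ 2)
        + 2 * h * (1 - h) * (30.6 * h)) / (1 + h) := by
      rw [mul_div_assoc (a * L / 2) ((3 - h) * (8 * h ^ 2) + 2 * h * (1 - h) * (30.6 * h))]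
      refine mul_le_mul_of_nonneg_left ?_ (by positivity)
      have c1 : 0 ≤ 2 * h * s.F h / (1 + h) ^ 2 := by positivity
      have c2 : ((3 - h) * s.F h + 2 * h * (1 - h) * s.F1 h) / (1 + h) ≤
          ((3 - h) * (8 * h ^ 2) + 2 * h * (1 - h) * (30.6 * h)) / (1 + h) := by
        refine div_le_div_of_nonneg_right ?_ hpos.le
        exact add_le_add (mul_le_mul_of_nonneg_left f (by linarith))
          (mul_le_mul_of_nonneg_left f1 (mul_nonneg (by positivity) (by linarith)))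
      linarith
    have k3 : 1.498 * h ^ 2 * (1 + h) / (1 + h) ≤ 2 * h * Eh s h := by
      rw [mul_div_assoc, div_self hpos.ne', mul_one]
      have := mul_le_mul_of_nonneg_left eh (show 0 ≤ 2 * h by linarith)
      linarith
    have k4 : Y / (1 + h) ≤ 2 * h * (1 - h ^ 2) * ((5 - 22.1 * L) + 280 * x * h ^ 5)
        + (2 * a + h - 7 * h ^ 2) * ((5 - 22.1 * L) * h + 140 / 3 * x * h ^ 6) := by
      rw [div_le_iff₀ hpos]
      have p0 := polB0 h0 h1
      have p1 := polB1 h0 h1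
      have c1 : 0 ≤ 1 - 17 / 2 * x := by linarith
      have key : 0 ≤ h * ((1 - 17 / 2 * x) * (10 + 18149 / 500 * h - 13213 / 250 * h ^ 2
          - 781 / 10 * h ^ 3 + 280 / 3 * h ^ 5 + 280 / 3 * h ^ 6 - 88 / 5 * h ^ 7) + 17 / 2 * x * (353 / 85 + 1020313 / 42500 * h
          - 1000759 / 21250 * h ^ 2 - 7163 / 102 * h ^ 3 - 1448
          / 255 * h ^ 4 + 39736 / 255 * h ^ 5 + 2800 / 17 * h ^ 6 - 9456 / 85 * h ^ 7
          - 54949 / 510 * h ^ 8 - 11 / 5 * h ^ 9)) := by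
        refine mul_nonneg h0 (add_nonneg (mul_nonneg c1 p0) (mul_nonneg (by positivity) p1))
      have l1 : 22.1 * (2 * (a * L) + L * (2 + h - 9 * h ^ 2)) ≤ 49.7 * x := by
        have : L * (2 + h - 9 * h ^ 2) ≤ L * 2.03 :=
          mul_le_mul_of_nonneg_left (by nlinarith [sq_nonneg (h - 1 / 18)]) hL
        linarith
      have l2 := mul_le_mul_of_nonneg_left l1 (show 0 ≤ h * (1 + h) by positivity)
      have l3 : a * L / 2 * (h * (85.2 - 69.2 * h)) ≤ 0.502 * x * (h * (85.2 - 69.2 * h)) :=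
        mul_le_mul_of_nonneg_right (by linarith) (mul_nonneg h0 (by linarith))
      have l4 := mul_le_mul_of_nonneg_left l3 h0
      have e4 : (2 * h * (1 - h ^ 2) * ((5 - 22.1 * L) + 280 * x * h ^ 5)
          + (2 * a + h - 7 * h ^ 2) * ((5 - 22.1 * L) * h + 140 / 3 * x * h ^ 6)) * (1 + h) - Y
          = h * ((1 - 17 / 2 * x) * (10 + 18149 / 500 * h - 13213 / 250 * h ^ 2
          - 781 / 10 * h ^ 3 + 280 / 3 * h ^ 5 + 280 / 3 * h ^ 6 - 88 / 5 * h ^ 7) + 17 / 2 * x * (353 / 85 + 1020313 / 42500 * h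
          - 1000759 / 21250 * h ^ 2 - 7163 / 102 * h ^ 3 - 1448
          / 255 * h ^ 4 + 39736 / 255 * h ^ 5 + 2800 / 17 * h ^ 6 - 9456 / 85 * h ^ 7
          - 54949 / 510 * h ^ 8 - 11 / 5 * h ^ 9))
          + (h * (1 + h) * (49.7 * x) - h * (1 + h) * (22.1 * (2 * (a * L)
          + L * (2 + h - 9 * h ^ 2))))
          + (h * (0.502 * x * (h * (85.2 - 69.2 * h))) - h * (a * L / 2 * (h * (85.2
          - 69.2 * h)))) := by
        rw [hY]
        unfold pu Iu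
        linear_combination (280 / 3 * h ^ 6 * (1 + h) - 2 * h * (5 + 2 * h) * (3 / 8 * h ^ 2
          + x * (-3 / 10 * h ^ 2 + h ^ 3 / 15 + 4 / 5 * h ^ 4 + 11 / 40 * h ^ 8))
          - 8 * h ^ 2 * (3 / 4 * a + (-3 / 5 + h / 5 + 16 / 5 * h ^ 2 + 11 / 5 * h ^ 6)
          * (a * x + 1)) - 2 * h ^ 2 * (-10 + 6 * h + 4 * h ^ 2) * (3 / 4
          + x * (-3 / 5 + h / 5 + 16 / 5 * h ^ 2 + 11 / 5 * h ^ 6))) * hx
      rw [← sub_nonneg, e4]
      exact add_nonneg (add_nonneg key (sub_nonneg.2 l2)) (sub_nonneg.2 l4)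
    have k5 : Y / (1 + h) = 2 * a * h * ((5 + 2 * h) * (1 + x * (3 / 8 * h ^ 2 + x * Iu h))
        + (4 * a - 10 + 6 * h + 4 * h ^ 2) * (x * h * (3 / 4 + x * pu h))) / (1 + h)
        + a * L / 2 * ((3 - h) * (8 * h ^ 2) + 2 * h * (1 - h) * (30.6 * h)) / (1 + h)
        - 1.498 * h ^ 2 * (1 + h) / (1 + h) := by
      rw [hY]
      ring
    exact (sub_le_sub (add_le_add k1 k2) k3).trans (k5.symm.le.trans k4)

/-- **The source bound**: `S = 2 h F' + F ≤ 2 h ^ 2 (15 + 140 h ^ 5 / a)` -/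
lemma S_up : ∀ h ∈ Icc (0 : ℝ) 1, Sf s h ≤ 2 * h ^ 2 * (15 + 140 * x * h ^ 5) := by
  intro h hh
  have h0 := hh.1
  have hL := hp.L0
  have e1 := (abs_le.1 (S_sub s hp h hh)).2
  have e2 := (E_le_B s hp h hh).trans (B_up s hp hx hx0 hx1 haL h hh)
  have e3 := mul_le_mul_of_nonneg_left e2 (show 0 ≤ 6 * h by positivity)
  have e4 := mul_nonneg hL (sq_nonneg h)
  nlinarith

/-- second order upper bound of `E` -/
lemma E_up : ∀ h ∈ Icc (0 : ℝ) 1, s.E h ≤ h * (1 + x * (-1 - 2 * h + 35 / 8 * h ^ 2)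
    + x ^ 2 * (3 / 2 + 6 * h - 657 / 40 * h ^ 2 - 3509 / 240 * h ^ 3 + 2079 / 80 * h ^ 4
    + 11 / 40 * h ^ 8)) := by
  have ha := hp.ha
  have hL := hp.L0
  have hLx : L ≤ 1.0035 * x ^ 2 := by
    have h1 : L = a * L * x := by
      have : a * L * x = L * (a * x) := by ring
      rw [this, hx, mul_one]
    have h2 : a * L * x ≤ 1.0035 * x * x := mul_le_mul_of_nonneg_right haL hx0.le
    nlinarith
  refine le_of_le (a := fun h => 2 * h * (1 - h ^ 2)) (c := fun h => 2 * a + h - 3 * h ^ 2)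
    (f := s.E) (g := s.E1) (F := fun h => h * (1 + x * (-1 - 2 * h + 35 / 8 * h ^ 2)
    + x ^ 2 * (3 / 2 + 6 * h - 657 / 40 * h ^ 2 - 3509 / 240 * h ^ 3 + 2079 / 80 * h ^ 4
    + 11 / 40 * h ^ 8)))
    (G := fun h => 1 + x * (-1 - 4 * h + 105 / 8 * h ^ 2)
    + x ^ 2 * (3 / 2 + 12 * h - 1971 / 40 * h ^ 2 - 3509 / 60 * h ^ 3 + 2079 / 16 * h ^ 4
    + 99 / 40 * h ^ 8)) zero_le_one
    s.cE.c0 (fun h hh => ct s.cE hh) (by fun_prop) (fun y _ => ?_) (by simp) (by simp)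
    (fun h hh => by nlinarith [hh.1, hh.2]) (fun h hh => ?_)
  · have i := hasDerivAt_id y
    have d1 := ((((((i.const_mul 6).const_add (3 / 2)).sub ((i.pow 2).const_mul (657 / 40))).sub
      ((i.pow 3).const_mul (3509 / 240))).add ((i.pow 4).const_mul (2079 / 80))).add
      ((i.pow 8).const_mul (11 / 40)))
    have d2 := (((i.const_mul 2).const_sub (-1)).add ((i.pow 2).const_mul (35 / 8))).const_mul x
    have d := i.mul ((d2.const_add 1).add (d1.const_mul (x ^ 2)))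
    refine d.congr_deriv ?_
    simp only [id, Pi.add_apply, Pi.sub_apply, Pi.pow_apply]
    push_cast
    ring
  · rw [s.eE h hh, s.eW h hh, hW1 s h hh]
    have h0 := hh.1
    have h1 := hh.2
    obtain ⟨v1, v⟩ := V_up s hp hx hx0 hx1 haL h hh
    obtain ⟨w1, w⟩ := V_lo s hp hx hx0 hx1 h hh
    have f := F_le8 s hp h hh
    have f1 : 0 ≤ s.F1 h :=
      (mul_nonneg (by norm_num) h0 : (0 : ℝ) ≤ 5.49 * h).trans (F1_ge s hp h hh)
    have ha' := hp.a0.ne'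
    have k1 : 2 * a * h * (s.V h + L / (8 * a) * s.F h - 2 * (1 - h) * (s.V1 h
        + L / (8 * a) * s.F1 h)) = 2 * a * h * (s.V h - 2 * (1 - h) * s.V1 h)
        + L / 4 * h * s.F h - L / 2 * (h * (1 - h) * s.F1 h) := by
      field_simp
      ring
    have k2 : 0 ≤ L / 2 * (h * (1 - h) * s.F1 h) :=
      mul_nonneg (by positivity) (mul_nonneg (mul_nonneg h0 (by linarith)) f1)
    have k3 : L / 4 * h * s.F h ≤ 2.007 * x ^ 2 * h ^ 2 := by
      have c1 : L / 4 * h * s.F h ≤ L / 4 * h * (8 * h ^ 2) :=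
        mul_le_mul_of_nonneg_left f (by positivity)
      have c2 : L * (h ^ 2 * h) ≤ L * (h ^ 2 * 1) :=
        mul_le_mul_of_nonneg_left (mul_le_mul_of_nonneg_left h1 (sq_nonneg h)) hL
      have c3 := mul_le_mul_of_nonneg_right hLx (sq_nonneg h)
      nlinarith
    have k4 : 2 * a * h * (s.V h - 2 * (1 - h) * s.V1 h) ≤ 2 * a * h * ((1
        + x * (3 / 8 * h ^ 2 + x * Iu h)) - 2 * (1 - h) * (x * h * (3 / 4
        + x * (-3 / 4 + 11 / 4 * h ^ 2)))) := by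
      refine mul_le_mul_of_nonneg_left ?_ (mul_nonneg (by linarith) h0)
      have := mul_le_mul_of_nonneg_left w1 (show 0 ≤ 2 * (1 - h) by linarith)
      linarith
    have p1 := polE1 h0 h1
    have key : 0 ≤ x * h * ((1 - 17 / 2 * x) * 1 + 17 / 2 * x * (23 / 17 + 23493 / 8500 * h
        - 2001 / 170 * h ^ 2 - 21047 / 1020 * h ^ 3 + 94339 / 2040 *
        h ^ 4 + 11209 / 510 * h ^ 5 - 27027 / 680 * h ^ 6 + 99 / 170 * h ^ 8 + 11 / 340 * h ^ 9
        - 231 / 340 * h ^ 10)) := by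
      refine mul_nonneg (by positivity) (add_nonneg (by linarith) (mul_nonneg (by positivity) p1))
    have e4 : 2 * h * (1 - h ^ 2) * (1 + x * (-1 - 4 * h + 105 / 8 * h ^ 2)
        + x ^ 2 * (3 / 2 + 12 * h - 1971 / 40 * h ^ 2 - 3509 / 60 * h ^ 3 + 2079 / 16 * h ^ 4
        + 99 / 40 * h ^ 8)) + (2 * a + h - 3 * h ^ 2) * (h * (1
        + x * (-1 - 2 * h + 35 / 8 * h ^ 2)
        + x ^ 2 * (3 / 2 + 6 * h - 657 / 40 * h ^ 2 - 3509 / 240 * h ^ 3 + 2079 / 80 * h ^ 4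
        + 11 / 40 * h ^ 8))) - 2 * a * h * ((1
        + x * (3 / 8 * h ^ 2 + x * Iu h)) - 2 * (1 - h) * (x * h * (3 / 4
        + x * (-3 / 4 + 11 / 4 * h ^ 2)))) - 2.007 * x ^ 2 * h ^ 2
        = x * h * ((1 - 17 / 2 * x) * 1 + 17 / 2 * x * (23 / 17 + 23493 / 8500 * h
        - 2001 / 170 * h ^ 2 - 21047 / 1020 * h ^ 3 + 94339 / 2040 *
        h ^ 4 + 11209 / 510 * h ^ 5 - 27027 / 680 * h ^ 6 + 99 / 170 * h ^ 8 + 11 / 340 * h ^ 9
        - 231 / 340 * h ^ 10)) := by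
      unfold Iu
      linear_combination (2 * h * ((-1 - 2 * h + 35 / 8 * h ^ 2)
        + x * (3 / 2 + 6 * h - 657 / 40 * h ^ 2 - 3509 / 240 * h ^ 3 + 2079 / 80 * h ^ 4
        + 11 / 40 * h ^ 8)) - 2 * h * (3 / 8 * h ^ 2 + x * (-3 / 10 * h ^ 2 + h ^ 3 / 15
        + 4 / 5 * h ^ 4 + 11 / 40 * h ^ 8)) + 4 * h ^ 2 * (1 - h) * (3 / 4
        + x * (-3 / 4 + 11 / 4 * h ^ 2))) * hx
    rw [← e4] at key
    rw [k1]
    generalize 2 * h * (1 - h ^ 2) * (1 + x * (-1 - 4 * h + 105 / 8 * h ^ 2)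
        + x ^ 2 * (3 / 2 + 12 * h - 1971 / 40 * h ^ 2 - 3509 / 60 * h ^ 3 + 2079 / 16 * h ^ 4
        + 99 / 40 * h ^ 8)) + (2 * a + h - 3 * h ^ 2) * (h * (1
        + x * (-1 - 2 * h + 35 / 8 * h ^ 2)
        + x ^ 2 * (3 / 2 + 6 * h - 657 / 40 * h ^ 2 - 3509 / 240 * h ^ 3 + 2079 / 80 * h ^ 4
        + 11 / 40 * h ^ 8))) = Z at key ⊢
    generalize 2 * a * h * ((1 + x * (3 / 8 * h ^ 2 + x * Iu h)) - 2 * (1 - h) * (x * h * (3 / 4
        + x * (-3 / 4 + 11 / 4 * h ^ 2)))) = Z' at key k4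
    generalize 2 * a * h * (s.V h - 2 * (1 - h) * s.V1 h) = Z'' at k4 ⊢
    linarith

end HS

end Vale.Agent.P224.R2.H424
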