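import Vale.Agent.P224.R2.H424.Seq
import Vale.Agent.P224.R2.H355.HSys
import Vale.Agent.P224.R2.H876.Max

/-!
Tools for the absolute bounds of the odd flow in h-form.
-/

namespace Vale.Agent.P224.R2.H424

open Set Vale.Agent.P224.R2.H355 Vale.Agent.P224.R2.H876

/-- continuity on the closed interval upgrades an equality on the open interval -/
lemma eqOn_Icc {f g : ℝ → ℝ} (hf : ContinuousOn f (Icc 0 1)) (hg : ContinuousOn g (Icc 0 1))
    (h : ∀ x ∈ Ioo (0 : ℝ) 1, f x = g x) : ∀ x ∈ Icc (0 : ℝ) 1, f x = g x := by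
  have hcl : Icc (0 : ℝ) 1 ⊆ closure (Ioo 0 1) := by rw [closure_Ioo zero_ne_one]
  have := EqOn.of_subset_closure (s := Ioo (0 : ℝ) 1) (t := Icc 0 1) (fun x hx => h x hx)
    hf hg Ioo_subset_Icc_self hcl
  exact fun x hx => this hx

/-- derivatives of equal functions are equal -/
lemma deriv_eq {f g f' g' : ℝ → ℝ} (h : ∀ x ∈ Icc (0 : ℝ) 1, f x = g x)
    (hf : ∀ x ∈ Ioo (0 : ℝ) 1, HasDerivAt f (f' x) x)
    (hg : ∀ x ∈ Ioo (0 : ℝ) 1, HasDerivAt g (g' x) x)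
    (cf : ContinuousOn f' (Icc 0 1)) (cg : ContinuousOn g' (Icc 0 1)) :
    ∀ x ∈ Icc (0 : ℝ) 1, f' x = g' x := by
  refine eqOn_Icc cf cg fun x hx => ?_
  have h1 : f =ᶠ[nhds x] g := by
    filter_upwards [Ioo_mem_nhds hx.1 hx.2] with y hy
    exact h y ⟨hy.1.le, hy.2.le⟩
  exact (hf x hx).unique ((hg x hx).congr_of_eventuallyEq h1)

/-- integration of an inequality of derivatives -/
lemma le_of_deriv {f F f' F' : ℝ → ℝ} (hf : ContinuousOn f (Icc 0 1))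
    (hF : ContinuousOn F (Icc 0 1)) (df : ∀ x ∈ Ioo (0 : ℝ) 1, HasDerivAt f (f' x) x)
    (dF : ∀ x ∈ Ioo (0 : ℝ) 1, HasDerivAt F (F' x) x) (h0 : f 0 ≤ F 0)
    (h : ∀ x ∈ Icc (0 : ℝ) 1, f' x ≤ F' x) : ∀ x ∈ Icc (0 : ℝ) 1, f x ≤ F x := by
  have mono : MonotoneOn (fun x => F x - f x) (Icc 0 1) := by
    refine monotoneOn_of_deriv_nonneg (convex_Icc 0 1) (hF.sub hf) ?_ ?_
    · rw [interior_Icc]
      exact fun x hx => ((dF x hx).sub (df x hx)).differentiableAt.differentiableWithinAt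
    · rw [interior_Icc]
      intro x hx
      have := ((dF x hx).sub (df x hx)).deriv
      simp only [Pi.sub_def] at this
      rw [this]
      linarith [h x ⟨hx.1.le, hx.2.le⟩]
  intro x hx
  have := mono (left_mem_Icc.2 zero_le_one) hx hx.1
  simp only at this
  linarith

lemma abs_le_of_deriv {f F f' F' : ℝ → ℝ} (hf : ContinuousOn f (Icc 0 1))
    (hF : ContinuousOn F (Icc 0 1)) (df : ∀ x ∈ Ioo (0 : ℝ) 1, HasDerivAt f (f' x) x)
    (dF : ∀ x ∈ Ioo (0 : ℝ) 1, HasDerivAt F (F' x) x) (h0 : |f 0| ≤ F 0)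
    (h : ∀ x ∈ Icc (0 : ℝ) 1, |f' x| ≤ F' x) : ∀ x ∈ Icc (0 : ℝ) 1, |f x| ≤ F x := by
  have h1 := le_of_deriv hf hF df dF ((abs_le.1 h0).2) fun x hx => (abs_le.1 (h x hx)).2
  have h2 := le_of_deriv hf.neg hF (fun x hx => (df x hx).neg) dF
    (by simp only [Pi.neg_apply]; linarith [(abs_le.1 h0).1]) fun x hx => by
      linarith [(abs_le.1 (h x hx)).1]
  intro x hx
  rw [abs_le]
  have := h2 x hx
  simp only [Pi.neg_apply] at this
  exact ⟨by linarith, h1 x hx⟩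

/-- a continuous function is bounded on `[0,1]` -/
lemma exists_bd {f : ℝ → ℝ} (hf : ContinuousOn f (Icc 0 1)) :
    ∃ K : ℝ, 0 ≤ K ∧ ∀ x ∈ Icc (0 : ℝ) 1, |f x| ≤ K := by
  obtain ⟨K, hK⟩ := isCompact_Icc.exists_bound_of_continuousOn hf
  exact ⟨K, (abs_nonneg _).trans (hK 0 (left_mem_Icc.2 zero_le_one)), fun x hx => hK x hx⟩

/-- self improving bounds: from `M` to `A + t M`, `t < 1` -/
lemma self_improve {ι : Type*} {g w : ι → ℝ} {s : Set ι} {A t : ℝ} (hA : 0 ≤ A) (ht : 0 ≤ t)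
    (ht1 : t < 1) (hw : ∀ x ∈ s, 0 ≤ w x) (h0 : ∃ M, 0 ≤ M ∧ ∀ x ∈ s, g x ≤ M * w x)
    (h : ∀ M, 0 ≤ M → (∀ x ∈ s, g x ≤ M * w x) → ∀ x ∈ s, g x ≤ (A + t * M) * w x) :
    ∀ B, A + t * B ≤ B → ∀ x ∈ s, g x ≤ B * w x := by
  intro B hB x hx
  obtain ⟨M, hM0, hM⟩ := h0
  have hBn : 0 ≤ B := by
    by_contra hneg
    push Not at hneg
    nlinarith
  -- the bounds B + t^n M
  have key : ∀ n : ℕ, ∀ x ∈ s, g x ≤ (B + t ^ n * M) * w x := by
    intro n
    induction n with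
    | zero =>
      intro x hx
      have := hM x hx
      have h2 := mul_nonneg hBn (hw x hx)
      simp only [pow_zero, one_mul]
      nlinarith
    | succ n ih =>
      intro x hx
      have h1 := h (B + t ^ n * M) (by positivity) ih x hx
      refine h1.trans (mul_le_mul_of_nonneg_right ?_ (hw x hx))
      rw [pow_succ]
      nlinarith
  have hlim : Filter.Tendsto (fun n : ℕ => (B + t ^ n * M) * w x) Filter.atTop
      (nhds ((B + 0 * M) * w x)) :=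
    (((tendsto_pow_atTop_nhds_zero_of_lt_one ht ht1).mul_const M).const_add B).mul_const (w x)
  have := ge_of_tendsto' hlim fun n => key n x hx
  simpa using this

section hsol

variable {a L : ℝ}

lemma ct {f f1 f2 : ℝ → ℝ} (h : H2 f f1 f2) {x : ℝ} (hx : x ∈ Ioo (0 : ℝ) 1) :
    HasDerivAt f (f1 x) x := h.d1 x ⟨by linarith [hx.1], hx.2⟩

lemma ct1 {f f1 f2 : ℝ → ℝ} (h : H2 f f1 f2) {x : ℝ} (hx : x ∈ Ioo (0 : ℝ) 1) :
    HasDerivAt f1 (f2 x) x := h.d2 x ⟨by linarith [hx.1], hx.2⟩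

end hsol

end Vale.Agent.P224.R2.H424
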