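import Vale.Agent.P224.R2.H424.Abs0

/-!
Derived identities for the odd flow in h-form.
-/

namespace Vale.Agent.P224.R2.H424

open Set Vale.Agent.P224.R2.H355 Vale.Agent.P224.R2.H876

namespace HS

noncomputable def w (L h : ℝ) : ℝ := h * (1 - L / 2 * (h / (1 + h)))
noncomputable def w1 (L h : ℝ) : ℝ := 1 - L / 2 * ((2 * h + h ^ 2) / (1 + h) ^ 2)
noncomputable def kp (L h : ℝ) : ℝ := h / (1 + h - L / 2 * h)
noncomputable def kp1 (L h : ℝ) : ℝ := 1 / (1 + h - L / 2 * h) ^ 2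

variable {a L : ℝ}

section defs

variable (s : HSol a L)

noncomputable def D (h : ℝ) : ℝ := s.E h - s.G h
noncomputable def D1 (h : ℝ) : ℝ := s.E1 h - s.G1 h
noncomputable def Y (h : ℝ) : ℝ := h * D s h - s.P1 h
noncomputable def Y1 (h : ℝ) : ℝ := D s h + h * D1 s h - s.P2 h
noncomputable def R (h : ℝ) : ℝ := s.F h / (1 + h)
noncomputable def R1 (h : ℝ) : ℝ := s.F1 h / (1 + h) - s.F h / (1 + h) ^ 2
noncomputable def R2 (h : ℝ) : ℝ :=
  s.F2 h / (1 + h) - 2 * s.F1 h / (1 + h) ^ 2 + 2 * s.F h / (1 + h) ^ 3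
noncomputable def Eh (h : ℝ) : ℝ := s.E h + L / 4 * R s h
noncomputable def Eh1 (h : ℝ) : ℝ := s.E1 h + L / 4 * R1 s h
noncomputable def Eh2 (h : ℝ) : ℝ := s.E2 h + L / 4 * R2 s h
noncomputable def Sf (h : ℝ) : ℝ := 2 * h * s.F1 h + s.F h
noncomputable def B (h : ℝ) : ℝ := 3 * Eh s h + 2 * h * Eh1 s h
noncomputable def B1 (h : ℝ) : ℝ := 5 * Eh1 s h + 2 * h * Eh2 s h

end defs

lemma q_pos (hL : L ≤ 1 / 72) {h : ℝ} (hh : h ∈ Icc (0 : ℝ) 1) : 0 < 1 + h - L / 2 * h := by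
  nlinarith [hh.1, hh.2]

lemma one_pos' {h : ℝ} (hh : h ∈ Icc (0 : ℝ) 1) : 0 < 1 + h := by linarith [hh.1]

lemma cont_id' : ContinuousOn (fun h : ℝ => h) (Icc 0 1) := continuousOn_id
lemma cont_one : ContinuousOn (fun h : ℝ => 1 + h) (Icc 0 1) := by fun_prop

lemma cont_w : ContinuousOn (w L) (Icc 0 1) := by
  unfold w
  refine continuousOn_id.mul (continuousOn_const.sub (continuousOn_const.mul
    (continuousOn_id.div cont_one fun x hx => (one_pos' hx).ne')))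

lemma cont_w1 : ContinuousOn (w1 L) (Icc 0 1) := by
  unfold w1
  refine continuousOn_const.sub (continuousOn_const.mul (ContinuousOn.div (by fun_prop)
    (by fun_prop) fun x hx => (pow_pos (one_pos' hx) 2).ne'))

lemma cont_kp (hL : L ≤ 1 / 72) : ContinuousOn (kp L) (Icc 0 1) := by
  unfold kp
  exact ContinuousOn.div (by fun_prop) (by fun_prop) fun x hx => (q_pos hL hx).ne'

lemma cont_kp1 (hL : L ≤ 1 / 72) : ContinuousOn (kp1 L) (Icc 0 1) := by
  unfold kp1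
  exact ContinuousOn.div (by fun_prop) (by fun_prop) fun x hx => (pow_pos (q_pos hL hx) 2).ne'

lemma deriv_w {h : ℝ} (hh : h ∈ Ioo (0 : ℝ) 1) : HasDerivAt (w L) (w1 L h) h := by
  have h1 : (1 + h) ≠ 0 := by linarith [hh.1]
  have e := (hasDerivAt_id h).mul ((((hasDerivAt_id h).div ((hasDerivAt_id h).const_add 1)
    h1).const_mul (L / 2)).const_sub 1)
  refine e.congr_deriv ?_
  simp only [id, w1, Pi.div_apply]
  field_simp
  ring

lemma deriv_kp (hL : L ≤ 1 / 72) {h : ℝ} (hh : h ∈ Ioo (0 : ℝ) 1) :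
    HasDerivAt (kp L) (kp1 L h) h := by
  have h1 : (1 + h - L / 2 * h) ≠ 0 := (q_pos hL ⟨hh.1.le, hh.2.le⟩).ne'
  have e := (hasDerivAt_id h).div (((hasDerivAt_id h).const_add 1).sub
    ((hasDerivAt_id h).const_mul (L / 2))) h1
  refine e.congr_deriv ?_
  simp only [id, kp1, Pi.sub_apply]
  congr 1
  ring

variable (s : HSol a L)

lemma cont_D : ContinuousOn (D s) (Icc 0 1) := s.cE.c0.sub s.cG.c0
lemma cont_D1 : ContinuousOn (D1 s) (Icc 0 1) := s.cE.c1.sub s.cG.c1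
lemma deriv_D {h : ℝ} (hh : h ∈ Ioo (0 : ℝ) 1) : HasDerivAt (D s) (D1 s h) h :=
  (ct s.cE hh).sub (ct s.cG hh)
lemma cont_Y : ContinuousOn (Y s) (Icc 0 1) := (continuousOn_id.mul (cont_D s)).sub s.cP.c1
lemma cont_Y1 : ContinuousOn (Y1 s) (Icc 0 1) :=
  ((cont_D s).add (continuousOn_id.mul (cont_D1 s))).sub s.cP.c2
lemma deriv_Y {h : ℝ} (hh : h ∈ Ioo (0 : ℝ) 1) : HasDerivAt (Y s) (Y1 s h) h := by
  refine (((hasDerivAt_id h).mul (deriv_D s hh)).sub (ct s.cP' hh)).congr_deriv ?_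
  simp only [id, Y1]
  ring

lemma cont_R : ContinuousOn (R s) (Icc 0 1) :=
  s.cF.c0.div cont_one fun x hx => (one_pos' hx).ne'
lemma cont_R1 : ContinuousOn (R1 s) (Icc 0 1) :=
  (s.cF.c1.div cont_one fun x hx => (one_pos' hx).ne').sub
    (s.cF.c0.div (by fun_prop) fun x hx => (pow_pos (one_pos' hx) 2).ne')
lemma cont_R2 : ContinuousOn (R2 s) (Icc 0 1) :=
  ((s.cF.c2.div cont_one fun x hx => (one_pos' hx).ne').sub
    ((continuousOn_const.mul s.cF.c1).div (by fun_prop)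
      fun x hx => (pow_pos (one_pos' hx) 2).ne')).add
    ((continuousOn_const.mul s.cF.c0).div (by fun_prop)
      fun x hx => (pow_pos (one_pos' hx) 3).ne')
lemma deriv_R {h : ℝ} (hh : h ∈ Ioo (0 : ℝ) 1) : HasDerivAt (R s) (R1 s h) h := by
  have h1 : (1 + h) ≠ 0 := by linarith [hh.1]
  refine ((ct s.cF hh).div ((hasDerivAt_id h).const_add 1) h1).congr_deriv ?_
  simp only [id, R1]
  field_simp
lemma deriv_R1 {h : ℝ} (hh : h ∈ Ioo (0 : ℝ) 1) : HasDerivAt (R1 s) (R2 s h) h := by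
  have h1 : (1 + h) ≠ 0 := by linarith [hh.1]
  refine (((ct1 s.cF hh).div ((hasDerivAt_id h).const_add 1) h1).sub
    ((ct s.cF hh).div (((hasDerivAt_id h).const_add 1).pow 2) (pow_ne_zero 2 h1))).congr_deriv ?_
  simp only [id, R2, Pi.pow_apply]
  field_simp
  ring

lemma cont_Eh : ContinuousOn (Eh s) (Icc 0 1) := s.cE.c0.add (continuousOn_const.mul (cont_R s))
lemma cont_Eh1 : ContinuousOn (Eh1 s) (Icc 0 1) :=
  s.cE.c1.add (continuousOn_const.mul (cont_R1 s))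
lemma cont_Eh2 : ContinuousOn (Eh2 s) (Icc 0 1) :=
  s.cE.c2.add (continuousOn_const.mul (cont_R2 s))
lemma deriv_Eh {h : ℝ} (hh : h ∈ Ioo (0 : ℝ) 1) : HasDerivAt (Eh s) (Eh1 s h) h :=
  (ct s.cE hh).add ((deriv_R s hh).const_mul _)
lemma deriv_Eh1 {h : ℝ} (hh : h ∈ Ioo (0 : ℝ) 1) : HasDerivAt (Eh1 s) (Eh2 s h) h :=
  (ct1 s.cE hh).add ((deriv_R1 s hh).const_mul _)
lemma cont_B : ContinuousOn (B s) (Icc 0 1) :=
  (continuousOn_const.mul (cont_Eh s)).add ((continuousOn_const.mul continuousOn_id).mul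
    (cont_Eh1 s))
lemma deriv_B {h : ℝ} (hh : h ∈ Ioo (0 : ℝ) 1) : HasDerivAt (B s) (B1 s h) h := by
  refine (((deriv_Eh s hh).const_mul 3).add (((hasDerivAt_id h).const_mul 2).mul
    (deriv_Eh1 s hh))).congr_deriv ?_
  simp only [id, B1]
  ring

section ids

variable (hp : Par a L)
include hp

lemma hY {h : ℝ} (hh : h ∈ Icc (0 : ℝ) 1) : a * Y s h = w L h * s.Q h := by
  have h1 := s.eP h hh
  have ha := hp.a0.ne'
  unfold Y D w
  rw [h1]
  field_simp
  ring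

/-- second order equation of `P` -/
lemma hP1 {h : ℝ} (hh : h ∈ Icc (0 : ℝ) 1) :
    w L h * (1 - h ^ 2) * s.P2 h + (a - h * w L h) * s.P1 h + w L h / 4 * s.P h
      = a * (h * D s h) := by
  have h1 := hY s hp hh
  have h2 := s.eQ h hh
  rw [h2] at h1
  unfold Y at h1
  linarith

/-- its derivative -/
lemma hP2 : ∀ h ∈ Icc (0 : ℝ) 1,
    w L h * (1 - h ^ 2) * s.P3 h + (w1 L h * (1 - h ^ 2) - 2 * h * w L h + a - h * w L h) * s.P2 h
      - (w L h + h * w1 L h) * s.P1 h + w1 L h / 4 * s.P h + w L h / 4 * s.P1 h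
      = a * (D s h + h * D1 s h) := by
  have cw := cont_w (L := L)
  have cw1 := cont_w1 (L := L)
  have cD := cont_D s
  have cD1 := cont_D1 s
  have c0 := s.cP.c0
  have c1 := s.cP.c1
  have c2 := s.cP'.c1
  have c3 := s.cP'.c2
  refine deriv_eq (f := fun h => w L h * (1 - h ^ 2) * s.P2 h + (a - h * w L h) * s.P1 h
    + w L h / 4 * s.P h) (g := fun h => a * (h * D s h)) (fun h hh => hP1 s hp hh) ?_ ?_ ?_ ?_
  · intro h hh
    have dw := deriv_w (L := L) hh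
    have d0 := ct s.cP hh
    have d1 := ct1 s.cP hh
    have d2 := ct1 s.cP' hh
    have e := (((dw.mul (((hasDerivAt_id h).pow 2).const_sub 1)).mul d2).add
      ((((hasDerivAt_id h).mul dw).const_sub a).mul d1)).add ((dw.div_const 4).mul d0)
    refine e.congr_deriv ?_
    simp only [id, Pi.mul_apply, Pi.pow_apply]
    push_cast
    ring
  · intro h hh
    have e := (((hasDerivAt_id h).mul (deriv_D s hh))).const_mul a
    refine e.congr_deriv ?_
    simp only [id]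
    ring
  · fun_prop
  · fun_prop

lemma kpw {h : ℝ} (hh : h ∈ Icc (0 : ℝ) 1) : kp L h * w L h = h ^ 2 / (1 + h) := by
  have h1 := (q_pos hp.L1 hh).ne'
  have h2 := (one_pos' hh).ne'
  have h3 : (1 + h) * 2 - h * L ≠ 0 := by
    intro h3
    apply h1
    linarith
  unfold kp w
  field_simp

lemma hF {h : ℝ} (hh : h ∈ Icc (0 : ℝ) 1) :
    s.F h = 6 * h * s.E h - 8 * h * s.G h + 4 * L * (kp L h * Y s h) := by
  have h1 := hY s hp hh
  have h2 := kpw hp hh
  have h3 := s.eF h hh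
  have ha := hp.a0.ne'
  rw [h3, ← h2]
  have : 4 * L / a * (kp L h * w L h) * s.Q h = 4 * L / a * kp L h * (w L h * s.Q h) := by ring
  rw [this, ← h1]
  field_simp

lemma hF1 : ∀ h ∈ Icc (0 : ℝ) 1,
    s.F1 h = 6 * s.E h + 6 * h * s.E1 h - 8 * s.G h - 8 * h * s.G1 h
      + 4 * L * (kp1 L h * Y s h + kp L h * Y1 s h) := by
  have ck := cont_kp hp.L1
  have ck1 := cont_kp1 hp.L1
  have cY := cont_Y s
  have cY1 := cont_Y1 s
  have cE := s.cE.c0
  have cE1 := s.cE.c1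
  have cG := s.cG.c0
  have cG1 := s.cG.c1
  refine deriv_eq (f := s.F) (g := fun h => 6 * h * s.E h - 8 * h * s.G h
    + 4 * L * (kp L h * Y s h)) (fun h hh => hF s hp hh) (fun h hh => ct s.cF hh) ?_ s.cF.c1 ?_
  · intro h hh
    have e := (((((hasDerivAt_id h).const_mul 6).mul (ct s.cE hh)).sub
      (((hasDerivAt_id h).const_mul 8).mul (ct s.cG hh)))).add
      (((deriv_kp hp.L1 hh).mul (deriv_Y s hh)).const_mul (4 * L))
    refine e.congr_deriv ?_
    simp only [id]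
    ring
  · fun_prop

lemma hG {h : ℝ} (hh : h ∈ Icc (0 : ℝ) 1) :
    2 * h * (1 - h ^ 2) * s.G1 h + (2 * a + h - 3 * h ^ 2) * s.G h
      = -(a * L) * (kp L h * Y s h) := by
  have h1 := hY s hp hh
  have h2 := kpw hp hh
  rw [s.eG h hh, ← h2]
  have : -(L * (kp L h * w L h) * s.Q h) = -(L * kp L h * (w L h * s.Q h)) := by ring
  rw [this, ← h1]
  ring

lemma hG1 : ∀ h ∈ Icc (0 : ℝ) 1,
    2 * h * (1 - h ^ 2) * s.G2 h + (2 * a + 2 + h - 9 * h ^ 2) * s.G1 h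
      = (6 * h - 1) * s.G h - a * L * (kp1 L h * Y s h + kp L h * Y1 s h) := by
  have ck := cont_kp hp.L1
  have ck1 := cont_kp1 hp.L1
  have cY := cont_Y s
  have cY1 := cont_Y1 s
  have cG := s.cG.c0
  have cG1 := s.cG.c1
  have cG2 := s.cG.c2
  have key := deriv_eq (f := fun h => 2 * h * (1 - h ^ 2) * s.G1 h
      + (2 * a + h - 3 * h ^ 2) * s.G h) (g := fun h => -(a * L) * (kp L h * Y s h))
    (f' := fun h => 2 * h * (1 - h ^ 2) * s.G2 h + (2 - 6 * h ^ 2) * s.G1 h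
      + (2 * a + h - 3 * h ^ 2) * s.G1 h + (1 - 6 * h) * s.G h)
    (g' := fun h => -(a * L) * (kp1 L h * Y s h + kp L h * Y1 s h))
    (fun h hh => hG s hp hh) ?_ ?_ ?_ ?_
  · intro h hh
    have := key h hh
    linarith
  · intro h hh
    have i := hasDerivAt_id h
    have e := (((i.const_mul 2).mul ((i.pow 2).const_sub 1)).mul (ct1 s.cG hh)).add
      (((i.const_add (2 * a)).sub ((i.pow 2).const_mul 3)).mul (ct s.cG hh))
    refine e.congr_deriv ?_
    simp only [id, Pi.mul_apply, Pi.sub_apply, Pi.pow_apply]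
    push_cast
    ring
  · intro h hh
    exact ((deriv_kp hp.L1 hh).mul (deriv_Y s hh)).const_mul (-(a * L))
  · fun_prop
  · fun_prop

omit hp in
lemma hW1 : ∀ h ∈ Icc (0 : ℝ) 1, s.W1 h = s.V1 h + L / (8 * a) * s.F1 h := by
  have cV := s.cV.c1
  have cF := s.cF.c1
  exact deriv_eq (f := s.W) (g := fun h => s.V h + L / (8 * a) * s.F h) (fun h hh => s.eW h hh)
    (fun h hh => ct s.cW hh) (fun h hh => (ct s.cV hh).add ((ct s.cF hh).const_mul _)) s.cW.c1
    (by fun_prop)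

/-- the hat equation -/
lemma hEh {h : ℝ} (hh : h ∈ Icc (0 : ℝ) 1) :
    2 * h * (1 - h ^ 2) * Eh1 s h + (2 * a + h - 3 * h ^ 2) * Eh s h
      = 2 * a * (h * (s.V h - 2 * (1 - h) * s.V1 h) + L / 4 * R s h) := by
  have h1 := s.eE h hh
  have h2 := s.eW h hh
  have h3 := hW1 s h hh
  have ha := hp.a0.ne'
  have h4 := (one_pos' hh).ne'
  rw [h2, h3] at h1
  have e : 2 * h * (1 - h ^ 2) * Eh1 s h + (2 * a + h - 3 * h ^ 2) * Eh s h
      = (2 * h * (1 - h ^ 2) * s.E1 h + (2 * a + h - 3 * h ^ 2) * s.E h)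
        + L / 4 * (2 * h * (1 - h ^ 2) * R1 s h + (2 * a + h - 3 * h ^ 2) * R s h) := by
    unfold Eh1 Eh
    ring
  rw [e, h1]
  unfold R1 R
  field_simp
  ring

/-- its derivative -/
lemma hEh1 : ∀ h ∈ Icc (0 : ℝ) 1,
    2 * h * (1 - h ^ 2) * Eh2 s h + (2 * a + 2 + h - 9 * h ^ 2) * Eh1 s h
      = (6 * h - 1) * Eh s h + 2 * a / (1 + h) * ((1 - h / 2) * s.V h
        + (2 * a - 2 + 3 * h - h ^ 2) * s.V1 h - L / 8 * Sf s h) + a * L / 2 * R1 s h := by
  have cV := s.cV.c0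
  have cV1 := s.cV.c1
  have cV2 := s.cV.c2
  have cR := cont_R s
  have cR1 := cont_R1 s
  have cE := cont_Eh s
  have cE1 := cont_Eh1 s
  have cE2 := cont_Eh2 s
  have key := deriv_eq (f := fun h => 2 * h * (1 - h ^ 2) * Eh1 s h
      + (2 * a + h - 3 * h ^ 2) * Eh s h)
    (g := fun h => 2 * a * (h * (s.V h - 2 * (1 - h) * s.V1 h) + L / 4 * R s h))
    (f' := fun h => 2 * h * (1 - h ^ 2) * Eh2 s h + (2 - 6 * h ^ 2) * Eh1 s h
      + (2 * a + h - 3 * h ^ 2) * Eh1 s h + (1 - 6 * h) * Eh s h)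
    (g' := fun h => 2 * a * (s.V h + (5 * h - 2) * s.V1 h - 2 * h * (1 - h) * s.V2 h
      + L / 4 * R1 s h))
    (fun h hh => hEh s hp hh) ?_ ?_ ?_ ?_
  · intro h hh
    have k1 := key h hh
    have k2 := s.eV h hh
    have h4 := (one_pos' hh).ne'
    have k3 : 2 * h * (1 - h) * s.V2 h = (3 / 2 * h * s.V h + L / 8 * Sf s h
        - (2 * a - 6 * h ^ 2) * s.V1 h) / (1 + h) := by
      rw [eq_div_iff h4]
      unfold Sf
      linear_combination k2
    have k4 : 2 * h * (1 - h ^ 2) * Eh2 s h + (2 * a + 2 + h - 9 * h ^ 2) * Eh1 s h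
        = (6 * h - 1) * Eh s h + 2 * a * (s.V h + (5 * h - 2) * s.V1 h
          - 2 * h * (1 - h) * s.V2 h + L / 4 * R1 s h) := by
      linear_combination k1
    rw [k4, k3]
    field_simp
    ring
  · intro h hh
    have i := hasDerivAt_id h
    have e := (((i.const_mul 2).mul ((i.pow 2).const_sub 1)).mul (deriv_Eh1 s hh)).add
      (((i.const_add (2 * a)).sub ((i.pow 2).const_mul 3)).mul (deriv_Eh s hh))
    refine e.congr_deriv ?_
    simp only [id, Pi.mul_apply, Pi.sub_apply, Pi.pow_apply]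
    push_cast
    ring
  · intro h hh
    have i := hasDerivAt_id h
    have e := ((i.mul ((ct s.cV hh).sub (((i.const_sub 1).const_mul 2).mul (ct1 s.cV hh)))).add
      ((deriv_R s hh).const_mul (L / 4))).const_mul (2 * a)
    refine e.congr_deriv ?_
    simp only [id, Pi.mul_apply, Pi.sub_apply, Pi.pow_apply]
    ring
  · fun_prop
  · fun_prop

/-- the equation of `B = 3 Eh + 2 h Eh'` -/
lemma hB {h : ℝ} (hh : h ∈ Icc (0 : ℝ) 1) :
    2 * h * (1 - h ^ 2) * B1 s h + (2 * a + h - 7 * h ^ 2) * B s h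
      = 2 * a * h / (1 + h) * ((5 + 2 * h) * s.V h
        + (4 * a - 10 + 6 * h + 4 * h ^ 2) * s.V1 h)
        + a * L / 2 * (((3 - h) * s.F h + 2 * h * (1 - h) * s.F1 h) / (1 + h)
        - 2 * h * s.F h / (1 + h) ^ 2) - 2 * h * Eh s h := by
  have k1 := hEh s hp hh
  have k2 := hEh1 s hp h hh
  have h4 := (one_pos' hh).ne'
  have e : 2 * h * (1 - h ^ 2) * B1 s h + (2 * a + h - 7 * h ^ 2) * B s h
      = 3 * (2 * h * (1 - h ^ 2) * Eh1 s h + (2 * a + h - 3 * h ^ 2) * Eh s h)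
        + 2 * h * (2 * h * (1 - h ^ 2) * Eh2 s h + (2 * a + 2 + h - 9 * h ^ 2) * Eh1 s h)
        - 12 * h ^ 2 * Eh s h := by
    unfold B1 B
    ring
  rw [e, k1, k2]
  unfold R1 R Sf
  field_simp
  ring

end ids

end HS

end Vale.Agent.P224.R2.H424
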