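import Vale.Agent.P224.R2.H424.Abs1

/-!
Level bounds: from bounds of `D = E - G` and `D'` to bounds of `P`, `Q`, `Y`, `G`, `F`.
-/

namespace Vale.Agent.P224.R2.H424

open Set Vale.Agent.P224.R2.H355 Vale.Agent.P224.R2.H876

namespace HS

variable {a L : ℝ}

section wk

variable (hp : Par a L) {h : ℝ} (hh : h ∈ Icc (0 : ℝ) 1)
include hp hh

omit hp in
lemma quo_nonneg : 0 ≤ h / (1 + h) := div_nonneg hh.1 (one_pos' hh).le
omit hp in
lemma quo_le : h / (1 + h) ≤ 1 / 2 := by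
  rw [div_le_iff₀ (one_pos' hh)]
  linarith [hh.2]

lemma w_nonneg : 0 ≤ w L h := by
  have h1 := quo_nonneg hh
  have h2 := quo_le hh
  have h3 := hp.L1
  have h4 := hp.L0
  unfold w
  refine mul_nonneg hh.1 ?_
  nlinarith

lemma w_le : w L h ≤ h := by
  have h1 := quo_nonneg hh
  have h4 := hp.L0
  have h5 := hh.1
  unfold w
  have : 0 ≤ h * (L / 2 * (h / (1 + h))) := by positivity
  linarith

lemma le_w : 287 / 288 * h ≤ w L h := by
  have h1 := quo_nonneg hh
  have h2 := quo_le hh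
  have h3 := hp.L1
  have h4 := hp.L0
  have h5 : L / 2 * (h / (1 + h)) ≤ 1 / 288 := by nlinarith
  unfold w
  nlinarith [mul_le_mul_of_nonneg_left h5 hh.1]

lemma w1_le : w1 L h ≤ 1 := by
  have h4 := hp.L0
  have h5 := hh.1
  unfold w1
  have : 0 ≤ L / 2 * ((2 * h + h ^ 2) / (1 + h) ^ 2) := by positivity
  linarith

lemma le_w1 : 191 / 192 ≤ w1 L h := by
  have h3 := hp.L1
  have h4 := hp.L0
  have h5 : (2 * h + h ^ 2) / (1 + h) ^ 2 ≤ 3 / 4 := by
    rw [div_le_iff₀ (pow_pos (one_pos' hh) 2)]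
    nlinarith [hh.1, hh.2]
  have h6 : 0 ≤ (2 * h + h ^ 2) / (1 + h) ^ 2 := by
    have := hh.1
    positivity
  unfold w1
  nlinarith

lemma w1_nonneg : 0 ≤ w1 L h := (by norm_num : (0 : ℝ) ≤ 191 / 192).trans (le_w1 hp hh)

lemma kp_nonneg : 0 ≤ kp L h := div_nonneg hh.1 (q_pos hp.L1 hh).le
lemma kp_le : kp L h ≤ 251 / 500 := by
  have h3 := hp.L1
  have h4 := hp.L0
  unfold kp
  rw [div_le_iff₀ (q_pos hp.L1 hh)]
  nlinarith [hh.1, hh.2]
lemma one_le_q : 1 ≤ 1 + h - L / 2 * h := by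
  nlinarith [hh.1, hh.2, hp.L1]
lemma kp_le_self : kp L h ≤ h := by
  unfold kp
  rw [div_le_iff₀ (q_pos hp.L1 hh)]
  nlinarith [hh.1, one_le_q hp hh]
lemma kp1_nonneg : 0 ≤ kp1 L h := by
  have := q_pos hp.L1 hh
  unfold kp1
  positivity
lemma kp1_le : kp1 L h ≤ 1 := by
  have h1 := one_le_q hp hh
  unfold kp1
  rw [div_le_one (pow_pos (q_pos hp.L1 hh) 2)]
  exact one_le_pow₀ h1

end wk

variable (s : HSol a L)

section plevel

variable (hp : Par a L)
include hp

omit hp in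
lemma P20 : s.P2 0 = 0 := by
  have h1 := s.eQ 0 (left_mem_Icc.2 zero_le_one)
  rw [s.Q0, s.P0] at h1
  linarith

omit hp in
lemma P_of_P1 {M : ℝ} (h : ∀ x ∈ Icc (0 : ℝ) 1, |s.P1 x| ≤ M * x ^ 2) :
    ∀ x ∈ Icc (0 : ℝ) 1, |s.P x| ≤ M / 3 * x ^ 3 := by
  refine abs_le_of_deriv (F' := fun x => M * x ^ 2) s.cP.c0 (by fun_prop)
    (fun x hx => ct s.cP hx) (fun x _ => ?_) (by rw [s.P0]; simp) h
  exact (((hasDerivAt_id x).pow 3).const_mul (M / 3)).congr_deriv (by simp; ring)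

lemma P1_init : ∃ M, 0 ≤ M ∧ ∀ x ∈ Icc (0 : ℝ) 1, |s.P1 x| ≤ M * x ^ 2 := by
  obtain ⟨M, hM, hM'⟩ := exists_bd s.cP'.c2
  have h2 : ∀ x ∈ Icc (0 : ℝ) 1, |s.P2 x| ≤ M * x := by
    refine abs_le_of_deriv (F' := fun _ => M) s.cP'.c1 (by fun_prop)
      (fun x hx => ct1 s.cP' hx) (fun x _ => ?_) (by rw [P20 s]; simp) hM'
    exact ((hasDerivAt_id x).const_mul M).congr_deriv (by simp)
  refine ⟨M / 2, by positivity, ?_⟩
  refine abs_le_of_deriv (F' := fun x => M * x) s.cP'.c0 (by fun_prop)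
    (fun x hx => ct s.cP' hx) (fun x _ => ?_) (by rw [s.P10]; simp) h2
  exact (((hasDerivAt_id x).pow 2).const_mul (M / 2)).congr_deriv (by simp; ring)

variable {K0 K1 : ℝ} (hK0 : 0 ≤ K0) (hK1 : 0 ≤ K1)
    (hD0 : ∀ h ∈ Icc (0 : ℝ) 1, |D s h| ≤ K0 * h)
    (hD1 : ∀ h ∈ Icc (0 : ℝ) 1, |D1 s h| ≤ K1)
include hK0 hD0

/-- max principle for `P'` -/
lemma P1b : ∀ h ∈ Icc (0 : ℝ) 1, |s.P1 h| ≤ 23 / 20 * K0 * h ^ 2 := by
  have ha := hp.ha
  refine self_improve (A := 17 / 15 * K0) (t := 1 / 90) (w := fun h => h ^ 2) (by positivity)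
    (by norm_num) (by norm_num) (fun x hx => by positivity) (P1_init s hp) ?_ _ (by linarith)
  intro M hM hb
  have hP := P_of_P1 s hb
  set M' := 17 / 15 * K0 + 1 / 90 * M with hM'
  have hM'0 : 0 ≤ M' := by positivity
  -- the common estimate
  have est : ∀ h ∈ Icc (0 : ℝ) 1, |a * (h * D s h) - w L h / 4 * s.P h| ≤
      w L h * (1 - h ^ 2) * (2 * M' * h) + (a - h * w L h) * (M' * h ^ 2) := by
    intro h hh
    have h0 := hh.1
    have h1 := hh.2
    have w0 := w_nonneg hp hh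
    have w2 := w_le hp hh
    have hh2 : h ^ 2 ≤ 1 := by nlinarith
    have d := hD0 h hh
    have p := hP h hh
    have e1 : |a * (h * D s h)| ≤ a * (h * (K0 * h)) := by
      rw [abs_mul, abs_mul, abs_of_nonneg hp.a0.le, abs_of_nonneg h0]
      exact mul_le_mul_of_nonneg_left (mul_le_mul_of_nonneg_left d h0) hp.a0.le
    have e2 : |w L h / 4 * s.P h| ≤ 1 / 12 * M * h ^ 2 := by
      rw [abs_mul, abs_of_nonneg (by positivity)]
      have e3 : w L h / 4 * |s.P h| ≤ h / 4 * (M / 3 * h ^ 3) :=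
        mul_le_mul (by linarith) p (abs_nonneg _) (by positivity)
      have e4 : h / 4 * (M / 3 * h ^ 3) = 1 / 12 * M * h ^ 2 * h ^ 2 := by ring
      have e5 : 1 / 12 * M * h ^ 2 * h ^ 2 ≤ 1 / 12 * M * h ^ 2 * 1 :=
        mul_le_mul_of_nonneg_left hh2 (by positivity)
      linarith
    have e6 : 0 ≤ w L h * (1 - h ^ 2) * (2 * M' * h) :=
      mul_nonneg (mul_nonneg w0 (by linarith)) (by positivity)
    have e7 : (a - 1) * (M' * h ^ 2) ≤ (a - h * w L h) * (M' * h ^ 2) :=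
      mul_le_mul_of_nonneg_right (by nlinarith) (by positivity)
    have e8 : a * K0 + 1 / 12 * M ≤ (a - 1) * M' := by
      rw [hM']
      nlinarith [mul_nonneg (sub_nonneg.2 ha) hK0, mul_nonneg (sub_nonneg.2 ha) hM]
    have e9 := mul_le_mul_of_nonneg_right e8 (show 0 ≤ h ^ 2 by positivity)
    calc |a * (h * D s h) - w L h / 4 * s.P h| ≤ |a * (h * D s h)| + |w L h / 4 * s.P h| :=
          abs_sub _ _
      _ ≤ a * (h * (K0 * h)) + 1 / 12 * M * h ^ 2 := add_le_add e1 e2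
      _ ≤ _ := by nlinarith
  have up := le_of_le (a := fun h => w L h * (1 - h ^ 2)) (c := fun h => a - h * w L h)
    (f := s.P1) (g := s.P2) (F := fun h => M' * h ^ 2) (G := fun h => 2 * M' * h) zero_le_one
    s.cP.c1 (fun h hh => ct1 s.cP hh) (by fun_prop)
    (fun x _ => (((hasDerivAt_id x).pow 2).const_mul M').congr_deriv (by simp; ring))
    (by simp [w]) (by simp) (fun h hh => by nlinarith [hh.1, hh.2, w_le hp hh, w_nonneg hp hh])
    (fun h hh => by
      have := (abs_le.1 (est h hh)).2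
      have e := hP1 s hp hh
      linarith)
  have dn := le_of_le (a := fun h => w L h * (1 - h ^ 2)) (c := fun h => a - h * w L h)
    (f := fun h => -s.P1 h) (g := fun h => -s.P2 h) (F := fun h => M' * h ^ 2)
    (G := fun h => 2 * M' * h) zero_le_one
    s.cP.c1.neg (fun h hh => (ct1 s.cP hh).neg) (by fun_prop)
    (fun x _ => (((hasDerivAt_id x).pow 2).const_mul M').congr_deriv (by simp; ring))
    (by simp [w]) (by simp) (fun h hh => by nlinarith [hh.1, hh.2, w_le hp hh, w_nonneg hp hh])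
    (fun h hh => by
      have := (abs_le.1 (est h hh)).1
      have e := hP1 s hp hh
      linarith)
  intro h hh
  rw [abs_le]
  have := dn h hh
  exact ⟨by linarith, up h hh⟩

lemma Pb : ∀ h ∈ Icc (0 : ℝ) 1, |s.P h| ≤ 23 / 60 * K0 * h ^ 3 := by
  intro h hh
  refine (P_of_P1 s (P1b s hp hK0 hD0) h hh).trans (le_of_eq ?_)
  ring

include hK1 hD1

lemma P2b : ∀ h ∈ Icc (0 : ℝ) 1, |s.P2 h| ≤ (2.04 * K0 + 1.55 * K1) * h := by
  have ha := hp.ha
  set q := 2.04 * K0 + 1.55 * K1 with hq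
  have hq0 : 0 ≤ q := by positivity
  have cpos : ∀ h ∈ Icc (0 : ℝ) 1, a - 3 ≤ w1 L h * (1 - h ^ 2) - 2 * h * w L h + a
      - h * w L h := by
    intro h hh
    have h0 := hh.1
    have h1 := hh.2
    have w0 := w_nonneg hp hh
    have w2 := w_le hp hh
    have w3 := w1_nonneg hp hh
    have hh2 : h ^ 2 ≤ 1 := by nlinarith
    have : 0 ≤ w1 L h * (1 - h ^ 2) := mul_nonneg w3 (by linarith)
    nlinarith
  have est : ∀ h ∈ Icc (0 : ℝ) 1, |a * (D s h + h * D1 s h) + (w L h + h * w1 L h) * s.P1 h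
      - w1 L h / 4 * s.P h - w L h / 4 * s.P1 h| ≤
      w L h * (1 - h ^ 2) * q + (w1 L h * (1 - h ^ 2) - 2 * h * w L h + a
      - h * w L h) * (q * h) := by
    intro h hh
    have h0 := hh.1
    have h1 := hh.2
    have w0 := w_nonneg hp hh
    have w2 := w_le hp hh
    have w3 := w1_nonneg hp hh
    have w4 := w1_le hp hh
    have hh2 : h ^ 2 ≤ 1 := by nlinarith
    have d := hD0 h hh
    have d1 := hD1 h hh
    have p := Pb s hp hK0 hD0 h hh
    have p1 := P1b s hp hK0 hD0 h hh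
    have hh3 : h ^ 2 * h ≤ 1 * h := mul_le_mul_of_nonneg_right hh2 h0
    have e1 : |a * (D s h + h * D1 s h)| ≤ a * (K0 * h + h * K1) := by
      rw [abs_mul, abs_of_nonneg hp.a0.le]
      refine mul_le_mul_of_nonneg_left ((abs_add_le _ _).trans (add_le_add d ?_)) hp.a0.le
      rw [abs_mul, abs_of_nonneg h0]
      exact mul_le_mul_of_nonneg_left d1 h0
    have e2 : |(w L h + h * w1 L h) * s.P1 h| ≤ (2 * h) * (23 / 20 * K0 * h ^ 2) := by
      rw [abs_mul, abs_of_nonneg (by positivity)]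
      exact mul_le_mul (by nlinarith) p1 (abs_nonneg _) (by positivity)
    have e3 : |w1 L h / 4 * s.P h| ≤ 1 / 4 * (23 / 60 * K0 * h ^ 3) := by
      rw [abs_mul, abs_of_nonneg (by positivity)]
      exact mul_le_mul (by linarith) p (abs_nonneg _) (by positivity)
    have e4 : |w L h / 4 * s.P1 h| ≤ h / 4 * (23 / 20 * K0 * h ^ 2) := by
      rw [abs_mul, abs_of_nonneg (by positivity)]
      exact mul_le_mul (by linarith) p1 (abs_nonneg _) (by positivity)
    have e5 : (a - 3) * (q * h) ≤ (w1 L h * (1 - h ^ 2) - 2 * h * w L h + a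
        - h * w L h) * (q * h) := mul_le_mul_of_nonneg_right (cpos h hh) (by positivity)
    have e6 : 0 ≤ w L h * (1 - h ^ 2) * q := mul_nonneg (mul_nonneg w0 (by linarith)) hq0
    have e7 : a * (K0 + K1) + 2.69 * K0 ≤ (a - 3) * q := by
      rw [hq]
      nlinarith [mul_nonneg (sub_nonneg.2 ha) hK0, mul_nonneg (sub_nonneg.2 ha) hK1]
    have e8 := mul_le_mul_of_nonneg_right e7 h0
    have e9 := mul_le_mul_of_nonneg_left hh3 hK0
    have t1 := abs_sub (a * (D s h + h * D1 s h) + (w L h + h * w1 L h) * s.P1 h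
      - w1 L h / 4 * s.P h) (w L h / 4 * s.P1 h)
    have t2 := abs_sub (a * (D s h + h * D1 s h) + (w L h + h * w1 L h) * s.P1 h)
      (w1 L h / 4 * s.P h)
    have t3 := abs_add_le (a * (D s h + h * D1 s h)) ((w L h + h * w1 L h) * s.P1 h)
    nlinarith
  have up := le_of_le (a := fun h => w L h * (1 - h ^ 2))
    (c := fun h => w1 L h * (1 - h ^ 2) - 2 * h * w L h + a - h * w L h)
    (f := s.P2) (g := s.P3) (F := fun h => q * h) (G := fun _ => q) zero_le_one
    s.cP'.c1 (fun h hh => ct1 s.cP' hh) (by fun_prop)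
    (fun x _ => ((hasDerivAt_id x).const_mul q).congr_deriv (by simp))
    (by simp [w]) (by simp) (fun h hh => by linarith [cpos h hh])
    (fun h hh => by
      have := (abs_le.1 (est h hh)).2
      have e := hP2 s hp h hh
      linarith)
  have dn := le_of_le (a := fun h => w L h * (1 - h ^ 2))
    (c := fun h => w1 L h * (1 - h ^ 2) - 2 * h * w L h + a - h * w L h)
    (f := fun h => -s.P2 h) (g := fun h => -s.P3 h) (F := fun h => q * h) (G := fun _ => q)
    zero_le_one s.cP'.c1.neg (fun h hh => (ct1 s.cP' hh).neg) (by fun_prop)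
    (fun x _ => ((hasDerivAt_id x).const_mul q).congr_deriv (by simp))
    (by simp [w]) (by simp) (fun h hh => by linarith [cpos h hh])
    (fun h hh => by
      have := (abs_le.1 (est h hh)).1
      have e := hP2 s hp h hh
      linarith)
  intro h hh
  rw [abs_le]
  have := dn h hh
  exact ⟨by linarith, up h hh⟩

lemma Qb : ∀ h ∈ Icc (0 : ℝ) 1, |s.Q h| ≤ (2.04 * K0 + 1.55 * K1) * h := by
  intro h hh
  have h0 := hh.1
  have h1 := hh.2
  have hh2 : h ^ 2 ≤ 1 := by nlinarith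
  have p := Pb s hp hK0 hD0 h hh
  have p1 := P1b s hp hK0 hD0 h hh
  have p2 := P2b s hp hK0 hK1 hD0 hD1 h hh
  rw [s.eQ h hh]
  have e1 : |(1 - h ^ 2) * s.P2 h| ≤ (1 - h ^ 2) * ((2.04 * K0 + 1.55 * K1) * h) := by
    rw [abs_mul, abs_of_nonneg (by linarith : (0 : ℝ) ≤ 1 - h ^ 2)]
    exact mul_le_mul_of_nonneg_left p2 (by linarith)
  have e2 : |h * s.P1 h| ≤ h * (23 / 20 * K0 * h ^ 2) := by
    rw [abs_mul, abs_of_nonneg h0]
    exact mul_le_mul_of_nonneg_left p1 h0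
  have e3 : |s.P h / 4| ≤ 23 / 240 * K0 * h ^ 3 := by
    rw [abs_div, abs_of_nonneg (by norm_num : (0 : ℝ) ≤ 4)]
    linarith
  have t1 := abs_add_le ((1 - h ^ 2) * s.P2 h - h * s.P1 h) (s.P h / 4)
  have t2 := abs_sub ((1 - h ^ 2) * s.P2 h) (h * s.P1 h)
  have e4 : 0 ≤ K0 * h ^ 3 := by positivity
  have e5 : 0 ≤ K1 * h ^ 3 := by positivity
  nlinarith

lemma Yb : ∀ h ∈ Icc (0 : ℝ) 1, a * |Y s h| ≤ (2.04 * K0 + 1.55 * K1) * h ^ 2 := by
  intro h hh
  have h0 := hh.1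
  have w0 := w_nonneg hp hh
  have w2 := w_le hp hh
  have e := hY s hp hh
  have e1 : a * |Y s h| = w L h * |s.Q h| := by
    have := congrArg abs e
    rwa [abs_mul, abs_mul, abs_of_nonneg hp.a0.le, abs_of_nonneg w0] at this
  rw [e1]
  have := mul_le_mul w2 (Qb s hp hK0 hK1 hD0 hD1 h hh) (abs_nonneg _) h0
  nlinarith

lemma Y1b : ∀ h ∈ Icc (0 : ℝ) 1, |Y1 s h| ≤ (3.04 * K0 + 2.55 * K1) * h := by
  intro h hh
  have h0 := hh.1
  have h1 := hh.2
  have d := hD0 h hh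
  have d1 := hD1 h hh
  have p2 := P2b s hp hK0 hK1 hD0 hD1 h hh
  have t1 := abs_sub (D s h + h * D1 s h) (s.P2 h)
  have t2 := abs_add_le (D s h) (h * D1 s h)
  have e1 : |h * D1 s h| ≤ h * K1 := by
    rw [abs_mul, abs_of_nonneg h0]
    exact mul_le_mul_of_nonneg_left d1 h0
  unfold Y1
  nlinarith

end plevel

/-- maximum principle with absolute values -/
lemma abs_mp {α c f g F G r : ℝ → ℝ} (hf : ContinuousOn f (Icc 0 1))
    (hd : ∀ z ∈ Ioo (0 : ℝ) 1, HasDerivAt f (g z) z) (hF : ContinuousOn F (Icc 0 1))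
    (hD : ∀ z ∈ Ioo (0 : ℝ) 1, HasDerivAt F (G z) z) (hal : α 0 = 0) (har : α 1 = 0)
    (hc : ∀ z ∈ Icc (0 : ℝ) 1, 0 < c z)
    (he : ∀ z ∈ Icc (0 : ℝ) 1, α z * g z + c z * f z = r z)
    (hs : ∀ z ∈ Icc (0 : ℝ) 1, |r z| ≤ α z * G z + c z * F z) :
    ∀ z ∈ Icc (0 : ℝ) 1, |f z| ≤ F z := by
  have up := le_of_le (a := α) (c := c) zero_le_one hf hd hF hD hal har hc (fun z hz => by
    rw [he z hz]
    exact (abs_le.1 (hs z hz)).2)
  have dn := le_of_le (a := α) (c := c) (f := fun z => -f z) (g := fun z => -g z) zero_le_one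
    hf.neg (fun z hz => (hd z hz).neg) hF hD hal har hc (fun z hz => by
    have := (abs_le.1 (hs z hz)).1
    have e := he z hz
    linarith)
  intro z hz
  rw [abs_le]
  have := dn z hz
  exact ⟨by linarith, up z hz⟩

section glevel

variable (hp : Par a L) {q y : ℝ} (hq : 0 ≤ q) (hy : 0 ≤ y)
    (hYq : ∀ h ∈ Icc (0 : ℝ) 1, a * |Y s h| ≤ q * h ^ 2)
    (hQq : ∀ h ∈ Icc (0 : ℝ) 1, |s.Q h| ≤ q * h)
    (hY1q : ∀ h ∈ Icc (0 : ℝ) 1, |Y1 s h| ≤ y * h)
include hp hq

include hQq in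
lemma Gb : ∀ h ∈ Icc (0 : ℝ) 1, |s.G h| ≤ L * q / 15 * h ^ 3 := by
  have ha := hp.ha
  have hL := hp.L0
  have est : ∀ h ∈ Icc (0 : ℝ) 1, |-(L * (h ^ 2 / (1 + h)) * s.Q h)| ≤
      2 * h * (1 - h ^ 2) * (3 * (L * q / 15) * h ^ 2)
        + (2 * a + h - 3 * h ^ 2) * (L * q / 15 * h ^ 3) := by
    intro h hh
    have h0 := hh.1
    have h1 := hh.2
    have hh2 : h ^ 2 ≤ 1 := by nlinarith
    have e0 : h ^ 2 / (1 + h) ≤ h ^ 2 := div_le_self (by positivity) (by linarith)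
    have e1 : |-(L * (h ^ 2 / (1 + h)) * s.Q h)| ≤ L * h ^ 2 * (q * h) := by
      rw [abs_neg, abs_mul, abs_of_nonneg (by positivity)]
      exact mul_le_mul (mul_le_mul_of_nonneg_left e0 hL) (hQq h hh) (abs_nonneg _)
        (by positivity)
    have e2 : 0 ≤ 2 * h * (1 - h ^ 2) * (3 * (L * q / 15) * h ^ 2) :=
      mul_nonneg (mul_nonneg (by positivity) (by linarith)) (by positivity)
    have e3 : 15 * (L * q / 15 * h ^ 3) ≤ (2 * a + h - 3 * h ^ 2) * (L * q / 15 * h ^ 3) :=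
      mul_le_mul_of_nonneg_right (by nlinarith) (by positivity)
    nlinarith
  refine abs_mp (α := fun h => 2 * h * (1 - h ^ 2)) (c := fun h => 2 * a + h - 3 * h ^ 2)
    (G := fun h => 3 * (L * q / 15) * h ^ 2) s.cG.c0 (fun h hh => ct s.cG hh)
    (by fun_prop) (fun x _ => ?_) (by simp) (by simp) (fun h hh => by nlinarith [hh.1, hh.2])
    (fun h hh => s.eG h hh) est
  exact (((hasDerivAt_id x).pow 3).const_mul (L * q / 15)).congr_deriv (by simp; ring)

include hy hYq hQq hY1q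

lemma G1b : ∀ h ∈ Icc (0 : ℝ) 1, |s.G1 h| ≤ L * (q / 8 + 0.39 * y) * h := by
  have ha := hp.ha
  have hL := hp.L0
  have hL1 := hp.L1
  set g := L * (q / 8 + 0.39 * y) with hg
  have hg0 : 0 ≤ g := by positivity
  have est : ∀ h ∈ Icc (0 : ℝ) 1, |(6 * h - 1) * s.G h - a * L * (kp1 L h * Y s h
      + kp L h * Y1 s h)| ≤ 2 * h * (1 - h ^ 2) * g + (2 * a + 2 + h - 9 * h ^ 2) * (g * h) := by
    intro h hh
    have h0 := hh.1
    have h1 := hh.2
    have hh2 : h ^ 2 ≤ 1 := by nlinarith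
    have k0 := kp_nonneg hp hh
    have k1 := kp_le hp hh
    have k2 := kp1_nonneg hp hh
    have k3 := kp1_le hp hh
    have bG := Gb s hp hq hQq h hh
    have e1 : |(6 * h - 1) * s.G h| ≤ 5 * (L * q / 15 * h) := by
      rw [abs_mul]
      have a1 : |6 * h - 1| ≤ 5 := by
        rw [abs_le]
        constructor <;> linarith
      have a2 : |s.G h| ≤ L * q / 15 * h := by
        refine bG.trans ?_
        have : h ^ 2 * h ≤ 1 * h := mul_le_mul_of_nonneg_right hh2 h0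
        have h5 : 0 ≤ L * q / 15 := by positivity
        nlinarith [mul_le_mul_of_nonneg_left this h5]
      exact mul_le_mul a1 a2 (abs_nonneg _) (by norm_num)
    have e2 : |a * L * (kp1 L h * Y s h)| ≤ L * q * h := by
      have a1 : |a * L * (kp1 L h * Y s h)| = L * kp1 L h * (a * |Y s h|) := by
        rw [abs_mul (a * L), abs_mul (kp1 L h), abs_of_nonneg (mul_nonneg hp.a0.le hL),
          abs_of_nonneg k2]
        ring
      rw [a1]
      have a2 : L * kp1 L h * (a * |Y s h|) ≤ L * 1 * (q * h ^ 2) :=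
        mul_le_mul (mul_le_mul_of_nonneg_left k3 hL) (hYq h hh)
          (mul_nonneg hp.a0.le (abs_nonneg _)) (by positivity)
      have a3 : h ^ 2 ≤ h := by nlinarith
      have a4 := mul_le_mul_of_nonneg_left a3 (show 0 ≤ L * q by positivity)
      linarith
    have e3 : |a * L * (kp L h * Y1 s h)| ≤ a * L * (251 / 500 * (y * h)) := by
      rw [abs_mul (a * L), abs_mul (kp L h), abs_of_nonneg (mul_nonneg hp.a0.le hL),
        abs_of_nonneg k0]
      exact mul_le_mul_of_nonneg_left (mul_le_mul k1 (hY1q h hh) (abs_nonneg _) (by norm_num))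
        (mul_nonneg hp.a0.le hL)
    have e4 : 0 ≤ 2 * h * (1 - h ^ 2) * g :=
      mul_nonneg (mul_nonneg (by positivity) (by linarith)) hg0
    have e5 : (2 * a - 6) * (g * h) ≤ (2 * a + 2 + h - 9 * h ^ 2) * (g * h) :=
      mul_le_mul_of_nonneg_right (by nlinarith) (by positivity)
    have e6 : L * (q / 3 + q + 251 / 500 * a * y) ≤ (2 * a - 6) * g := by
      rw [hg]
      have : q / 3 + q + 251 / 500 * a * y ≤ (2 * a - 6) * (q / 8 + 0.39 * y) := by
        nlinarith [mul_nonneg (sub_nonneg.2 ha) hq, mul_nonneg (sub_nonneg.2 ha) hy]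
      calc L * (q / 3 + q + 251 / 500 * a * y) ≤ L * ((2 * a - 6) * (q / 8 + 0.39 * y)) :=
            mul_le_mul_of_nonneg_left this hL
        _ = _ := by ring
    have e7 := mul_le_mul_of_nonneg_right e6 h0
    have t1 := abs_sub ((6 * h - 1) * s.G h) (a * L * (kp1 L h * Y s h + kp L h * Y1 s h))
    have t2 := abs_add_le (a * L * (kp1 L h * Y s h)) (a * L * (kp L h * Y1 s h))
    rw [← mul_add] at t2
    nlinarith
  refine abs_mp (α := fun h => 2 * h * (1 - h ^ 2)) (c := fun h => 2 * a + 2 + h - 9 * h ^ 2)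
    (G := fun _ => g) s.cG.c1 (fun h hh => ct1 s.cG hh)
    (by fun_prop) (fun x _ => ?_) (by simp) (by simp) (fun h hh => by nlinarith [hh.1, hh.2])
    (hG1 s hp) est
  exact ((hasDerivAt_id x).const_mul g).congr_deriv (by simp)

variable {e0 e1 : ℝ}

/-- the small part of `F` -/
lemma F_sub : ∀ h ∈ Icc (0 : ℝ) 1, |s.F h - 6 * h * s.E h| ≤ L * (0.8 * q) * h ^ 2 := by
  intro h hh
  have ha := hp.ha
  have hL := hp.L0
  have h0 := hh.1
  have h1 := hh.2
  have hh2 : h ^ 2 ≤ 1 := by nlinarith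
  have k0 := kp_nonneg hp hh
  have k1 := kp_le hp hh
  have bG := Gb s hp hq hQq h hh
  have e : s.F h - 6 * h * s.E h = -(8 * h * s.G h) + 4 * L * (kp L h * Y s h) := by
    rw [hF s hp hh]
    ring
  rw [e]
  have e1 : |-(8 * h * s.G h)| ≤ 8 * h * (L * q / 15 * h ^ 3) := by
    rw [abs_neg, abs_mul, abs_of_nonneg (by positivity)]
    exact mul_le_mul_of_nonneg_left bG (by positivity)
  have e2 : |4 * L * (kp L h * Y s h)| ≤ 4 * L * (251 / 500 * (q * h ^ 2 * (2 / 17))) := by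
    rw [abs_mul (4 * L), abs_mul (kp L h), abs_of_nonneg (by positivity : (0 : ℝ) ≤ 4 * L),
      abs_of_nonneg k0]
    have a1 : |Y s h| ≤ q * h ^ 2 * (2 / 17) := by
      have := hYq h hh
      nlinarith [abs_nonneg (Y s h)]
    exact mul_le_mul_of_nonneg_left (mul_le_mul k1 a1 (abs_nonneg _) (by norm_num))
      (by positivity)
  have t := abs_add_le (-(8 * h * s.G h)) (4 * L * (kp L h * Y s h))
  have e3 : h ^ 4 ≤ h ^ 2 := by nlinarith
  have e4 := mul_le_mul_of_nonneg_left e3 (show 0 ≤ L * q by positivity)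
  have e5 : 0 ≤ L * q * h ^ 2 := by positivity
  nlinarith

lemma F1_sub : ∀ h ∈ Icc (0 : ℝ) 1,
    |s.F1 h - (6 * s.E h + 6 * h * s.E1 h)| ≤ L * (2.01 * q + 5.13 * y) * h := by
  intro h hh
  have ha := hp.ha
  have hL := hp.L0
  have h0 := hh.1
  have h1 := hh.2
  have hh2 : h ^ 2 ≤ h := by nlinarith
  have hh3 : h ^ 3 ≤ h := by nlinarith
  have k0 := kp_nonneg hp hh
  have k1 := kp_le hp hh
  have k2 := kp1_nonneg hp hh
  have k3 := kp1_le hp hh
  have bG := Gb s hp hq hQq h hh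
  have bG1 := G1b s hp hq hy hYq hQq hY1q h hh
  have e : s.F1 h - (6 * s.E h + 6 * h * s.E1 h) = -(8 * s.G h) - 8 * h * s.G1 h
      + 4 * L * (kp1 L h * Y s h) + 4 * L * (kp L h * Y1 s h) := by
    rw [hF1 s hp h hh]
    ring
  rw [e]
  have e1 : |8 * s.G h| ≤ 8 * (L * q / 15 * h) := by
    rw [abs_mul, abs_of_nonneg (by norm_num : (0 : ℝ) ≤ 8)]
    have := mul_le_mul_of_nonneg_left hh3 (show 0 ≤ L * q / 15 by positivity)
    linarith
  have e2 : |8 * h * s.G1 h| ≤ 8 * (L * (q / 8 + 0.39 * y) * h) := by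
    rw [abs_mul, abs_of_nonneg (by positivity : (0 : ℝ) ≤ 8 * h)]
    have a1 := mul_le_mul_of_nonneg_left bG1 (show 0 ≤ 8 * h by positivity)
    have a2 := mul_le_mul_of_nonneg_left hh2 (show 0 ≤ L * (q / 8 + 0.39 * y) by positivity)
    linarith
  have aY : |Y s h| ≤ q * h ^ 2 * (2 / 17) := by
    have := hYq h hh
    nlinarith [abs_nonneg (Y s h)]
  have e3 : |4 * L * (kp1 L h * Y s h)| ≤ 4 * L * (1 * (q * h * (2 / 17))) := by
    rw [abs_mul (4 * L), abs_mul (kp1 L h), abs_of_nonneg (by positivity : (0 : ℝ) ≤ 4 * L),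
      abs_of_nonneg k2]
    have a1 : |Y s h| ≤ q * h * (2 / 17) := by
      have := mul_le_mul_of_nonneg_left hh2 (show 0 ≤ q * (2 / 17) by positivity)
      linarith
    exact mul_le_mul_of_nonneg_left (mul_le_mul k3 a1 (abs_nonneg _) (by norm_num))
      (by positivity)
  have e4 : |4 * L * (kp L h * Y1 s h)| ≤ 4 * L * (251 / 500 * (y * h)) := by
    rw [abs_mul (4 * L), abs_mul (kp L h), abs_of_nonneg (by positivity : (0 : ℝ) ≤ 4 * L),
      abs_of_nonneg k0]
    exact mul_le_mul_of_nonneg_left (mul_le_mul k1 (hY1q h hh) (abs_nonneg _) (by norm_num))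
      (by positivity)
  have t1 := abs_add_le (-(8 * s.G h) - 8 * h * s.G1 h + 4 * L * (kp1 L h * Y s h))
    (4 * L * (kp L h * Y1 s h))
  have t2 := abs_add_le (-(8 * s.G h) - 8 * h * s.G1 h) (4 * L * (kp1 L h * Y s h))
  have t3 := abs_sub (-(8 * s.G h)) (8 * h * s.G1 h)
  rw [abs_neg] at t3
  have e5 : 0 ≤ L * q * h := by positivity
  have e6 : 0 ≤ L * y * h := by positivity
  nlinarith

end glevel

end HS

end Vale.Agent.P224.R2.H424
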