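import Vale.Agent.P224.R2.H424.Abs2

/-!
First pass: `|E'| ≤ 3.63`.
-/

namespace Vale.Agent.P224.R2.H424

open Set Vale.Agent.P224.R2.H355 Vale.Agent.P224.R2.H876

namespace HS

variable {a L : ℝ} (s : HSol a L)

section vlevel

variable (hp : Par a L) {s0 f0 f1 M : ℝ} (hs0 : 0 ≤ s0) (hf0 : 0 ≤ f0) (hf1 : 0 ≤ f1)
    (hS : ∀ h ∈ Icc (0 : ℝ) 1, |Sf s h| ≤ s0 * h ^ 2)
    (hF0 : ∀ h ∈ Icc (0 : ℝ) 1, |s.F h| ≤ f0 * h ^ 2)
    (hF1' : ∀ h ∈ Icc (0 : ℝ) 1, |s.F1 h| ≤ f1 * h)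
    (hM : M * (2 * a - 27 / 4) = 3 / 2 + L / 8 * s0)

lemma V_of_V1 {M : ℝ} (h : ∀ x ∈ Icc (0 : ℝ) 1, |s.V1 x| ≤ M * x) :
    ∀ x ∈ Icc (0 : ℝ) 1, |s.V x - 1| ≤ M / 2 * x ^ 2 := by
  refine abs_le_of_deriv (f' := s.V1) (F' := fun x => M * x) (s.cV.c0.sub continuousOn_const)
    (by fun_prop) (fun x hx => (ct s.cV hx).sub_const 1) (fun x _ => ?_)
    (by rw [s.V0]; simp) h
  exact (((hasDerivAt_id x).pow 2).const_mul (M / 2)).congr_deriv (by simp; ring)

lemma V1_init : ∃ M, 0 ≤ M ∧ ∀ x ∈ Icc (0 : ℝ) 1, |s.V1 x| ≤ M * x := by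
  obtain ⟨M, hM, hM'⟩ := exists_bd s.cV.c2
  refine ⟨M, hM, ?_⟩
  refine abs_le_of_deriv (F' := fun _ => M) s.cV.c1 (by fun_prop)
    (fun x hx => ct1 s.cV hx) (fun x _ => ?_) (by rw [s.V10]; simp) hM'
  exact ((hasDerivAt_id x).const_mul M).congr_deriv (by simp)

include hp hs0 hM

lemma M_nonneg : 0 ≤ M := by
  have ha := hp.ha
  have hL := hp.L0
  by_contra h
  push Not at h
  have : 0 ≤ 3 / 2 + L / 8 * s0 := by positivity
  nlinarith

include hS

lemma V1b : ∀ h ∈ Icc (0 : ℝ) 1, |s.V1 h| ≤ M * h := by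
  have ha := hp.ha
  have hL := hp.L0
  have hc : (0 : ℝ) < 2 * a - 6 := by linarith
  refine self_improve (A := (3 / 2 + L / 8 * s0) / (2 * a - 6)) (t := 3 / 4 / (2 * a - 6))
    (w := fun h => h) (by positivity) (by positivity) ?_ (fun x hx => hx.1) (V1_init s) ?_ _ ?_
  · rw [div_lt_one hc]
    linarith
  · intro B hB hb
    have hV := V_of_V1 s hb
    set N := (3 / 2 + L / 8 * s0) / (2 * a - 6) + 3 / 4 / (2 * a - 6) * B with hN
    have hN0 : 0 ≤ N := by positivity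
    have hNe : (2 * a - 6) * N = 3 / 2 + L / 8 * s0 + 3 / 4 * B := by
      rw [hN]
      field_simp
    refine abs_mp (α := fun h => 2 * h * (1 - h ^ 2)) (c := fun h => 2 * a - 6 * h ^ 2)
      (G := fun _ => N) (r := fun h => 3 / 2 * h * s.V h + L / 8 * (2 * h * s.F1 h + s.F h))
      s.cV.c1 (fun h hh => ct1 s.cV hh) (by fun_prop) (fun x _ => ?_)
      (by simp) (by simp) (fun h hh => by nlinarith [hh.1, hh.2]) s.eV ?_
    · exact ((hasDerivAt_id x).const_mul N).congr_deriv (by simp)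
    · intro h hh
      have h0 := hh.1
      have h1 := hh.2
      have hh2 : h ^ 2 ≤ 1 := by nlinarith
      have v := hV h hh
      have e1 : |s.V h| ≤ 1 + B / 2 := by
        have := abs_add_le 1 (s.V h - 1)
        rw [abs_one, add_sub_cancel] at this
        nlinarith
      have e2 : |3 / 2 * h * s.V h| ≤ 3 / 2 * h * (1 + B / 2) := by
        rw [abs_mul, abs_of_nonneg (by positivity)]
        exact mul_le_mul_of_nonneg_left e1 (by positivity)
      have e3 : |L / 8 * (2 * h * s.F1 h + s.F h)| ≤ L / 8 * (s0 * h) := by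
        rw [abs_mul, abs_of_nonneg (by positivity)]
        refine mul_le_mul_of_nonneg_left ((hS h hh).trans ?_) (by positivity)
        exact mul_le_mul_of_nonneg_left (by nlinarith) hs0
      have t := abs_add_le (3 / 2 * h * s.V h) (L / 8 * (2 * h * s.F1 h + s.F h))
      have e4 : 0 ≤ 2 * h * (1 - h ^ 2) * N :=
        mul_nonneg (mul_nonneg (by positivity) (by linarith)) hN0
      have e5 : (2 * a - 6) * (N * h) ≤ (2 * a - 6 * h ^ 2) * (N * h) :=
        mul_le_mul_of_nonneg_right (by nlinarith) (by positivity)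
      have e6 : (2 * a - 6) * (N * h) = (3 / 2 + L / 8 * s0 + 3 / 4 * B) * h := by
        rw [← hNe]; ring
      nlinarith
  · have e : (3 / 2 + L / 8 * s0) / (2 * a - 6) + 3 / 4 / (2 * a - 6) * M
        = (3 / 2 + L / 8 * s0 + 3 / 4 * M) / (2 * a - 6) := by ring
    rw [e, div_le_iff₀ hc]
    linarith

lemma Vb : ∀ h ∈ Icc (0 : ℝ) 1, |s.V h - 1| ≤ M / 2 * h ^ 2 :=
  V_of_V1 s (V1b s hp hs0 hS hM)

lemma Eh1_aux {h : ℝ} (hh : h ∈ Icc (0 : ℝ) 1) :
    |2 * a / (1 + h) * ((1 - h / 2) * s.V h + (2 * a - 2 + 3 * h - h ^ 2) * s.V1 h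
      - L / 8 * Sf s h)| ≤ a * (1 / 2 + M / 4 + 2 * a * M + L / 8 * s0) := by
  have ha := hp.ha
  have hL := hp.L0
  have hM0 := M_nonneg hp hs0 hM
  have h0 := hh.1
  have h1 := hh.2
  have hpos := one_pos' hh
  have hh2 : h ^ 2 ≤ 1 := by nlinarith
  have v := Vb s hp hs0 hS hM h hh
  have v1 := V1b s hp hs0 hS hM h hh
  rw [abs_mul, abs_div, abs_of_nonneg (by linarith [hp.a0] : (0 : ℝ) ≤ 2 * a),
    abs_of_nonneg hpos.le, div_mul_eq_mul_div, div_le_iff₀ hpos]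
  have a1 : |(1 - h / 2) * s.V h| ≤ (1 - h / 2) * (1 + M / 2) := by
    rw [abs_mul, abs_of_nonneg (by linarith : (0 : ℝ) ≤ 1 - h / 2)]
    refine mul_le_mul_of_nonneg_left ?_ (by linarith)
    have := abs_add_le 1 (s.V h - 1)
    rw [abs_one, add_sub_cancel] at this
    nlinarith
  have a2 : |(2 * a - 2 + 3 * h - h ^ 2) * s.V1 h| ≤ 2 * a * (M * h) := by
    rw [abs_mul]
    refine mul_le_mul ?_ v1 (abs_nonneg _) (by linarith)
    rw [abs_le]
    constructor <;> nlinarith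
  have a3 : |L / 8 * Sf s h| ≤ L / 8 * (s0 * h) := by
    rw [abs_mul, abs_of_nonneg (by positivity)]
    refine mul_le_mul_of_nonneg_left ((hS h hh).trans ?_) (by positivity)
    exact mul_le_mul_of_nonneg_left (by nlinarith) hs0
  have t1 := abs_sub ((1 - h / 2) * s.V h + (2 * a - 2 + 3 * h - h ^ 2) * s.V1 h)
    (L / 8 * Sf s h)
  have t2 := abs_add_le ((1 - h / 2) * s.V h) ((2 * a - 2 + 3 * h - h ^ 2) * s.V1 h)
  -- monotonicity in h
  have b1 : 3 / 2 * (1 + M / 2) ≤ 2 * a * M + L / 8 * s0 := by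
    have : 0 ≤ L / 8 * s0 := by positivity
    nlinarith
  have b2 : 0 ≤ (1 - h) * (2 * a * M + L / 8 * s0 - 3 / 2 * (1 + M / 2)) :=
    mul_nonneg (by linarith) (by linarith)
  have b3 : 2 * ((1 - h / 2) * (1 + M / 2) + 2 * a * (M * h) + L / 8 * (s0 * h)) ≤
      (1 / 2 + M / 4 + 2 * a * M + L / 8 * s0) * (1 + h) := by nlinarith
  have b4 := mul_le_mul_of_nonneg_left b3 hp.a0.le
  have b5 : 2 * a * |(1 - h / 2) * s.V h + (2 * a - 2 + 3 * h - h ^ 2) * s.V1 h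
      - L / 8 * Sf s h| ≤ 2 * a * ((1 - h / 2) * (1 + M / 2) + 2 * a * (M * h)
      + L / 8 * (s0 * h)) := mul_le_mul_of_nonneg_left (by linarith) (by linarith)
  linarith

include hf0 hF0

/-- bound of the hat function -/
lemma Ehb : ∀ h ∈ Icc (0 : ℝ) 1, |Eh s h| ≤ 17 / 15 * (1 + 2 / 3 * M + L / 4 * f0) * h := by
  have ha := hp.ha
  have hL := hp.L0
  have hM0 := M_nonneg hp hs0 hM
  set e := 17 / 15 * (1 + 2 / 3 * M + L / 4 * f0) with he
  have he0 : 0 ≤ e := by positivity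
  refine abs_mp (α := fun h => 2 * h * (1 - h ^ 2)) (c := fun h => 2 * a + h - 3 * h ^ 2)
    (G := fun _ => e) (cont_Eh s) (fun h hh => deriv_Eh s hh) (by fun_prop) (fun x _ => ?_)
    (by simp) (by simp) (fun h hh => by nlinarith [hh.1, hh.2]) (fun h hh => hEh s hp hh) ?_
  · exact ((hasDerivAt_id x).const_mul e).congr_deriv (by simp)
  · intro h hh
    have h0 := hh.1
    have h1 := hh.2
    have hh2 : h ^ 2 ≤ 1 := by nlinarith
    have v := Vb s hp hs0 hS hM h hh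
    have v1 := V1b s hp hs0 hS hM h hh
    have e1 : |s.V h - 2 * (1 - h) * s.V1 h| ≤ 1 + 2 / 3 * M := by
      have a1 : |2 * (1 - h) * s.V1 h| ≤ 2 * (1 - h) * (M * h) := by
        rw [abs_mul, abs_of_nonneg (by nlinarith)]
        exact mul_le_mul_of_nonneg_left v1 (by nlinarith)
      have a2 := abs_sub (s.V h) (2 * (1 - h) * s.V1 h)
      have a3 : |s.V h| ≤ 1 + M / 2 * h ^ 2 := by
        have := abs_add_le 1 (s.V h - 1)
        rw [abs_one, add_sub_cancel] at this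
        linarith
      have a4 : M * (2 * h - 3 / 2 * h ^ 2) ≤ M * (2 / 3) :=
        mul_le_mul_of_nonneg_left (by nlinarith [sq_nonneg (h - 2 / 3)]) hM0
      nlinarith
    have e2 : |L / 4 * R s h| ≤ L / 4 * (f0 * h) := by
      rw [abs_mul, abs_of_nonneg (by positivity)]
      refine mul_le_mul_of_nonneg_left ?_ (by positivity)
      unfold R
      rw [abs_div, abs_of_nonneg (one_pos' hh).le]
      refine (div_le_self (abs_nonneg _) (by linarith)).trans ((hF0 h hh).trans ?_)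
      exact mul_le_mul_of_nonneg_left (by nlinarith) hf0
    have e3 : |2 * a * (h * (s.V h - 2 * (1 - h) * s.V1 h) + L / 4 * R s h)| ≤
        2 * a * (h * (1 + 2 / 3 * M + L / 4 * f0)) := by
      rw [abs_mul, abs_of_nonneg (by linarith [hp.a0] : (0 : ℝ) ≤ 2 * a)]
      refine mul_le_mul_of_nonneg_left ?_ (by linarith)
      have a1 := abs_add_le (h * (s.V h - 2 * (1 - h) * s.V1 h)) (L / 4 * R s h)
      rw [abs_mul, abs_of_nonneg h0] at a1
      have a2 := mul_le_mul_of_nonneg_left e1 h0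
      linarith
    have e4 : 0 ≤ 2 * h * (1 - h ^ 2) * e :=
      mul_nonneg (mul_nonneg (by positivity) (by linarith)) he0
    have e5 : (2 * a - 2) * (e * h) ≤ (2 * a + h - 3 * h ^ 2) * (e * h) :=
      mul_le_mul_of_nonneg_right (by nlinarith) (by positivity)
    have e6 : 2 * a * (h * (1 + 2 / 3 * M + L / 4 * f0)) ≤ (2 * a - 2) * (e * h) := by
      have : 0 ≤ h * (1 + 2 / 3 * M + L / 4 * f0) := by positivity
      rw [he]
      nlinarith
    linarith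

include hf1 hF1'

lemma R1b : ∀ h ∈ Icc (0 : ℝ) 1, |R1 s h| ≤ f1 / 2 + f0 / 4 := by
  intro h hh
  have h0 := hh.1
  have h1 := hh.2
  have hpos := one_pos' hh
  have q1 : h / (1 + h) ≤ 1 / 2 := by
    rw [div_le_iff₀ hpos]
    linarith
  have q0 : 0 ≤ h / (1 + h) := by positivity
  have e1 : |s.F1 h / (1 + h)| ≤ f1 * (1 / 2) := by
    rw [abs_div, abs_of_nonneg hpos.le]
    calc |s.F1 h| / (1 + h) ≤ f1 * h / (1 + h) := div_le_div_of_nonneg_right (hF1' h hh) hpos.le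
      _ = f1 * (h / (1 + h)) := by ring
      _ ≤ f1 * (1 / 2) := mul_le_mul_of_nonneg_left q1 hf1
  have e2 : |s.F h / (1 + h) ^ 2| ≤ f0 * (1 / 4) := by
    rw [abs_div, abs_of_nonneg (pow_pos hpos 2).le]
    calc |s.F h| / (1 + h) ^ 2 ≤ f0 * h ^ 2 / (1 + h) ^ 2 :=
          div_le_div_of_nonneg_right (hF0 h hh) (pow_pos hpos 2).le
      _ = f0 * (h / (1 + h)) ^ 2 := by rw [div_pow]; ring
      _ ≤ f0 * (1 / 4) := mul_le_mul_of_nonneg_left (by nlinarith) hf0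
  have t := abs_sub (s.F1 h / (1 + h)) (s.F h / (1 + h) ^ 2)
  unfold R1
  linarith

/-- bound of the derivative of the hat function -/
lemma Eh1b {e1 : ℝ} (he1 : 5 * (17 / 15 * (1 + 2 / 3 * M + L / 4 * f0))
      + a * (1 / 2 + M / 4 + 2 * a * M + L / 8 * s0) + a * L / 2 * (f1 / 2 + f0 / 4)
      ≤ (2 * a - 6) * e1) : ∀ h ∈ Icc (0 : ℝ) 1, |Eh1 s h| ≤ e1 := by
  have ha := hp.ha
  have hL := hp.L0
  have hM0 := M_nonneg hp hs0 hM
  have hc : (0 : ℝ) < 2 * a - 6 := by linarith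
  have he0 : 0 ≤ e1 := by
    by_contra hneg
    push Not at hneg
    have : 0 ≤ 5 * (17 / 15 * (1 + 2 / 3 * M + L / 4 * f0))
      + a * (1 / 2 + M / 4 + 2 * a * M + L / 8 * s0) + a * L / 2 * (f1 / 2 + f0 / 4) := by
      have := hp.a0
      positivity
    nlinarith
  refine abs_mp (F := fun _ => e1) (α := fun h => 2 * h * (1 - h ^ 2))
    (c := fun h => 2 * a + 2 + h - 9 * h ^ 2)
    (G := fun _ => 0) (cont_Eh1 s) (fun h hh => deriv_Eh1 s hh) continuousOn_const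
    (fun x _ => hasDerivAt_const _ _) (by simp) (by simp)
    (fun h hh => by nlinarith [hh.1, hh.2]) (hEh1 s hp) ?_
  intro h hh
  have h0 := hh.1
  have h1 := hh.2
  have hpos := one_pos' hh
  have hh2 : h ^ 2 ≤ 1 := by nlinarith
  have v := Vb s hp hs0 hS hM h hh
  have v1 := V1b s hp hs0 hS hM h hh
  have k1 : |(6 * h - 1) * Eh s h| ≤ 5 * (17 / 15 * (1 + 2 / 3 * M + L / 4 * f0)) := by
    have a0 : |6 * h - 1| ≤ 5 := by
      rw [abs_le]
      constructor <;> linarith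
    have a1 := Ehb s hp hs0 hf0 hS hF0 hM h hh
    have a2 : 17 / 15 * (1 + 2 / 3 * M + L / 4 * f0) * h
        ≤ 17 / 15 * (1 + 2 / 3 * M + L / 4 * f0) := mul_le_of_le_one_right (by positivity) h1
    rw [abs_mul]
    exact mul_le_mul a0 (a1.trans a2) (abs_nonneg _) (by norm_num)
  have k2 := Eh1_aux s hp hs0 hS hM hh
  have k3 : |a * L / 2 * R1 s h| ≤ a * L / 2 * (f1 / 2 + f0 / 4) := by
    have := mul_nonneg hp.a0.le hL
    rw [abs_mul, abs_of_nonneg (by positivity)]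
    exact mul_le_mul_of_nonneg_left
      (R1b s hp hs0 hf0 hf1 hS hF0 hF1' hM h hh) (by positivity)
  have t1 := abs_add_le ((6 * h - 1) * Eh s h + 2 * a / (1 + h) * ((1 - h / 2) * s.V h
    + (2 * a - 2 + 3 * h - h ^ 2) * s.V1 h - L / 8 * Sf s h)) (a * L / 2 * R1 s h)
  have t2 := abs_add_le ((6 * h - 1) * Eh s h) (2 * a / (1 + h) * ((1 - h / 2) * s.V h
    + (2 * a - 2 + 3 * h - h ^ 2) * s.V1 h - L / 8 * Sf s h))
  have k4 : (2 * a - 6) * e1 ≤ (2 * a + 2 + h - 9 * h ^ 2) * e1 :=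
    mul_le_mul_of_nonneg_right (by nlinarith) he0
  linarith

end vlevel

section pass1

variable (hp : Par a L)
include hp

/-- all levels from a bound `K` of `E'` and `G'` -/
lemma lev1 {K : ℝ} (hK : 0 ≤ K) (bE1 : ∀ x ∈ Icc (0 : ℝ) 1, |s.E1 x| ≤ K)
    (bG1 : ∀ x ∈ Icc (0 : ℝ) 1, |s.G1 x| ≤ K) :
    (∀ x ∈ Icc (0 : ℝ) 1, |s.E x| ≤ K * x) ∧
    (∀ x ∈ Icc (0 : ℝ) 1, |s.F x| ≤ 6.08 * K * x ^ 2) ∧
    (∀ x ∈ Icc (0 : ℝ) 1, |s.F1 x| ≤ 13 * K * x) ∧
    (∀ x ∈ Icc (0 : ℝ) 1, |Sf s x| ≤ 32.08 * K * x ^ 2) ∧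
    (∀ x ∈ Icc (0 : ℝ) 1, |s.G x| ≤ 0.479 * (L * K) * x ^ 3) ∧
    (∀ x ∈ Icc (0 : ℝ) 1, |s.G1 x| ≤ 5.258 * (L * K) * x) ∧
    (∀ x ∈ Icc (0 : ℝ) 1, |s.F x - 6 * x * s.E x| ≤ 5.75 * (L * K) * x ^ 2) := by
  have ha := hp.ha
  have hL := hp.L0
  have hL1 := hp.L1
  have bE : ∀ x ∈ Icc (0 : ℝ) 1, |s.E x| ≤ K * x :=
    abs_le_of_deriv (F' := fun _ => K) s.cE.c0 (by fun_prop) (fun x hx => ct s.cE hx)
      (fun x _ => ((hasDerivAt_id x).const_mul K).congr_deriv (by simp)) (by rw [s.E0]; simp) bE1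
  have bG : ∀ x ∈ Icc (0 : ℝ) 1, |s.G x| ≤ K * x :=
    abs_le_of_deriv (F' := fun _ => K) s.cG.c0 (by fun_prop) (fun x hx => ct s.cG hx)
      (fun x _ => ((hasDerivAt_id x).const_mul K).congr_deriv (by simp)) (by rw [s.G0]; simp) bG1
  have hD0 : ∀ x ∈ Icc (0 : ℝ) 1, |D s x| ≤ 2 * K * x := fun x hx => by
    have := abs_sub (s.E x) (s.G x)
    unfold D
    linarith [bE x hx, bG x hx]
  have hD1 : ∀ x ∈ Icc (0 : ℝ) 1, |D1 s x| ≤ 2 * K := fun x hx => by
    have := abs_sub (s.E1 x) (s.G1 x)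
    unfold D1
    linarith [bE1 x hx, bG1 x hx]
  have h2K : 0 ≤ 2 * K := by linarith
  have hq : 0 ≤ 2.04 * (2 * K) + 1.55 * (2 * K) := by positivity
  have hy : 0 ≤ 3.04 * (2 * K) + 2.55 * (2 * K) := by positivity
  have bY := Yb s hp h2K h2K hD0 hD1
  have bQ := Qb s hp h2K h2K hD0 hD1
  have bY1 := Y1b s hp h2K h2K hD0 hD1
  have cG1 := G1b s hp hq hy bY bQ bY1
  have cF := F_sub s hp hq hy bY bQ bY1
  have cF1 := F1_sub s hp hq hy bY bQ bY1
  have hLK : L * K ≤ K / 72 := by nlinarith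
  have hLK0 : 0 ≤ L * K := by positivity
  have hF0 : ∀ x ∈ Icc (0 : ℝ) 1, |s.F x| ≤ 6.08 * K * x ^ 2 := by
    intro x hx
    have h0 := hx.1
    have e1 := cF x hx
    have e2 : |6 * x * s.E x| ≤ 6 * x * (K * x) := by
      rw [abs_mul, abs_of_nonneg (by positivity)]
      exact mul_le_mul_of_nonneg_left (bE x hx) (by positivity)
    have e3 := abs_add_le (s.F x - 6 * x * s.E x) (6 * x * s.E x)
    rw [sub_add_cancel] at e3
    have e4 := mul_le_mul_of_nonneg_right hLK (show 0 ≤ x ^ 2 by positivity)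
    have e5 : 0 ≤ K * x ^ 2 := by positivity
    nlinarith
  have hF1' : ∀ x ∈ Icc (0 : ℝ) 1, |s.F1 x| ≤ 13 * K * x := by
    intro x hx
    have h0 := hx.1
    have e1 := cF1 x hx
    have e2 : |6 * s.E x + 6 * x * s.E1 x| ≤ 12 * K * x := by
      have a1 := abs_add_le (6 * s.E x) (6 * x * s.E1 x)
      have a2 : |6 * s.E x| ≤ 6 * (K * x) := by
        rw [abs_mul, abs_of_nonneg (by norm_num : (0 : ℝ) ≤ 6)]
        linarith [bE x hx]
      have a3 : |6 * x * s.E1 x| ≤ 6 * x * K := by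
        rw [abs_mul, abs_of_nonneg (by positivity)]
        exact mul_le_mul_of_nonneg_left (bE1 x hx) (by positivity)
      linarith
    have e3 := abs_add_le (s.F1 x - (6 * s.E x + 6 * x * s.E1 x)) (6 * s.E x + 6 * x * s.E1 x)
    rw [sub_add_cancel] at e3
    have e4 := mul_le_mul_of_nonneg_right hLK h0
    have e5 : 0 ≤ K * x := by positivity
    nlinarith
  have hS : ∀ x ∈ Icc (0 : ℝ) 1, |Sf s x| ≤ 32.08 * K * x ^ 2 := by
    intro x hx
    have h0 := hx.1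
    have e1 := abs_add_le (2 * x * s.F1 x) (s.F x)
    have e2 : |2 * x * s.F1 x| ≤ 2 * x * (13 * K * x) := by
      rw [abs_mul, abs_of_nonneg (by positivity)]
      exact mul_le_mul_of_nonneg_left (hF1' x hx) (by positivity)
    have e3 := hF0 x hx
    unfold Sf
    nlinarith
  refine ⟨bE, hF0, hF1', hS, ?_, ?_, ?_⟩
  · intro x hx
    have h0 := hx.1
    have := Gb s hp hq bQ x hx
    have e5 : 0 ≤ L * K * x ^ 3 := by positivity
    nlinarith
  · intro x hx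
    have h0 := hx.1
    have := cG1 x hx
    have e5 : 0 ≤ L * K * x := by positivity
    nlinarith
  · intro x hx
    have h0 := hx.1
    have := cF x hx
    have e5 : 0 ≤ L * K * x ^ 2 := by positivity
    nlinarith

lemma pass1_step {K : ℝ} (hK : 0 ≤ K)
    (h : ∀ x ∈ Icc (0 : ℝ) 1, max |s.E1 x| |s.G1 x| ≤ K * 1) :
    ∀ x ∈ Icc (0 : ℝ) 1, max |s.E1 x| |s.G1 x| ≤ (2.903 + 0.2 * K) * 1 := by
  have ha := hp.ha
  have hL := hp.L0
  have hL1 := hp.L1
  have bE1 : ∀ x ∈ Icc (0 : ℝ) 1, |s.E1 x| ≤ K := fun x hx => by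
    linarith [le_max_left |s.E1 x| |s.G1 x|, h x hx]
  have bG1 : ∀ x ∈ Icc (0 : ℝ) 1, |s.G1 x| ≤ K := fun x hx => by
    linarith [le_max_right |s.E1 x| |s.G1 x|, h x hx]
  obtain ⟨bE, hF0, hF1', hS, -, cG1, -⟩ := lev1 s hp hK bE1 bG1
  have hLK : L * K ≤ K / 72 := by nlinarith
  have hLK0 : 0 ≤ L * K := by positivity
  set N := 3 / 2 + L / 8 * (32.08 * K) with hN
  have hN1 : N ≤ 1.5 + 0.0557 * K := by
    rw [hN]
    nlinarith
  have hc : (0 : ℝ) < 2 * a - 27 / 4 := by linarith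
  set M := N / (2 * a - 27 / 4) with hM
  have hMe : M * (2 * a - 27 / 4) = N := div_mul_cancel₀ _ hc.ne'
  have hs0 : 0 ≤ 32.08 * K := by positivity
  have hf0 : 0 ≤ 6.08 * K := by positivity
  have hf1 : 0 ≤ 13 * K := by positivity
  have hM0 : 0 ≤ M := M_nonneg hp hs0 hMe
  have hM1 : 10.25 * M ≤ N := by nlinarith
  have hM2 : 2 * a * M = N + 27 / 4 * M := by linarith
  have he1 : 5 * (17 / 15 * (1 + 2 / 3 * M + L / 4 * (6.08 * K)))
      + a * (1 / 2 + M / 4 + 2 * a * M + L / 8 * (32.08 * K))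
      + a * L / 2 * (13 * K / 2 + 6.08 * K / 4) ≤ (2 * a - 6) * (2.903 + 0.172 * K) := by
    have b1 : M ≤ 0.14635 + 0.005436 * K := by linarith
    have b2 : 1 / 2 + M / 4 + 2 * a * M + L / 8 * (32.08 * K)
        + L / 2 * (13 * K / 2 + 6.08 * K / 4) ≤ 3.0246 + 0.2052 * K := by
      rw [hM2]
      nlinarith
    have b3 := mul_le_mul_of_nonneg_left b2 hp.a0.le
    have b4 : 5 * (17 / 15 * (1 + 2 / 3 * M + L / 4 * (6.08 * K))) ≤ 6.2198 + 0.1403 * K := by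
      nlinarith
    nlinarith [mul_nonneg (sub_nonneg.2 ha) hK]
  have bEh1 := Eh1b s hp hs0 hf0 hf1 hS hF0 hF1' hMe he1
  have bR1 := R1b s hp hs0 hf0 hf1 hS hF0 hF1' hMe
  intro x hx
  rw [mul_one, max_le_iff]
  constructor
  · have e1 : s.E1 x = Eh1 s x - L / 4 * R1 s x := by
      unfold Eh1
      ring
    have e2 : |L / 4 * R1 s x| ≤ 0.0279 * K := by
      rw [abs_mul, abs_of_nonneg (by positivity)]
      have := mul_le_mul_of_nonneg_left (bR1 x hx) (show 0 ≤ L / 4 by positivity)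
      nlinarith
    have e3 := abs_sub (Eh1 s x) (L / 4 * R1 s x)
    rw [← e1] at e3
    have := bEh1 x hx
    linarith
  · have e1 := cG1 x hx
    have e2 : 5.258 * (L * K) * x ≤ 5.258 * (L * K) := mul_le_of_le_one_right (by positivity) hx.2
    nlinarith

/-- the result of the first pass -/
lemma pass1 : (∀ x ∈ Icc (0 : ℝ) 1, |s.E1 x| ≤ 3.63) ∧ ∀ x ∈ Icc (0 : ℝ) 1, |s.G1 x| ≤ 3.63 := by
  have key := self_improve (g := fun x => max |s.E1 x| |s.G1 x|) (w := fun _ => 1)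
    (s := Icc (0 : ℝ) 1) (A := 2.903) (t := 0.2) (by norm_num) (by norm_num) (by norm_num)
    (fun _ _ => zero_le_one) (by
      obtain ⟨K1, h1, h1'⟩ := exists_bd s.cE.c1
      obtain ⟨K2, h2, h2'⟩ := exists_bd s.cG.c1
      refine ⟨max K1 K2, le_max_of_le_left h1, fun x hx => ?_⟩
      rw [mul_one]
      exact max_le_max (h1' x hx) (h2' x hx))
    (fun M hM hb => pass1_step s hp hM hb) 3.63 (by norm_num)
  constructor
  · intro x hx
    linarith [le_max_left |s.E1 x| |s.G1 x|, key x hx]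
  · intro x hx
    linarith [le_max_right |s.E1 x| |s.G1 x|, key x hx]

end pass1

end HS

end Vale.Agent.P224.R2.H424
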