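import Vale.Agent.P224.R2.H424.Abs3

/-!
Second pass: signs and numerical bounds.
-/

namespace Vale.Agent.P224.R2.H424

open Set Vale.Agent.P224.R2.H355 Vale.Agent.P224.R2.H876

namespace HS

variable {a L : ℝ} (s : HSol a L) (hp : Par a L)
include hp

lemma bE1 : ∀ h ∈ Icc (0 : ℝ) 1, |s.E1 h| ≤ 3.63 := (pass1 s hp).1
lemma bG1 : ∀ h ∈ Icc (0 : ℝ) 1, |s.G1 h| ≤ 3.63 := (pass1 s hp).2

lemma lv : (∀ x ∈ Icc (0 : ℝ) 1, |s.E x| ≤ 3.63 * x) ∧
    (∀ x ∈ Icc (0 : ℝ) 1, |s.F x| ≤ 6.08 * 3.63 * x ^ 2) ∧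
    (∀ x ∈ Icc (0 : ℝ) 1, |s.F1 x| ≤ 13 * 3.63 * x) ∧
    (∀ x ∈ Icc (0 : ℝ) 1, |Sf s x| ≤ 32.08 * 3.63 * x ^ 2) ∧
    (∀ x ∈ Icc (0 : ℝ) 1, |s.G x| ≤ 0.479 * (L * 3.63) * x ^ 3) ∧
    (∀ x ∈ Icc (0 : ℝ) 1, |s.G1 x| ≤ 5.258 * (L * 3.63) * x) ∧
    (∀ x ∈ Icc (0 : ℝ) 1, |s.F x - 6 * x * s.E x| ≤ 5.75 * (L * 3.63) * x ^ 2) :=
  lev1 s hp (by norm_num) (bE1 s hp) (bG1 s hp)

omit hp in
lemma exM (hp : Par a L) : ∃ M : ℝ, M * (2 * a - 27 / 4) = 3 / 2 + L / 8 * (32.08 * 3.63) ∧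
    0 ≤ M ∧ M ≤ 0.1661 ∧ L / 8 * (32.08 * 3.63) ≤ 0.2022 := by
  have ha := hp.ha
  have hL := hp.L0
  have hL1 := hp.L1
  have hc : (0 : ℝ) < 2 * a - 27 / 4 := by linarith
  refine ⟨(3 / 2 + L / 8 * (32.08 * 3.63)) / (2 * a - 27 / 4), div_mul_cancel₀ _ hc.ne', ?_, ?_, ?_⟩
  · positivity
  · rw [div_le_iff₀ hc]
    nlinarith
  · nlinarith

lemma V1_le : ∀ h ∈ Icc (0 : ℝ) 1, |s.V1 h| ≤ 0.1661 * h := by
  obtain ⟨M, hM, hM0, hM1, -⟩ := exM hp
  obtain ⟨-, -, -, hS, -⟩ := lv s hp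
  intro h hh
  exact (V1b s hp (by norm_num) hS hM h hh).trans (mul_le_mul_of_nonneg_right hM1 hh.1)

lemma V_abs : ∀ h ∈ Icc (0 : ℝ) 1, |s.V h - 1| ≤ 0.0831 * h ^ 2 := by
  intro h hh
  refine (V_of_V1 s (V1_le s hp) h hh).trans ?_
  nlinarith [sq_nonneg h]

lemma V_rhs_ge : ∀ h ∈ Icc (0 : ℝ) 1, 0 ≤ 3 / 2 * h * s.V h + L / 8 * (2 * h * s.F1 h + s.F h) := by
  obtain ⟨M, hM, hM0, hM1, hL2⟩ := exM hp
  obtain ⟨-, -, -, hS, -⟩ := lv s hp
  intro h hh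
  have h0 := hh.1
  have h1 := hh.2
  have hL := hp.L0
  have v := (abs_le.1 (V_abs s hp h hh)).1
  have e := (abs_le.1 (hS h hh)).1
  unfold Sf at e
  have e1 := mul_le_mul_of_nonneg_left e (show 0 ≤ L / 8 by positivity)
  have hh2 : h ^ 2 ≤ h := by nlinarith
  have e2 := mul_le_mul_of_nonneg_right hL2 (show 0 ≤ h ^ 2 by positivity)
  have e3 : 3 / 2 * h * (1 - 0.0831 * h ^ 2) ≤ 3 / 2 * h * s.V h :=
    mul_le_mul_of_nonneg_left (by linarith) (by positivity)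
  have e4 : h * h ^ 2 ≤ h * 1 := mul_le_mul_of_nonneg_left (by nlinarith) h0
  nlinarith

lemma V1_nonneg : ∀ h ∈ Icc (0 : ℝ) 1, 0 ≤ s.V1 h := by
  have ha := hp.ha
  have := le_of_le (a := fun h => 2 * h * (1 - h ^ 2)) (c := fun h => 2 * a - 6 * h ^ 2)
    (f := fun _ => 0) (g := fun _ => 0) (F := s.V1) (G := s.V2) zero_le_one continuousOn_const
    (fun x _ => hasDerivAt_const _ _) s.cV.c1 (fun h hh => ct1 s.cV hh) (by simp) (by simp)
    (fun h hh => by nlinarith [hh.1, hh.2]) (fun h hh => by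
      rw [s.eV h hh]
      simpa using V_rhs_ge s hp h hh)
  exact this

lemma V_ge_one : ∀ h ∈ Icc (0 : ℝ) 1, 1 ≤ s.V h := by
  have := le_of_deriv (f := fun _ => 1) (F := s.V) (f' := fun _ => 0) (F' := s.V1)
    continuousOn_const s.cV.c0 (fun x _ => hasDerivAt_const _ _) (fun x hx => ct s.cV hx)
    (by rw [s.V0]) (fun x hx => V1_nonneg s hp x hx)
  exact this

lemma V_le : ∀ h ∈ Icc (0 : ℝ) 1, s.V h ≤ 1 + 0.0831 * h ^ 2 := fun h hh => by
  linarith [(abs_le.1 (V_abs s hp h hh)).2]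

lemma V1_ge : ∀ h ∈ Icc (0 : ℝ) 1, 1.2978 / (2 * a + 2) * h ≤ s.V1 h := by
  have ha := hp.ha
  have hL := hp.L0
  obtain ⟨M, hM, hM0, hM1, hL2⟩ := exM hp
  obtain ⟨-, -, -, hS, -⟩ := lv s hp
  have hc : (0 : ℝ) < 2 * a + 2 := by linarith
  set c := 1.2978 / (2 * a + 2) with hcd
  have hc0 : 0 ≤ c := by positivity
  have hce : c * (2 * a + 2) = 1.2978 := div_mul_cancel₀ _ hc.ne'
  refine le_of_le (a := fun h => 2 * h * (1 - h ^ 2)) (c := fun h => 2 * a - 6 * h ^ 2)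
    (f := fun h => c * h) (g := fun _ => c) (F := s.V1) (G := s.V2) zero_le_one (by fun_prop)
    (fun x _ => ((hasDerivAt_id x).const_mul c).congr_deriv (by simp)) s.cV.c1
    (fun h hh => ct1 s.cV hh) (by simp) (by simp)
    (fun h hh => by nlinarith [hh.1, hh.2]) (fun h hh => ?_)
  rw [s.eV h hh]
  have h0 := hh.1
  have h1 := hh.2
  have v := V_ge_one s hp h hh
  have e := (abs_le.1 (hS h hh)).1
  unfold Sf at e
  have e1 := mul_le_mul_of_nonneg_left e (show 0 ≤ L / 8 by positivity)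
  have e2 := mul_le_mul_of_nonneg_right hL2 (show 0 ≤ h ^ 2 by positivity)
  have hh2 : h ^ 2 ≤ h := by nlinarith
  have e3 : 3 / 2 * h * 1 ≤ 3 / 2 * h * s.V h := mul_le_mul_of_nonneg_left v (by positivity)
  have e4 : 2 * h * (1 - h ^ 2) * c + (2 * a - 6 * h ^ 2) * (c * h) = 1.2978 * h
      - 8 * (c * h ^ 3) := by
    rw [← hce]
    ring
  have e5 : 0 ≤ c * h ^ 3 := by positivity
  rw [e4]
  nlinarith

lemma R_abs : ∀ h ∈ Icc (0 : ℝ) 1, |L / 4 * R s h| ≤ 0.0767 * h ^ 2 := by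
  obtain ⟨-, hF, -⟩ := lv s hp
  intro h hh
  have hL := hp.L0
  have hL1 := hp.L1
  have h0 := hh.1
  rw [abs_mul, abs_of_nonneg (by positivity)]
  have e1 : |R s h| ≤ 6.08 * 3.63 * h ^ 2 := by
    unfold R
    rw [abs_div, abs_of_nonneg (one_pos' hh).le]
    exact (div_le_self (abs_nonneg _) (by linarith)).trans (hF h hh)
  have e2 := mul_le_mul_of_nonneg_left e1 (show 0 ≤ L / 4 by positivity)
  have e3 := mul_le_mul_of_nonneg_right hL1 (show 0 ≤ h ^ 2 by positivity)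
  nlinarith

lemma Eh_le : ∀ h ∈ Icc (0 : ℝ) 1, Eh s h ≤ 1.3145 * h := by
  have ha := hp.ha
  refine le_of_le (a := fun h => 2 * h * (1 - h ^ 2)) (c := fun h => 2 * a + h - 3 * h ^ 2)
    (f := Eh s) (g := Eh1 s) (F := fun h => 1.3145 * h) (G := fun _ => 1.3145) zero_le_one
    (cont_Eh s) (fun h hh => deriv_Eh s hh) (by fun_prop)
    (fun x _ => ((hasDerivAt_id x).const_mul 1.3145).congr_deriv (by simp)) (by simp) (by simp)
    (fun h hh => by nlinarith [hh.1, hh.2]) (fun h hh => ?_)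
  rw [hEh s hp hh]
  have h0 := hh.1
  have h1 := hh.2
  have hh2 : h ^ 2 ≤ 1 := by nlinarith
  have v := V_le s hp h hh
  have v1 := V1_nonneg s hp h hh
  have r := (abs_le.1 (R_abs s hp h hh)).2
  have e1 : 0 ≤ (1 - h) * s.V1 h := mul_nonneg (by linarith) v1
  have e2 : h * (s.V h - 2 * (1 - h) * s.V1 h) + L / 4 * R s h ≤ 1.1598 * h := by
    have a1 : h * (s.V h - 2 * (1 - h) * s.V1 h) ≤ h * 1.0831 :=
      mul_le_mul_of_nonneg_left (by nlinarith) h0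
    nlinarith
  have e3 := mul_le_mul_of_nonneg_left e2 (show 0 ≤ 2 * a by linarith)
  have e4 : 0 ≤ 2 * h * (1 - h ^ 2) * 1.3145 :=
    mul_nonneg (mul_nonneg (by positivity) (by linarith)) (by norm_num)
  have e5 : (2 * a - 2) * (1.3145 * h) ≤ (2 * a + h - 3 * h ^ 2) * (1.3145 * h) :=
    mul_le_mul_of_nonneg_right (by nlinarith) (by positivity)
  have e6 : 0 ≤ (a - 17 / 2) * h := mul_nonneg (by linarith) h0
  nlinarith

lemma Eh_ge : ∀ h ∈ Icc (0 : ℝ) 1, 0.749 * h ≤ Eh s h := by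
  have ha := hp.ha
  refine le_of_le (a := fun h => 2 * h * (1 - h ^ 2)) (c := fun h => 2 * a + h - 3 * h ^ 2)
    (F := Eh s) (G := Eh1 s) (f := fun h => 0.749 * h) (g := fun _ => 0.749) zero_le_one
    (by fun_prop)
    (fun x _ => ((hasDerivAt_id x).const_mul 0.749).congr_deriv (by simp))
    (cont_Eh s) (fun h hh => deriv_Eh s hh) (by simp) (by simp)
    (fun h hh => by nlinarith [hh.1, hh.2]) (fun h hh => ?_)
  rw [hEh s hp hh]
  have h0 := hh.1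
  have h1 := hh.2
  have hh2 : h ^ 2 ≤ 1 := by nlinarith
  have v := V_ge_one s hp h hh
  have v1 := (abs_le.1 (V1_le s hp h hh)).2
  have r := (abs_le.1 (R_abs s hp h hh)).1
  have e1 : (1 - h) * s.V1 h ≤ (1 - h) * (0.1661 * h) :=
    mul_le_mul_of_nonneg_left v1 (by linarith)
  have e2 : 0.8402 * h ≤ h * (s.V h - 2 * (1 - h) * s.V1 h) + L / 4 * R s h := by
    have a1 : h * 0.91695 ≤ h * (s.V h - 2 * (1 - h) * s.V1 h) :=
      mul_le_mul_of_nonneg_left (by nlinarith [sq_nonneg (h - 1 / 2)]) h0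
    nlinarith
  have e3 := mul_le_mul_of_nonneg_left e2 (show 0 ≤ 2 * a by linarith)
  have e4 : 2 * h * (1 - h ^ 2) * 0.749 + (2 * a + h - 3 * h ^ 2) * (0.749 * h)
      = 0.749 * h * (2 * a + 2 + h - 5 * h ^ 2) := by ring
  have e5 : 0.749 * h * (2 * a + 2 + h - 5 * h ^ 2) ≤ 0.749 * h * (2 * a + 2.05) :=
    mul_le_mul_of_nonneg_left (by nlinarith [sq_nonneg (h - 1 / 10)]) (by positivity)
  have e6 : 0 ≤ (a - 17 / 2) * h := mul_nonneg (by linarith) h0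
  rw [e4]
  nlinarith

lemma E_eq (h : ℝ) : s.E h = Eh s h - L / 4 * R s h := by
  unfold Eh
  ring

lemma E1_eq (h : ℝ) : s.E1 h = Eh1 s h - L / 4 * R1 s h := by
  unfold Eh1
  ring

lemma E_ge : ∀ h ∈ Icc (0 : ℝ) 1, 0.672 * h ≤ s.E h := by
  intro h hh
  rw [E_eq s hp h]
  have r := (abs_le.1 (R_abs s hp h hh)).2
  have e := Eh_ge s hp h hh
  nlinarith [hh.1, hh.2]

lemma F_ge : ∀ h ∈ Icc (0 : ℝ) 1, 3.74 * h ^ 2 ≤ s.F h := by
  obtain ⟨-, -, -, -, -, -, hF⟩ := lv s hp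
  intro h hh
  have h0 := hh.1
  have hL1 := hp.L1
  have e := (abs_le.1 (hF h hh)).1
  have e1 := mul_le_mul_of_nonneg_left (E_ge s hp h hh) (show 0 ≤ 6 * h by linarith)
  have e3 := mul_le_mul_of_nonneg_right hL1 (show 0 ≤ h ^ 2 by positivity)
  nlinarith

lemma R_nonneg : ∀ h ∈ Icc (0 : ℝ) 1, 0 ≤ R s h := fun h hh =>
  div_nonneg ((by positivity : 0 ≤ 3.74 * h ^ 2).trans (F_ge s hp h hh)) (one_pos' hh).le

lemma E_le : ∀ h ∈ Icc (0 : ℝ) 1, s.E h ≤ 1.3145 * h := by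
  intro h hh
  rw [E_eq s hp h]
  have := mul_nonneg (show 0 ≤ L / 4 by linarith [hp.L0]) (R_nonneg s hp h hh)
  linarith [Eh_le s hp h hh]

lemma R1_abs : ∀ h ∈ Icc (0 : ℝ) 1, |L / 4 * R1 s h| ≤ 0.1012 := by
  obtain ⟨M, hM, hM0, hM1, hL2⟩ := exM hp
  obtain ⟨-, hF, hF1, hS, -⟩ := lv s hp
  intro h hh
  have hL := hp.L0
  have hL1 := hp.L1
  rw [abs_mul, abs_of_nonneg (by positivity)]
  have := R1b s hp (by norm_num) (by norm_num) (by norm_num) hS hF hF1 hM h hh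
  have e2 := mul_le_mul_of_nonneg_left this (show 0 ≤ L / 4 by positivity)
  nlinarith

lemma Eh1_ge : ∀ h ∈ Icc (0 : ℝ) 1, 0.49 ≤ Eh1 s h := by
  have ha := hp.ha
  have hL := hp.L0
  obtain ⟨M, hM, hM0, hM1, hL2⟩ := exM hp
  obtain ⟨-, -, -, hS, -⟩ := lv s hp
  refine le_of_le (a := fun h => 2 * h * (1 - h ^ 2)) (c := fun h => 2 * a + 2 + h - 9 * h ^ 2)
    (F := Eh1 s) (G := Eh2 s) (f := fun _ => 0.49) (g := fun _ => 0) zero_le_one
    continuousOn_const (fun x _ => hasDerivAt_const _ _)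
    (cont_Eh1 s) (fun h hh => deriv_Eh1 s hh) (by simp) (by simp)
    (fun h hh => by nlinarith [hh.1, hh.2]) (fun h hh => ?_)
  rw [hEh1 s hp h hh]
  have h0 := hh.1
  have h1 := hh.2
  have hpos := one_pos' hh
  have hh2 : h ^ 2 ≤ 1 := by nlinarith
  have v := V_ge_one s hp h hh
  have v1 := V1_ge s hp h hh
  have r := (abs_le.1 (R1_abs s hp h hh)).1
  have eS := (abs_le.1 (hS h hh)).2
  have b1 : -0.0548 ≤ (6 * h - 1) * Eh s h := by
    have c1 := Eh_le s hp h hh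
    have c2 := Eh_ge s hp h hh
    rcases le_total (6 * h) 1 with h6 | h6
    · have := mul_le_mul_of_nonneg_left c1 (show 0 ≤ 1 - 6 * h by linarith)
      nlinarith [sq_nonneg (h - 1 / 12)]
    · have : 0 ≤ (6 * h - 1) * Eh s h := mul_nonneg (by linarith) (by nlinarith)
      linarith
  have b2 : (1.0245 * h : ℝ) ≤ (2 * a - 2 + 3 * h - h ^ 2) * s.V1 h := by
    have hc : (0 : ℝ) < 2 * a + 2 := by linarith
    have c1 : (2 * a - 2) * (1.2978 / (2 * a + 2) * h) ≤ (2 * a - 2 + 3 * h - h ^ 2) * s.V1 h :=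
      mul_le_mul (by nlinarith) v1 (by positivity) (by nlinarith)
    have c2 : (1.0245 : ℝ) ≤ (2 * a - 2) * (1.2978 / (2 * a + 2)) := by
      rw [mul_div_assoc', le_div_iff₀ hc]
      nlinarith
    nlinarith
  have b3 : L / 8 * Sf s h ≤ 0.2022 * h := by
    have c1 := mul_le_mul_of_nonneg_left eS (show 0 ≤ L / 8 by positivity)
    have c2 := mul_le_mul_of_nonneg_right hL2 (show 0 ≤ h ^ 2 by positivity)
    nlinarith
  have b4 : 0.6611 ≤ ((1 - h / 2) * s.V h + (2 * a - 2 + 3 * h - h ^ 2) * s.V1 h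
      - L / 8 * Sf s h) / (1 + h) := by
    rw [le_div_iff₀ hpos]
    nlinarith
  have b5 : 2 * a / (1 + h) * ((1 - h / 2) * s.V h + (2 * a - 2 + 3 * h - h ^ 2) * s.V1 h
      - L / 8 * Sf s h) = 2 * a * (((1 - h / 2) * s.V h + (2 * a - 2 + 3 * h - h ^ 2) * s.V1 h
      - L / 8 * Sf s h) / (1 + h)) := by ring
  have b6 := mul_le_mul_of_nonneg_left b4 (show 0 ≤ 2 * a by linarith)
  have b7 := mul_le_mul_of_nonneg_left r (show 0 ≤ 2 * a by linarith)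
  rw [b5]
  nlinarith [sq_nonneg (h - 1 / 18)]

lemma E1_ge : ∀ h ∈ Icc (0 : ℝ) 1, 0.3888 ≤ s.E1 h := by
  intro h hh
  rw [E1_eq s hp h]
  linarith [(abs_le.1 (R1_abs s hp h hh)).2, Eh1_ge s hp h hh]

lemma D_ge : ∀ h ∈ Icc (0 : ℝ) 1, 0.64 * h ≤ D s h := by
  obtain ⟨-, -, -, -, hG, -, -⟩ := lv s hp
  intro h hh
  have h0 := hh.1
  have h1 := hh.2
  have hL1 := hp.L1
  have e := (abs_le.1 (hG h hh)).2
  have e3 : h ^ 3 ≤ h := by
    have : h * (h ^ 2) ≤ h * 1 := mul_le_mul_of_nonneg_left (by nlinarith) h0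
    linarith
  have e4 : 0.479 * (L * 3.63) * h ^ 3 ≤ 0.479 * (L * 3.63) * h :=
    mul_le_mul_of_nonneg_left e3 (by have := hp.L0; positivity)
  have e5 := mul_le_mul_of_nonneg_right hL1 h0
  unfold D
  linarith [E_ge s hp h hh]

lemma D_le : ∀ h ∈ Icc (0 : ℝ) 1, D s h ≤ 1.34 * h := by
  obtain ⟨-, -, -, -, hG, -, -⟩ := lv s hp
  intro h hh
  have h0 := hh.1
  have h1 := hh.2
  have hL1 := hp.L1
  have e := (abs_le.1 (hG h hh)).1
  have e3 : h ^ 3 ≤ h := by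
    have : h * (h ^ 2) ≤ h * 1 := mul_le_mul_of_nonneg_left (by nlinarith) h0
    linarith
  have e4 : 0.479 * (L * 3.63) * h ^ 3 ≤ 0.479 * (L * 3.63) * h :=
    mul_le_mul_of_nonneg_left e3 (by have := hp.L0; positivity)
  have e5 := mul_le_mul_of_nonneg_right hL1 h0
  unfold D
  linarith [E_le s hp h hh]

lemma G1_abs : ∀ h ∈ Icc (0 : ℝ) 1, |s.G1 h| ≤ 0.2652 * h := by
  obtain ⟨-, -, -, -, -, hG1, -⟩ := lv s hp
  intro h hh
  have e := hG1 h hh
  have e5 := mul_le_mul_of_nonneg_right hp.L1 hh.1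
  have := hh.1
  linarith

lemma D1_ge : ∀ h ∈ Icc (0 : ℝ) 1, 0.1236 ≤ D1 s h := by
  intro h hh
  have e := (abs_le.1 (G1_abs s hp h hh)).2
  have := hh.2
  unfold D1
  linarith [E1_ge s hp h hh]

lemma D1_le : ∀ h ∈ Icc (0 : ℝ) 1, D1 s h ≤ 3.9 := by
  intro h hh
  have e := (abs_le.1 (G1_abs s hp h hh)).1
  have := hh.2
  unfold D1
  linarith [(abs_le.1 (bE1 s hp h hh)).2]

lemma D_abs : ∀ h ∈ Icc (0 : ℝ) 1, |D s h| ≤ 1.34 * h := fun h hh => by
  rw [abs_of_nonneg ((mul_nonneg (by norm_num) hh.1).trans (D_ge s hp h hh))]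
  exact D_le s hp h hh

lemma D1_abs : ∀ h ∈ Icc (0 : ℝ) 1, |D1 s h| ≤ 3.9 := fun h hh => by
  rw [abs_of_nonneg (by linarith [D1_ge s hp h hh])]
  exact D1_le s hp h hh

lemma P1_abs : ∀ h ∈ Icc (0 : ℝ) 1, |s.P1 h| ≤ 1.541 * h ^ 2 := fun h hh =>
  (P1b s hp (by norm_num) (D_abs s hp) h hh).trans (le_of_eq (by ring))

lemma P_abs : ∀ h ∈ Icc (0 : ℝ) 1, |s.P h| ≤ 0.514 * h ^ 3 := fun h hh =>
  (Pb s hp (by norm_num) (D_abs s hp) h hh).trans (by nlinarith [pow_nonneg hh.1 3])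

lemma P2_abs : ∀ h ∈ Icc (0 : ℝ) 1, |s.P2 h| ≤ 8.78 * h := fun h hh =>
  (P2b s hp (by norm_num) (by norm_num) (D_abs s hp) (D1_abs s hp) h hh).trans
    (by nlinarith [hh.1])

lemma Q_abs : ∀ h ∈ Icc (0 : ℝ) 1, |s.Q h| ≤ 8.78 * h := fun h hh =>
  (Qb s hp (by norm_num) (by norm_num) (D_abs s hp) (D1_abs s hp) h hh).trans
    (by nlinarith [hh.1])

lemma Y_abs : ∀ h ∈ Icc (0 : ℝ) 1, a * |Y s h| ≤ 8.78 * h ^ 2 := fun h hh =>
  (Yb s hp (by norm_num) (by norm_num) (D_abs s hp) (D1_abs s hp) h hh).trans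
    (by nlinarith [sq_nonneg h])

lemma P1_nonneg : ∀ h ∈ Icc (0 : ℝ) 1, 0 ≤ s.P1 h := by
  have ha := hp.ha
  have := le_of_le (a := fun h => w L h * (1 - h ^ 2)) (c := fun h => a - h * w L h)
    (f := fun _ => 0) (g := fun _ => 0) (F := s.P1) (G := s.P2) zero_le_one continuousOn_const
    (fun x _ => hasDerivAt_const _ _) s.cP.c1 (fun h hh => ct1 s.cP hh)
    (by simp [w]) (by simp) (fun h hh => by nlinarith [hh.1, hh.2, w_le hp hh, w_nonneg hp hh])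
    (fun h hh => by
      have e := hP1 s hp hh
      have h0 := hh.1
      have h1 := hh.2
      have p := P_abs s hp h hh
      have d := D_ge s hp h hh
      have w0 := w_nonneg hp hh
      have w2 := w_le hp hh
      have e1 : w L h / 4 * s.P h ≤ h / 4 * (0.514 * h ^ 3) := by
        refine (le_abs_self _).trans ?_
        rw [abs_mul, abs_of_nonneg (by positivity)]
        exact mul_le_mul (by linarith) p (abs_nonneg _) (by positivity)
      have e2 : 17 / 2 * (h * (0.64 * h)) ≤ a * (h * D s h) :=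
        mul_le_mul ha (mul_le_mul_of_nonneg_left d h0) (by positivity) hp.a0.le
      have e3 : h ^ 2 ≤ 1 := by nlinarith
      have e4 : h ^ 2 * h ^ 2 ≤ h ^ 2 * 1 := mul_le_mul_of_nonneg_left e3 (by positivity)
      have e5 := sq_nonneg h
      nlinarith)
  exact this

lemma P_nonneg : ∀ h ∈ Icc (0 : ℝ) 1, 0 ≤ s.P h := by
  have := le_of_deriv (f := fun _ => 0) (F := s.P) (f' := fun _ => 0) (F' := s.P1)
    continuousOn_const s.cP.c0 (fun x _ => hasDerivAt_const _ _) (fun x hx => ct s.cP hx)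
    (by rw [s.P0]) (fun x hx => P1_nonneg s hp x hx)
  exact this

lemma P2_nonneg : ∀ h ∈ Icc (0 : ℝ) 1, 0 ≤ s.P2 h := by
  have ha := hp.ha
  have := le_of_le (a := fun h => w L h * (1 - h ^ 2))
    (c := fun h => w1 L h * (1 - h ^ 2) - 2 * h * w L h + a - h * w L h)
    (f := fun _ => 0) (g := fun _ => 0) (F := s.P2) (G := s.P3) zero_le_one continuousOn_const
    (fun x _ => hasDerivAt_const _ _) s.cP'.c1 (fun h hh => ct1 s.cP' hh)
    (by simp [w]) (by simp) (fun h hh => by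
      have h0 := hh.1
      have h1 := hh.2
      have w0 := w_nonneg hp hh
      have w2 := w_le hp hh
      have w3 := w1_nonneg hp hh
      have : 0 ≤ w1 L h * (1 - h ^ 2) := mul_nonneg w3 (by nlinarith)
      nlinarith)
    (fun h hh => by
      have e := hP2 s hp h hh
      have h0 := hh.1
      have h1 := hh.2
      have p := P_abs s hp h hh
      have p1 := P1_abs s hp h hh
      have p1' := P1_nonneg s hp h hh
      have d := D_ge s hp h hh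
      have d1 := D1_ge s hp h hh
      have w0 := w_nonneg hp hh
      have w2 := w_le hp hh
      have w3 := w1_nonneg hp hh
      have w4 := w1_le hp hh
      have e1 : w1 L h / 4 * s.P h ≤ 1 / 4 * (0.514 * h ^ 3) := by
        refine (le_abs_self _).trans ?_
        rw [abs_mul, abs_of_nonneg (by positivity)]
        exact mul_le_mul (by linarith) p (abs_nonneg _) (by positivity)
      have e1' : w L h / 4 * s.P1 h ≤ h / 4 * (1.541 * h ^ 2) := by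
        refine (le_abs_self _).trans ?_
        rw [abs_mul, abs_of_nonneg (by positivity)]
        exact mul_le_mul (by linarith) p1 (abs_nonneg _) (by positivity)
      have e2 : 17 / 2 * (0.64 * h) ≤ a * (D s h + h * D1 s h) :=
        mul_le_mul ha (by nlinarith) (by positivity) hp.a0.le
      have e3 : 0 ≤ (w L h + h * w1 L h) * s.P1 h := mul_nonneg (by positivity) p1'
      have e4 : h ^ 3 ≤ h := by
        have : h * (h ^ 2) ≤ h * 1 := mul_le_mul_of_nonneg_left (by nlinarith) h0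
        linarith
      simp only [mul_zero, add_zero]
      linarith)
  exact this

lemma Y1_abs : ∀ h ∈ Icc (0 : ℝ) 1, |Y1 s h| ≤ 8.78 * h := by
  intro h hh
  have h0 := hh.1
  have p2 := (abs_le.1 (P2_abs s hp h hh)).2
  have p2' := P2_nonneg s hp h hh
  have d := D_ge s hp h hh
  have d1 := D1_ge s hp h hh
  have d' := D_le s hp h hh
  have d1' := D1_le s hp h hh
  have e1 : h * D1 s h ≤ h * 3.9 := mul_le_mul_of_nonneg_left d1' h0
  have e2 : 0 ≤ h * D1 s h := mul_nonneg h0 (by linarith)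
  unfold Y1
  rw [abs_le]
  constructor <;> linarith

lemma G_abs' : ∀ h ∈ Icc (0 : ℝ) 1, |s.G h| ≤ 0.5854 * L * h ^ 3 := fun h hh =>
  (Gb s hp (by norm_num) (Q_abs s hp) h hh).trans (by
    nlinarith [mul_nonneg hp.L0 (pow_nonneg hh.1 3)])

lemma G1_abs' : ∀ h ∈ Icc (0 : ℝ) 1, |s.G1 h| ≤ 4.522 * L * h := fun h hh =>
  (G1b s hp (by norm_num) (by norm_num) (Y_abs s hp) (Q_abs s hp) (Y1_abs s hp) h hh).trans (by
    nlinarith [mul_nonneg hp.L0 hh.1])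

lemma F_sub' : ∀ h ∈ Icc (0 : ℝ) 1, |s.F h - 6 * h * s.E h| ≤ 7.025 * L * h ^ 2 := fun h hh =>
  (F_sub s hp (by norm_num) (by norm_num) (Y_abs s hp) (Q_abs s hp) (Y1_abs s hp) h hh).trans (by
    nlinarith [mul_nonneg hp.L0 (sq_nonneg h)])

lemma F1_sub' : ∀ h ∈ Icc (0 : ℝ) 1,
    |s.F1 h - (6 * s.E h + 6 * h * s.E1 h)| ≤ 62.7 * L * h := fun h hh =>
  (F1_sub s hp (by norm_num) (by norm_num) (Y_abs s hp) (Q_abs s hp) (Y1_abs s hp) h hh).trans (by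
    nlinarith [mul_nonneg hp.L0 hh.1])

lemma F1_ge : ∀ h ∈ Icc (0 : ℝ) 1, 5.49 * h ≤ s.F1 h := by
  intro h hh
  have h0 := hh.1
  have e := (abs_le.1 (F1_sub' s hp h hh)).1
  have e1 := E_ge s hp h hh
  have e2 := mul_le_mul_of_nonneg_left (E1_ge s hp h hh) h0
  have e3 := mul_le_mul_of_nonneg_right hp.L1 h0
  nlinarith

lemma S_sub : ∀ h ∈ Icc (0 : ℝ) 1,
    |Sf s h - 6 * h * (3 * s.E h + 2 * h * s.E1 h)| ≤ 132.5 * L * h ^ 2 := by
  intro h hh
  have h0 := hh.1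
  have e := F1_sub' s hp h hh
  have e' := F_sub' s hp h hh
  have e1 : Sf s h - 6 * h * (3 * s.E h + 2 * h * s.E1 h)
      = 2 * h * (s.F1 h - (6 * s.E h + 6 * h * s.E1 h)) + (s.F h - 6 * h * s.E h) := by
    unfold Sf
    ring
  have e2 := abs_add_le (2 * h * (s.F1 h - (6 * s.E h + 6 * h * s.E1 h)))
    (s.F h - 6 * h * s.E h)
  have e3 : |2 * h * (s.F1 h - (6 * s.E h + 6 * h * s.E1 h))| ≤ 2 * h * (62.7 * L * h) := by
    rw [abs_mul, abs_of_nonneg (by positivity)]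
    exact mul_le_mul_of_nonneg_left e (by positivity)
  rw [e1]
  have e4 := mul_nonneg hp.L0 (sq_nonneg h)
  nlinarith

lemma S_nonneg : ∀ h ∈ Icc (0 : ℝ) 1, 0 ≤ Sf s h := by
  intro h hh
  have h0 := hh.1
  have e1 := F1_ge s hp h hh
  have e2 := F_ge s hp h hh
  unfold Sf
  have : 0 ≤ 2 * h * s.F1 h := mul_nonneg (by positivity) (by nlinarith)
  nlinarith [sq_nonneg h]

lemma S_le : ∀ h ∈ Icc (0 : ℝ) 1, Sf s h ≤ 70 * h ^ 2 := by
  intro h hh
  have h0 := hh.1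
  have e := (abs_le.1 (S_sub s hp h hh)).2
  have e1 := E_le s hp h hh
  have e2 := (abs_le.1 (bE1 s hp h hh)).2
  have e3 := mul_le_mul_of_nonneg_right hp.L1 (sq_nonneg h)
  have e4 : 6 * h * (3 * s.E h + 2 * h * s.E1 h) ≤ 6 * h * (3 * (1.3145 * h) + 2 * h * 3.63) := by
    refine mul_le_mul_of_nonneg_left ?_ (by positivity)
    have := mul_le_mul_of_nonneg_left e2 (show 0 ≤ 2 * h by positivity)
    linarith
  nlinarith

end HS

end Vale.Agent.P224.R2.H424
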