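import Mathlib

/-!
Polynomial inequalities on [0, 1] (Bernstein form).
-/

namespace Vale.Agent.P224.R2.H424.HS

lemma polV0 {h : ℝ} (h0 : 0 ≤ h) (h1 : h ≤ 1) : 0 ≤
      3 / 10 + 2 / 5 * h - 13 / 80 * h ^ 2 + 22 / 5 * h ^ 6 := by
  have u0 : 0 ≤ h := by linarith
  have v0 : 0 ≤ (1 - h) := by linarith
  have e :
      3 / 10 + 2 / 5 * h - 13 / 80 * h ^ 2 + 22 / 5 * h ^ 6
      =
      3 / 10 * ((1 - h) ^ 6) + 11 / 5 * (h ^ 1 * (1 - h) ^ 5) + 507 / 80 * (h ^ 2 * (1 - h) ^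
      4) + 187 / 20 * (h ^ 3 * (1 - h) ^ 3) + 301 / 40 * (h ^ 4 * (1 - h) ^ 2) + 63 / 20 * (h
      ^ 5 * (1 - h) ^ 1) + 79 / 16 * (h ^ 6) := by ring
  rw [e]
  positivity

lemma polV1 {h : ℝ} (h0 : 0 ≤ h) (h1 : h ≤ 1) : 0 ≤
      27 / 170 - 7329 / 13600 * h + 3691 / 1360 * h ^ 2 - 21 / 85 * h ^ 3 - 396 / 85 * h ^ 4 +
      682 / 85 * h ^ 6 - 209 / 40 * h ^ 8 := by
  have u0 : 0 ≤ h := by linarith
  have v0 : 0 ≤ (1 - h) := by linarith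
  have e :
      27 / 170 - 7329 / 13600 * h + 3691 / 1360 * h ^ 2 - 21 / 85 * h ^ 3 - 396 / 85 * h ^ 4 +
      682 / 85 * h ^ 6 - 209 / 40 * h ^ 8
      =
      27 / 170 * ((1 - h) ^ 8) + 9951 / 13600 * (h ^ 1 * (1 - h) ^ 7) + 2711 / 800 * (h ^ 2 *
      (1 - h) ^ 6) + 185151 / 13600 * (h ^ 3 * (1 - h) ^ 5) + 14727 / 544 * (h ^ 4 * (1 - h) ^
      4) + 3713 / 160 * (h ^ 5 * (1 - h) ^ 3) + 155581 / 13600 * (h ^ 6 * (1 - h) ^ 2) +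
      135437 / 13600 * (h ^ 7 * (1 - h) ^ 1) + 3081 / 13600 * (h ^ 8) := by ring
  rw [e]
  positivity

lemma polB0 {h : ℝ} (h0 : 0 ≤ h) (h1 : h ≤ 1) : 0 ≤
      10 + 18149 / 500 * h - 13213 / 250 * h ^ 2 - 781 / 10 * h ^ 3 + 280 / 3 * h ^ 5 + 280 /
      3 * h ^ 6 - 88 / 5 * h ^ 7 := by
  rcases le_total h (1 / 2) with c1 | c1
  · have u0 : 0 ≤ h := by linarith
    have v0 : 0 ≤ (1 / 2 - h) := by linarith
    have e :
        10 + 18149 / 500 * h - 13213 / 250 * h ^ 2 - 781 / 10 * h ^ 3 + 280 / 3 * h ^ 5 + 280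
        / 3 * h ^ 6 - 88 / 5 * h ^ 7
        =
        1280 * ((1 / 2 - h) ^ 7) + 1410384 / 125 * (h ^ 1 * (1 / 2 - h) ^ 6) + 4890896 / 125 *
        (h ^ 2 * (1 / 2 - h) ^ 5) + 1748504 / 25 * (h ^ 3 * (1 / 2 - h) ^ 4) + 346752 / 5 * (h
        ^ 4 * (1 / 2 - h) ^ 3) + 2826688 / 75 * (h ^ 5 * (1 / 2 - h) ^ 2) + 3891392 / 375 * (h
        ^ 6 * (1 / 2 - h) ^ 1) + 150576 / 125 * (h ^ 7) := by ring
    rw [e]
    positivity
  · have u0 : 0 ≤ (h - 1 / 2) := by linarith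
    have v0 : 0 ≤ (1 - h) := by linarith
    have e :
        10 + 18149 / 500 * h - 13213 / 250 * h ^ 2 - 781 / 10 * h ^ 3 + 280 / 3 * h ^ 5 + 280
        / 3 * h ^ 6 - 88 / 5 * h ^ 7
        =
        150576 / 125 * ((1 - h) ^ 7) + 97312 / 15 * ((h - 1 / 2) ^ 1 * (1 - h) ^ 6) + 5381888
        / 375 * ((h - 1 / 2) ^ 2 * (1 - h) ^ 5) + 1665664 / 75 * ((h - 1 / 2) ^ 3 * (1 - h) ^
        4) + 923928 / 25 * ((h - 1 / 2) ^ 4 * (1 - h) ^ 3) + 18841408 / 375 * ((h - 1 / 2) ^ 5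
        * (1 - h) ^ 2) + 558736 / 15 * ((h - 1 / 2) ^ 6 * (1 - h) ^ 1) + 4051808 / 375 * ((h -
        1 / 2) ^ 7) := by ring
    rw [e]
    positivity

lemma polB1 {h : ℝ} (h0 : 0 ≤ h) (h1 : h ≤ 1) : 0 ≤
      353 / 85 + 1020313 / 42500 * h - 1000759 / 21250 * h ^ 2 - 7163 / 102 * h ^ 3 - 1448 /
      255 * h ^ 4 + 39736 / 255 * h ^ 5 + 2800 / 17 * h ^ 6 - 9456 / 85 * h ^ 7 - 54949 / 510
      * h ^ 8 - 11 / 5 * h ^ 9 := by
  rcases le_total h (1 / 2) with c1 | c1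
  · have u0 : 0 ≤ h := by linarith
    have v0 : 0 ≤ (1 / 2 - h) := by linarith
    have e :
        353 / 85 + 1020313 / 42500 * h - 1000759 / 21250 * h ^ 2 - 7163 / 102 * h ^ 3 - 1448 /
        255 * h ^ 4 + 39736 / 255 * h ^ 5 + 2800 / 17 * h ^ 6 - 9456 / 85 * h ^ 7 - 54949 /
        510 * h ^ 8 - 11 / 5 * h ^ 9
        =
        180736 / 85 * ((1 / 2 - h) ^ 9) + 268628032 / 10625 * (h ^ 1 * (1 / 2 - h) ^ 8) +
        254332736 / 2125 * (h ^ 2 * (1 / 2 - h) ^ 7) + 9690106592 / 31875 * (h ^ 3 * (1 / 2 -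
        h) ^ 6) + 14609769088 / 31875 * (h ^ 4 * (1 / 2 - h) ^ 5) + 2685858848 / 6375 * (h ^ 5
        * (1 / 2 - h) ^ 4) + 7375256896 / 31875 * (h ^ 6 * (1 / 2 - h) ^ 3) + 90876256 / 1275
        * (h ^ 7 * (1 / 2 - h) ^ 2) + 352296047 / 31875 * (h ^ 8 * (1 / 2 - h) ^ 1) + 7609206
        / 10625 * (h ^ 9) := by ring
    rw [e]
    positivity
  · rcases le_total h (3 / 4) with c2 | c2
    · have u0 : 0 ≤ (h - 1 / 2) := by linarith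
      have v0 : 0 ≤ (3 / 4 - h) := by linarith
      have e :
          353 / 85 + 1020313 / 42500 * h - 1000759 / 21250 * h ^ 2 - 7163 / 102 * h ^ 3 - 1448
          / 255 * h ^ 4 + 39736 / 255 * h ^ 5 + 2800 / 17 * h ^ 6 - 9456 / 85 * h ^ 7 - 54949
          / 510 * h ^ 8 - 11 / 5 * h ^ 9
          =
          3895913472 / 10625 * ((3 / 4 - h) ^ 9) + 67596707584 / 31875 * ((h - 1 / 2) ^ 1 * (3
          / 4 - h) ^ 8) + 155257536512 / 31875 * ((h - 1 / 2) ^ 2 * (3 / 4 - h) ^ 7) +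
          213069522176 / 31875 * ((h - 1 / 2) ^ 3 * (3 / 4 - h) ^ 6) + 331904830592 / 31875 *
          ((h - 1 / 2) ^ 4 * (3 / 4 - h) ^ 5) + 632622927776 / 31875 * ((h - 1 / 2) ^ 5 * (3 /
          4 - h) ^ 4) + 840421500544 / 31875 * ((h - 1 / 2) ^ 6 * (3 / 4 - h) ^ 3) +
          212234962544 / 10625 * ((h - 1 / 2) ^ 7 * (3 / 4 - h) ^ 2) + 83432068892 / 10625 *
          ((h - 1 / 2) ^ 8 * (3 / 4 - h) ^ 1) + 13191233149 / 10625 * ((h - 1 / 2) ^ 9) := by ring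
      rw [e]
      positivity
    · have u0 : 0 ≤ (h - 3 / 4) := by linarith
      have v0 : 0 ≤ (1 - h) := by linarith
      have e :
          353 / 85 + 1020313 / 42500 * h - 1000759 / 21250 * h ^ 2 - 7163 / 102 * h ^ 3 - 1448
          / 255 * h ^ 4 + 39736 / 255 * h ^ 5 + 2800 / 17 * h ^ 6 - 9456 / 85 * h ^ 7 - 54949
          / 510 * h ^ 8 - 11 / 5 * h ^ 9
          =
          13191233149 / 10625 * ((1 - h) ^ 9) + 30802025558 / 2125 * ((h - 3 / 4) ^ 1 * (1 -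
          h) ^ 8) + 776859433728 / 10625 * ((h - 3 / 4) ^ 2 * (1 - h) ^ 7) + 6633797806976 /
          31875 * ((h - 3 / 4) ^ 3 * (1 - h) ^ 6) + 2335730595328 / 6375 * ((h - 3 / 4) ^ 4 *
          (1 - h) ^ 5) + 4358602548224 / 10625 * ((h - 3 / 4) ^ 5 * (1 - h) ^ 4) +
          1833490167808 / 6375 * ((h - 3 / 4) ^ 6 * (1 - h) ^ 3) + 3756606930944 / 31875 * ((h
          - 3 / 4) ^ 7 * (1 - h) ^ 2) + 749629915136 / 31875 * ((h - 3 / 4) ^ 8 * (1 - h) ^ 1)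
          + 7528579072 / 6375 * ((h - 3 / 4) ^ 9) := by ring
      rw [e]
      positivity

lemma polE1 {h : ℝ} (h0 : 0 ≤ h) (h1 : h ≤ 1) : 0 ≤
      23 / 17 + 23493 / 8500 * h - 2001 / 170 * h ^ 2 - 21047 / 1020 * h ^ 3 + 94339 / 2040 *
      h ^ 4 + 11209 / 510 * h ^ 5 - 27027 / 680 * h ^ 6 + 99 / 170 * h ^ 8 + 11 / 340 * h ^ 9
      - 231 / 340 * h ^ 10 := by
  rcases le_total h (1 / 2) with c1 | c1
  · have u0 : 0 ≤ h := by linarith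
    have v0 : 0 ≤ (1 / 2 - h) := by linarith
    have e :
        23 / 17 + 23493 / 8500 * h - 2001 / 170 * h ^ 2 - 21047 / 1020 * h ^ 3 + 94339 / 2040
        * h ^ 4 + 11209 / 510 * h ^ 5 - 27027 / 680 * h ^ 6 + 99 / 170 * h ^ 8 + 11 / 340 * h
        ^ 9 - 231 / 340 * h ^ 10
        =
        23552 / 17 * ((1 / 2 - h) ^ 10) + 32447104 / 2125 * (h ^ 1 * (1 / 2 - h) ^ 9) +
        153140736 / 2125 * (h ^ 2 * (1 / 2 - h) ^ 8) + 1214092832 / 6375 * (h ^ 3 * (1 / 2 -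
        h) ^ 7) + 1975646008 / 6375 * (h ^ 4 * (1 / 2 - h) ^ 6) + 2050712512 / 6375 * (h ^ 5 *
        (1 / 2 - h) ^ 5) + 452932754 / 2125 * (h ^ 6 * (1 / 2 - h) ^ 4) + 10952008 / 125 * (h
        ^ 7 * (1 / 2 - h) ^ 3) + 134292382 / 6375 * (h ^ 8 * (1 / 2 - h) ^ 2) + 34821041 /
        12750 * (h ^ 9 * (1 / 2 - h) ^ 1) + 4457573 / 25500 * (h ^ 10) := by ring
    rw [e]
    positivity
  · have u0 : 0 ≤ (h - 1 / 2) := by linarith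
    have v0 : 0 ≤ (1 - h) := by linarith
    have e :
        23 / 17 + 23493 / 8500 * h - 2001 / 170 * h ^ 2 - 21047 / 1020 * h ^ 3 + 94339 / 2040
        * h ^ 4 + 11209 / 510 * h ^ 5 - 27027 / 680 * h ^ 6 + 99 / 170 * h ^ 8 + 11 / 340 * h
        ^ 9 - 231 / 340 * h ^ 10
        =
        4457573 / 25500 * ((1 - h) ^ 10) + 3251563 / 4250 * ((h - 1 / 2) ^ 1 * (1 - h) ^ 9) +
        21493798 / 6375 * ((h - 1 / 2) ^ 2 * (1 - h) ^ 8) + 152828272 / 6375 * ((h - 1 / 2) ^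
        3 * (1 - h) ^ 7) + 624302878 / 6375 * ((h - 1 / 2) ^ 4 * (1 - h) ^ 6) + 27182536 / 125
        * ((h - 1 / 2) ^ 5 * (1 - h) ^ 5) + 1787436832 / 6375 * ((h - 1 / 2) ^ 6 * (1 - h) ^
        4) + 450339616 / 2125 * ((h - 1 / 2) ^ 7 * (1 - h) ^ 3) + 559813472 / 6375 * ((h - 1 /
        2) ^ 8 * (1 - h) ^ 2) + 99945728 / 6375 * ((h - 1 / 2) ^ 9 * (1 - h) ^ 1) + 47872 /
        375 * ((h - 1 / 2) ^ 10) := by ring
    rw [e]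
    positivity

end Vale.Agent.P224.R2.H424.HS
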