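import Vale.Agent.P224.R2.H424.Abs4
import Vale.Agent.P224.R2.H424.Pol5

/-!
Third pass: polynomial bounds of first order in `1 / a`.
-/

namespace Vale.Agent.P224.R2.H424

open Set Vale.Agent.P224.R2.H355 Vale.Agent.P224.R2.H876

namespace HS

variable {a L : ℝ} (s : HSol a L) (hp : Par a L)
include hp

/-- comparison from above for the second order equation of `V` -/
lemma V_cmp_up {U U1 U2 : ℝ → ℝ} (cU : ContinuousOn U (Icc 0 1)) (cU1 : ContinuousOn U1 (Icc 0 1))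
    (dU : ∀ x ∈ Ioo (0 : ℝ) 1, HasDerivAt U (U1 x) x)
    (dU1 : ∀ x ∈ Ioo (0 : ℝ) 1, HasDerivAt U1 (U2 x) x) (U0 : 1 ≤ U 0)
    (hU1 : ∃ M, 0 ≤ M ∧ ∀ x ∈ Icc (0 : ℝ) 1, s.V1 x - U1 x ≤ M * x)
    (h : ∀ x ∈ Icc (0 : ℝ) 1, 3 / 2 * x * U x + L / 8 * Sf s x ≤
      2 * x * (1 - x ^ 2) * U2 x + (2 * a - 6 * x ^ 2) * U1 x) :
    ∀ x ∈ Icc (0 : ℝ) 1, s.V1 x ≤ U1 x ∧ s.V x ≤ U x := by
  have ha := hp.ha
  have key : ∀ x ∈ Icc (0 : ℝ) 1, s.V1 x - U1 x ≤ 0 * x := by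
    refine self_improve (A := 0) (t := 3 / 44) le_rfl (by norm_num) (by norm_num)
      (fun x hx => hx.1) hU1 ?_ 0 (by norm_num)
    intro M hM hb
    have hV : ∀ x ∈ Icc (0 : ℝ) 1, s.V x - U x ≤ M / 2 * x ^ 2 := by
      refine le_of_deriv (f' := fun x => s.V1 x - U1 x) (F' := fun x => M * x) (s.cV.c0.sub cU)
        (by fun_prop) (fun x hx => (ct s.cV hx).sub (dU x hx)) (fun x _ => ?_)
        (by rw [s.V0]; simp; exact U0) hb
      exact (((hasDerivAt_id x).pow 2).const_mul (M / 2)).congr_deriv (by simp; ring)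
    refine le_of_le (a := fun h => 2 * h * (1 - h ^ 2)) (c := fun h => 2 * a - 6 * h ^ 2)
      (g := fun x => s.V2 x - U2 x) (G := fun _ => 0 + 3 / 44 * M) zero_le_one
      (s.cV.c1.sub cU1) (fun x hx => (ct1 s.cV hx).sub (dU1 x hx)) (by fun_prop)
      (fun x _ => ((hasDerivAt_id x).const_mul (0 + 3 / 44 * M)).congr_deriv (by simp)) (by simp)
      (by simp) (fun h hh => by nlinarith [hh.1, hh.2]) ?_
    intro x hx
    have h0 := hx.1
    have h1 := hx.2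
    have hh2 : x ^ 2 ≤ 1 := by nlinarith
    have e1 := s.eV x hx
    have e2 := h x hx
    have e3 := mul_le_mul_of_nonneg_left (hV x hx) (show 0 ≤ 3 / 2 * x by positivity)
    unfold Sf at e2
    have e4 : 0 ≤ 2 * x * (1 - x ^ 2) * (0 + 3 / 44 * M) :=
      mul_nonneg (mul_nonneg (by positivity) (by linarith)) (by positivity)
    have e5 : (2 * a - 6) * ((0 + 3 / 44 * M) * x) ≤ (2 * a - 6 * x ^ 2) * ((0 + 3 / 44 * M) * x) :=
      mul_le_mul_of_nonneg_right (by nlinarith) (by positivity)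
    have e6 : 11 * ((0 + 3 / 44 * M) * x) ≤ (2 * a - 6) * ((0 + 3 / 44 * M) * x) :=
      mul_le_mul_of_nonneg_right (by linarith) (by positivity)
    have e7 : x * x ^ 2 ≤ x * 1 := mul_le_mul_of_nonneg_left hh2 h0
    have e8 := mul_le_mul_of_nonneg_left e7 hM
    nlinarith
  have k1 : ∀ x ∈ Icc (0 : ℝ) 1, s.V1 x ≤ U1 x := fun x hx => by
    have := key x hx
    linarith
  have k2 := le_of_deriv s.cV.c0 cU (fun x hx => ct s.cV hx) dU (by rw [s.V0]; exact U0) k1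
  exact fun x hx => ⟨k1 x hx, k2 x hx⟩

/-- comparison from below for the second order equation of `V` -/
lemma V_cmp_lo {U U1 U2 : ℝ → ℝ} (cU : ContinuousOn U (Icc 0 1)) (cU1 : ContinuousOn U1 (Icc 0 1))
    (dU : ∀ x ∈ Ioo (0 : ℝ) 1, HasDerivAt U (U1 x) x)
    (dU1 : ∀ x ∈ Ioo (0 : ℝ) 1, HasDerivAt U1 (U2 x) x) (U0 : U 0 ≤ 1)
    (hU1 : ∃ M, 0 ≤ M ∧ ∀ x ∈ Icc (0 : ℝ) 1, U1 x - s.V1 x ≤ M * x)
    (h : ∀ x ∈ Icc (0 : ℝ) 1, 2 * x * (1 - x ^ 2) * U2 x + (2 * a - 6 * x ^ 2) * U1 x ≤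
      3 / 2 * x * U x + L / 8 * Sf s x) :
    ∀ x ∈ Icc (0 : ℝ) 1, U1 x ≤ s.V1 x ∧ U x ≤ s.V x := by
  have ha := hp.ha
  have key : ∀ x ∈ Icc (0 : ℝ) 1, U1 x - s.V1 x ≤ 0 * x := by
    refine self_improve (A := 0) (t := 3 / 44) le_rfl (by norm_num) (by norm_num)
      (fun x hx => hx.1) hU1 ?_ 0 (by norm_num)
    intro M hM hb
    have hV : ∀ x ∈ Icc (0 : ℝ) 1, U x - s.V x ≤ M / 2 * x ^ 2 := by
      refine le_of_deriv (f' := fun x => U1 x - s.V1 x) (F' := fun x => M * x) (cU.sub s.cV.c0)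
        (by fun_prop) (fun x hx => (dU x hx).sub (ct s.cV hx)) (fun x _ => ?_)
        (by rw [s.V0]; simp; exact U0) hb
      exact (((hasDerivAt_id x).pow 2).const_mul (M / 2)).congr_deriv (by simp; ring)
    refine le_of_le (a := fun h => 2 * h * (1 - h ^ 2)) (c := fun h => 2 * a - 6 * h ^ 2)
      (g := fun x => U2 x - s.V2 x) (G := fun _ => 0 + 3 / 44 * M) zero_le_one
      (cU1.sub s.cV.c1) (fun x hx => (dU1 x hx).sub (ct1 s.cV hx)) (by fun_prop)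
      (fun x _ => ((hasDerivAt_id x).const_mul (0 + 3 / 44 * M)).congr_deriv (by simp)) (by simp)
      (by simp) (fun h hh => by nlinarith [hh.1, hh.2]) ?_
    intro x hx
    have h0 := hx.1
    have h1 := hx.2
    have hh2 : x ^ 2 ≤ 1 := by nlinarith
    have e1 := s.eV x hx
    have e2 := h x hx
    have e3 := mul_le_mul_of_nonneg_left (hV x hx) (show 0 ≤ 3 / 2 * x by positivity)
    unfold Sf at e2
    have e4 : 0 ≤ 2 * x * (1 - x ^ 2) * (0 + 3 / 44 * M) :=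
      mul_nonneg (mul_nonneg (by positivity) (by linarith)) (by positivity)
    have e5 : (2 * a - 6) * ((0 + 3 / 44 * M) * x) ≤ (2 * a - 6 * x ^ 2) * ((0 + 3 / 44 * M) * x) :=
      mul_le_mul_of_nonneg_right (by nlinarith) (by positivity)
    have e6 : 11 * ((0 + 3 / 44 * M) * x) ≤ (2 * a - 6) * ((0 + 3 / 44 * M) * x) :=
      mul_le_mul_of_nonneg_right (by linarith) (by positivity)
    have e7 : x * x ^ 2 ≤ x * 1 := mul_le_mul_of_nonneg_left hh2 h0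
    have e8 := mul_le_mul_of_nonneg_left e7 hM
    nlinarith
  have k1 : ∀ x ∈ Icc (0 : ℝ) 1, U1 x ≤ s.V1 x := fun x hx => by
    have := key x hx
    linarith
  have k2 := le_of_deriv cU s.cV.c0 dU (fun x hx => ct s.cV hx) (by rw [s.V0]; exact U0) k1
  exact fun x hx => ⟨k1 x hx, k2 x hx⟩

omit hp in
lemma exX (hp : Par a L) : ∃ x : ℝ, a * x = 1 ∧ 0 < x ∧ x ≤ 2 / 17 ∧ a * L ≤ 1.0035 * x ∧
    L ≤ 1.0035 * x ^ 2 := by
  have ha := hp.ha
  have ha0 := hp.a0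
  refine ⟨a⁻¹, mul_inv_cancel₀ ha0.ne', by positivity, ?_, ?_, ?_⟩
  · rw [inv_le_comm₀ ha0 (by norm_num)]
    linarith
  · have := hp.a2L
    rw [← div_eq_mul_inv, le_div_iff₀ ha0]
    linarith
  · have := hp.a2L
    rw [inv_pow, ← div_eq_mul_inv, le_div_iff₀ (pow_pos ha0 2)]
    linarith

/-- the upper profile of `V'`: `x h (3/4 + x pu)` -/
noncomputable def pu (h : ℝ) : ℝ := -3 / 5 + h / 5 + 16 / 5 * h ^ 2 + 11 / 5 * h ^ 6
/-- its integral `int t pu t` -/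
noncomputable def Iu (h : ℝ) : ℝ := -3 / 10 * h ^ 2 + h ^ 3 / 15 + 4 / 5 * h ^ 4 + 11 / 40 * h ^ 8

variable {x : ℝ} (hx : a * x = 1) (hx0 : 0 < x) (hx1 : x ≤ 2 / 17) (haL : a * L ≤ 1.0035 * x)
  (hLx : L ≤ 1.0035 * x ^ 2)
include hx hx0 hx1 haL

/-- first order upper bound of `V'` and `V` -/
lemma V_up : ∀ h ∈ Icc (0 : ℝ) 1, s.V1 h ≤ x * h * (3 / 4 + x * pu h) ∧
    s.V h ≤ 1 + x * (3 / 8 * h ^ 2 + x * Iu h) := by
  have ha := hp.ha
  refine V_cmp_up s hp (U := fun h => 1 + x * (3 / 8 * h ^ 2 + x * Iu h))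
    (U1 := fun h => x * h * (3 / 4 + x * pu h))
    (U2 := fun h => x * (3 / 4 + x * (-3 / 5 + 2 * h / 5 + 48 / 5 * h ^ 2 + 77 / 5 * h ^ 6)))
    (by unfold Iu; fun_prop) (by unfold pu; fun_prop) ?_ ?_ ?_ ?_ ?_
  · intro h _
    have i := hasDerivAt_id h
    have d1 := ((((i.pow 2).const_mul (-3 / 10)).add ((i.pow 3).div_const 15)).add
      ((i.pow 4).const_mul (4 / 5))).add ((i.pow 8).const_mul (11 / 40))
    have d2 := ((((i.pow 2).const_mul (3 / 8)).add (d1.const_mul x)).const_mul x).const_add 1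
    refine d2.congr_deriv ?_
    simp only [id, pu]
    push_cast
    ring
  · intro h _
    have i := hasDerivAt_id h
    have d1 := (((i.div_const 5).const_add (-3 / 5)).add ((i.pow 2).const_mul (16 / 5))).add
      ((i.pow 6).const_mul (11 / 5))
    have d2 := (i.const_mul x).mul ((d1.const_mul x).const_add (3 / 4))
    refine d2.congr_deriv ?_
    simp only [id, Pi.add_apply, Pi.pow_apply]
    push_cast
    ring
  · simp [Iu]
  · refine ⟨1, zero_le_one, fun h hh => ?_⟩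
    have h0 := hh.1
    have e1 := (abs_le.1 (V1_le s hp h hh)).2
    have e2 : 0 ≤ x * h * (3 / 4 + x * pu h) := by
      refine mul_nonneg (by positivity) ?_
      unfold pu
      have : x * (3 / 5) ≤ 3 / 4 := by linarith
      have h2 : 0 ≤ x * (h / 5 + 16 / 5 * h ^ 2 + 11 / 5 * h ^ 6) := by positivity
      linarith
    linarith
  · intro h hh
    have h0 := hh.1
    have h1 := hh.2
    have hL := hp.L0
    have e1 : L / 8 * Sf s h ≤ L / 8 * (70 * h ^ 2) :=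
      mul_le_mul_of_nonneg_left (S_le s hp h hh) (by positivity)
    have e2 : L ≤ 1.0035 * x ^ 2 := by nlinarith
    have e3 : L / 8 * (70 * h ^ 2) ≤ 1.0035 * x ^ 2 / 8 * (70 * h ^ 2) :=
      mul_le_mul_of_nonneg_right (by linarith) (by positivity)
    have p0 := polV0 h0 h1
    have p1 := polV1 h0 h1
    have c1 : 0 ≤ 1 - 17 / 2 * x := by linarith
    have key : 0 ≤ x * h * ((1 - 17 / 2 * x) * (3 / 10 + 2 / 5 * h - 13 / 80 * h ^ 2
        + 22 / 5 * h ^ 6) + 17 / 2 * x * (27 / 170 - 7329 / 13600 * h + 3691 / 1360 * h ^ 2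
        - 21 / 85 * h ^ 3 - 396 / 85 * h ^ 4 + 682 / 85 * h ^ 6 - 209 / 40 * h ^ 8)) := by
      refine mul_nonneg (by positivity) (add_nonneg (mul_nonneg c1 p0)
        (mul_nonneg (by positivity) p1))
    have e4 : 2 * h * (1 - h ^ 2) * (x * (3 / 4 + x * (-3 / 5 + 2 * h / 5 + 48 / 5 * h ^ 2
        + 77 / 5 * h ^ 6))) + (2 * a - 6 * h ^ 2) * (x * h * (3 / 4 + x * pu h))
        - 3 / 2 * h * (1 + x * (3 / 8 * h ^ 2 + x * Iu h))
        - 1.0035 * x ^ 2 / 8 * (70 * h ^ 2)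
        = x * h * ((1 - 17 / 2 * x) * (3 / 10 + 2 / 5 * h - 13 / 80 * h ^ 2
        + 22 / 5 * h ^ 6) + 17 / 2 * x * (27 / 170 - 7329 / 13600 * h + 3691 / 1360 * h ^ 2
        - 21 / 85 * h ^ 3 - 396 / 85 * h ^ 4 + 682 / 85 * h ^ 6 - 209 / 40 * h ^ 8)) := by
      unfold pu Iu
      linear_combination (2 * h * (3 / 4 + x * (-3 / 5 + h / 5 + 16 / 5 * h ^ 2
        + 11 / 5 * h ^ 6))) * hx
    nlinarith

end HS

end Vale.Agent.P224.R2.H424
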