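import Mathlib

/-!
Polynomial inequalities on [0, 1] (Bernstein form).
-/

namespace Vale.Agent.P224.R2.H424.HS

lemma polF1 {h : ℝ} (h0 : 0 ≤ h) (h1 : h ≤ 1) : 0 ≤
      11303 / 4250 + 22 / 17 * h - 1661 / 680 * h ^ 2 + 3509 / 2040 * h ^ 3 - 2079 / 680 * h ^
      4 - 11 / 340 * h ^ 8 := by
  have u0 : 0 ≤ h := by linarith
  have v0 : 0 ≤ (1 - h) := by linarith
  have e :
      11303 / 4250 + 22 / 17 * h - 1661 / 680 * h ^ 2 + 3509 / 2040 * h ^ 3 - 2079 / 680 * h ^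
      4 - 11 / 340 * h ^ 8
      =
      11303 / 4250 * ((1 - h) ^ 8) + 47962 / 2125 * (h ^ 1 * (1 - h) ^ 7) + 81083 / 1000 * (h
      ^ 2 * (1 - h) ^ 6) + 489523 / 3000 * (h ^ 3 * (1 - h) ^ 5) + 2043719 / 10200 * (h ^ 4 *
      (1 - h) ^ 4) + 3833833 / 25500 * (h ^ 5 * (1 - h) ^ 3) + 3256883 / 51000 * (h ^ 6 * (1 -
      h) ^ 2) + 614563 / 51000 * (h ^ 7 * (1 - h) ^ 1) + 7211 / 51000 * (h ^ 8) := by ring
  rw [e]
  positivity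

end Vale.Agent.P224.R2.H424.HS
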