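import Vale.Agent.P224.R2.H424.Abs6
import Vale.Agent.P224.R2.H424.Pol7
import Vale.Agent.P224.R2.H355.Cls

/-!
The stage I input of the closeness theorems.
-/

namespace Vale.Agent.P224.R2.H424

open Set Vale.Agent.P224.R2.H355 Vale.Agent.P224.R2.H876

namespace HS

variable {a L : ℝ} (s : HSol a L) (hp : Par a L)
include hp

lemma E_le' : ∀ h ∈ Icc (0 : ℝ) 1, s.E h ≤ 1.216 * h := by
  obtain ⟨x, hx, hx0, hx1, haL, -⟩ := exX hp
  intro h hh
  have h0 := hh.1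
  have h1 := hh.2
  refine (E_up s hp hx hx0 hx1 haL h hh).trans ?_
  have p := polF1 h0 h1
  have c1 : 0 ≤ 1 - 17 / 2 * x := by linarith
  have p0 : 0 ≤ 1.836 - (-1 - 2 * h + 35 / 8 * h ^ 2) := by nlinarith
  have key := mul_nonneg h0 (mul_nonneg hx0.le (add_nonneg (mul_nonneg c1 p0)
    (mul_nonneg (show 0 ≤ 17 / 2 * x by linarith) p)))
  have e : h * (x * ((1 - 17 / 2 * x) * (1.836 - (-1 - 2 * h + 35 / 8 * h ^ 2))
      + 17 / 2 * x * (11303 / 4250 + 22 / 17 * h - 1661 / 680 * h ^ 2 + 3509 / 2040 * h ^ 3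
      - 2079 / 680 * h ^ 4 - 11 / 340 * h ^ 8)))
      = h * (1.836 * x) - h * (x * (-1 - 2 * h + 35 / 8 * h ^ 2)
    + x ^ 2 * (3 / 2 + 6 * h - 657 / 40 * h ^ 2 - 3509 / 240 * h ^ 3 + 2079 / 80 * h ^ 4
    + 11 / 40 * h ^ 8)) := by ring
  rw [e] at key
  have e2 : h * (1.836 * x) ≤ h * 0.216 := mul_le_mul_of_nonneg_left (by linarith) h0
  linarith

lemma F_le' : ∀ h ∈ Icc (0 : ℝ) 1, s.F h ≤ 7.4 * h ^ 2 := by
  intro h hh
  have h0 := hh.1
  have e := (abs_le.1 (F_sub' s hp h hh)).2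
  have e1 := mul_le_mul_of_nonneg_left (E_le' s hp h hh) (show 0 ≤ 6 * h by linarith)
  have e3 := mul_le_mul_of_nonneg_right hp.L1 (sq_nonneg h)
  nlinarith

lemma E_nonneg : ∀ h ∈ Icc (0 : ℝ) 1, 0 ≤ s.E h := fun h hh =>
  (mul_nonneg (by norm_num) hh.1).trans (E_ge s hp h hh)

/-- the input of the closeness theorems of helper355 -/
theorem stg : Stg 140 7.4 s := by
  obtain ⟨x, hx, hx0, hx1, haL, -⟩ := exX hp
  have hxe : 140 / a = 140 * x := by
    rw [div_eq_iff hp.a0.ne']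
    linear_combination -140 * hx
  refine ⟨?_, ?_, F_le' s hp, ?_⟩
  · exact fun h hh => (by positivity : (0 : ℝ) ≤ 3.74 * h ^ 2).trans (F_ge s hp h hh)
  · exact fun h hh => (mul_nonneg (by norm_num) hh.1 : (0 : ℝ) ≤ 5.49 * h).trans
      (F1_ge s hp h hh)
  · intro h hh
    rw [hxe]
    exact S_up s hp hx hx0 hx1 haL h hh

end HS

end Vale.Agent.P224.R2.H424
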