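import Vale.Agent.P224.R2.H424.Abs7

/-!
Convexity type inequalities for the function `P` of the odd flow.
-/

namespace Vale.Agent.P224.R2.H424

open Set Vale.Agent.P224.R2.H355 Vale.Agent.P224.R2.H876

namespace HS

variable {a L : ℝ} (s : HSol a L) (hp : Par a L)
include hp

omit hp in
lemma w1_eq {h : ℝ} (hh : h ∈ Icc (0 : ℝ) 1) :
    h * w1 L h - w L h = -(L / 2 * (h ^ 2 / (1 + h) ^ 2)) := by
  have h4 := (one_pos' hh).ne'
  unfold w w1
  field_simp
  ring

/-- `P' / h` is nondecreasing -/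
theorem P1_le_P2 : ∀ h ∈ Icc (0 : ℝ) 1, s.P1 h ≤ h * s.P2 h := by
  have ha := hp.ha
  have := le_of_le (a := fun h => w L h * (1 - h ^ 2))
    (c := fun h => a - 3 * h * w L h - L / 2 * (h * (1 - h) / (1 + h)))
    (f := fun _ => 0) (g := fun _ => 0) (F := fun h => h * s.P2 h - s.P1 h)
    (G := fun h => h * s.P3 h) zero_le_one continuousOn_const
    (fun x _ => hasDerivAt_const _ _) ((continuousOn_id.mul s.cP'.c1).sub s.cP.c1)
    (fun h hh => (((hasDerivAt_id h).mul (ct1 s.cP' hh)).sub (ct1 s.cP hh)).congr_deriv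
      (by simp only [id]; ring))
    (by simp [w]) ?_ ?_ ?_
  · intro h hh
    have := this h hh
    linarith
  · simp
  · intro h hh
    have h0 := hh.1
    have h1 := hh.2
    have w0 := w_nonneg hp hh
    have w2 := w_le hp hh
    have hL1 := hp.L1
    have hL0 := hp.L0
    have e1 : h * (1 - h) / (1 + h) ≤ 1 := by
      rw [div_le_one (one_pos' hh)]
      nlinarith
    have e0 : 0 ≤ h * (1 - h) / (1 + h) :=
      div_nonneg (mul_nonneg h0 (by linarith)) (one_pos' hh).le
    have e2 : L / 2 * (h * (1 - h) / (1 + h)) ≤ 1 / 144 * 1 :=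
      mul_le_mul (by linarith) e1 e0 (by norm_num)
    have e3 : h * w L h ≤ 1 := by nlinarith
    nlinarith
  · intro h hh
    have e := hP2 s hp h hh
    have e' := hP1 s hp hh
    have h0 := hh.1
    have h1 := hh.2
    have q1 := P1_nonneg s hp h hh
    have q0 := P_nonneg s hp h hh
    have d1 := D1_ge s hp h hh
    have w0 := w_nonneg hp hh
    have w3 := w1_nonneg hp hh
    have hL0 := hp.L0
    have hw := w1_eq (L := L) hh
    have h4 := (one_pos' hh).ne'
    have ht : 0 ≤ h * (1 - h) / (1 + h) :=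
      div_nonneg (mul_nonneg h0 (by linarith)) (one_pos' hh).le
    have hs : 0 ≤ h ^ 2 / (1 + h) ^ 2 := by positivity
    have hst : h ^ 2 / (1 + h) ^ 2 * (1 - h ^ 2) = h * (h * (1 - h) / (1 + h)) := by
      field_simp
      ring
    simp only [mul_zero, add_zero]
    have key : w L h * (1 - h ^ 2) * (h * s.P3 h)
        + (a - 3 * h * w L h - L / 2 * (h * (1 - h) / (1 + h))) * (h * s.P2 h - s.P1 h)
        = a * h ^ 2 * D1 s h + (11 / 4 * (h * w L h) + h ^ 2 * w1 L h
          + L / 2 * (h * (1 - h) / (1 + h))) * s.P1 h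
          + L / 8 * (h ^ 2 / (1 + h) ^ 2) * s.P h := by
      linear_combination h * e - e' + (s.P h / (-4) - (1 - h ^ 2) * s.P2 h) * hw
        + L / 2 * s.P2 h * hst
    rw [key]
    have c0 : 0 ≤ a := hp.a0.le
    have c1 : 0 ≤ D1 s h := by linarith
    positivity

/-- `P ≤ h P' / 2` -/
theorem P_le_P1 : ∀ h ∈ Icc (0 : ℝ) 1, 2 * s.P h ≤ h * s.P1 h := by
  refine le_of_deriv (f := fun h => 2 * s.P h) (F := fun h => h * s.P1 h)
    (f' := fun h => 2 * s.P1 h) (F' := fun h => s.P1 h + h * s.P2 h)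
    (continuousOn_const.mul s.cP.c0) (continuousOn_id.mul s.cP.c1)
    (fun x hx => (ct s.cP hx).const_mul 2)
    (fun x hx => ((hasDerivAt_id x).mul (ct1 s.cP hx)).congr_deriv (by simp only [id]; ring))
    (by simp [s.P0]) ?_
  intro x hx
  have := P1_le_P2 s hp x hx
  linarith

end HS

end Vale.Agent.P224.R2.H424
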