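import Vale.Agent.P224.R2.H424.Abs8
import Vale.Agent.P224.R2.H494.ZCl2

/-!
The order of the odd functions of the flow.
-/

namespace Vale.Agent.P224.R2.H424

open Set Vale.Agent.P224.R2.H355 Vale.Agent.P224.R2.H494.ZT Vale.Agent.P224.R2.H627

variable {a L : ℝ}

lemma hv_mem {T : ℝ} (hT : T ∈ Ioo (0 : ℝ) 1) : hv T ∈ Icc (0 : ℝ) 1 := by
  have hw := w_pos hT
  have h6 : (0 : ℝ) < 1 + T ^ 2 := by positivity
  refine ⟨div_nonneg hw.le h6.le, ?_⟩
  rw [hv, div_le_one h6]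
  nlinarith [sq_nonneg T]

/-- the opposite of ε dominates the opposite of ρ -/
theorem eps_le_rho (ha : 0 < a) (s : ZSol a L) (hp : Par a L) {T : ℝ} (hT : T ∈ Ioo (0 : ℝ) 1) :
    (uZ s).ε T ≤ (uZ s).ρ T := by
  have hh := hv_mem hT
  have hw := w_pos hT
  have h2 := s_pos T
  have h3 := s_sq T
  have h4 : √(2 : ℝ) * √2 = 2 := Real.mul_self_sqrt (by norm_num)
  have h5 : (0 : ℝ) < √2 := by positivity
  have hwa : (1 - T ^ 2) ^ a = (1 - T ^ 2) ^ (a - 1) * (1 - T ^ 2) := by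
    rw [← Real.rpow_add_one hw.ne']
    congr 1
    ring
  have hK : 0 < (1 - T ^ 2) ^ (a - 1) := by positivity
  have h6 : (1 : ℝ) + T ^ 2 ≠ 0 := by positivity
  have p1 := HS.P_le_P1 (hsol ha s) hp _ hh
  have p0 := HS.P1_nonneg (hsol ha s) hp _ hh
  have hhw : 1 - T ^ 2 = hv T * (1 + T ^ 2) := by
    have : hv T = (1 - T ^ 2) / (1 + T ^ 2) := rfl
    rw [this, div_mul_cancel₀ _ h6]
  rw [rho_eq ha s T, eps_eq ha s T, hwa]
  generalize (1 - T ^ 2) ^ (a - 1) = K at hK ⊢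
  rw [hhw]
  generalize hv T = h at p1 p0 hh ⊢
  generalize (hsol ha s).P h = P at p1 p0 ⊢
  generalize (hsol ha s).P1 h = P1 at p1 p0 ⊢
  generalize √(1 + T ^ 2) = q at h2 h3 ⊢
  generalize √(2 : ℝ) = r at h4 h5 ⊢
  rw [← h3]
  have e1 : K * (h * (q * q)) * r / q = K * q * r / 2 * (2 * h) := by
    field_simp
  have e2 : K * q / r = K * q * r / 2 := by
    rw [← h4]
    field_simp
  rw [e1, e2]
  have hc : 0 ≤ (2 * a + 1) / (4 * a) * (K * q * r / 2) := by positivity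
  have h0 := hh.1
  have h1 := hh.2
  have e3 : P ≤ 2 * h * (P / 2 + (1 - h) * P1) := by
    have : 0 ≤ (1 - h) * (2 * h * P1 - P) := mul_nonneg (by linarith) (by nlinarith)
    nlinarith
  have := mul_le_mul_of_nonneg_left e3 hc
  linarith

end Vale.Agent.P224.R2.H424
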