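import Vale.Agent.P224.R2.H460.Cl1
import Vale.Agent.P224.R2.H662.CaseA

/-!
The constant of the box `hh ≤ 1000 / m³`, `√fro ≤ 6 / m`, `m ≥ 400`, with the weight of the odd
dimensions.
-/

namespace Vale.Agent.P224.R2.H424.BoxO

open MeasureTheory Set Filter Function Real Module Vale.Agent.P224 Vale.Agent.P224.FV
open Vale.Agent.P224.SM2 Vale.Agent.P224.R2.H820 Vale.Agent.P224.R2.H728
open Vale.Agent.P224.R2.H627 Vale.Agent.P224.R2.H582 Vale.Agent.P224.R2.H470
open Vale.Agent.P224.R2.H460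
open Vale.Agent.P224.R2.H662 (Dt ad qd dop dop_symm bxData_of hh_norm cob rare_pt ad_norm)
open scoped Topology RealInnerProductSpace ContDiff Manifold

set_option linter.unusedSectionVars false

/-- the rational parameters -/
def DO : Dt where
  ν := 7 / 400
  hb := 1 / 64000
  ep := 1 / 4000
  s := 1 / 10
  Q := 57 / 8
  A := 1347 / 100
  yy := 63 / 2500
  rn := 331 / 2500
  re := 159 / 10000
  q6 := 2997 / 10000

/-- the box -/
def BO : Bx where
  κ := 893 / 50000
  A0 := 1347 / 100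
  c := 57 / 8
  ε := 0
  η := 0
  κ1 := 1337 / 10000
  c1 := 553 / 200
  m1 := 517 / 10000
  m0 := 400
  x0 := 1563 / 100000000
  x1 := 63 / 2500
  x2 := 153943 / 10000
  x3 := 72469 / 1000
  f1 := 119 / 2500
  f2 := 81429 / 10000
  f3 := 38333 / 1000
  y0 := 0
  y1 := 63 / 2500
  y2 := 153943 / 10000
  y3 := 72469 / 1000
  g1 := 11499 / 5000
  g2 := 103 / 5
  g3 := 0
  a := 967 / 1000
  b := 131 / 10
  dT := 1 / 1000
  Ts := 17 / 250

/-- the cells, scaled -/
def LZ : List (ℕ × ℕ × ℕ) :=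
  [(51041, 5, 990), (50694, 13, 990), (50344, 22, 989), (49993, 34, 989), (49639, 49, 988),
   (49282, 66, 988), (48922, 85, 987), (48560, 107, 987), (48196, 131, 986),
   (47828, 158, 985), (47458, 187, 984), (47084, 219, 983), (46708, 254, 982),
   (46329, 291, 981), (45946, 331, 980), (45561, 374, 979), (45172, 419, 978),
   (44779, 467, 977), (44384, 518, 976), (43984, 572, 974), (43581, 629, 973),
   (43174, 689, 971), (42764, 751, 970), (42349, 817, 968), (41930, 885, 966),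
   (41507, 957, 965), (41080, 1032, 963), (40648, 1109, 961), (40212, 1190, 959),
   (39770, 1274, 957), (39324, 1361, 955), (38873, 1452, 953), (38416, 1545, 950),
   (37954, 1642, 948), (37486, 1743, 946), (37013, 1846, 943), (36533, 1953, 941),
   (36047, 2064, 938), (35554, 2178, 935), (35054, 2295, 933), (34547, 2416, 930),
   (34032, 2540, 927), (33510, 2668, 924), (32979, 2799, 921), (32439, 2935, 918),
   (31891, 3073, 914), (31332, 3216, 911), (30764, 3362, 908), (30185, 3512, 904),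
   (29595, 3666, 900), (28992, 3824, 897), (28377, 3985, 893), (27748, 4150, 889),
   (27105, 4320, 885), (26446, 4493, 881), (25770, 4670, 877), (25076, 4851, 873),
   (24362, 5036, 868), (23627, 5226, 864), (22868, 5419, 860), (22082, 5617, 855),
   (21268, 5818, 850), (20422, 6024, 845), (19539, 6234, 841), (18614, 6449, 836),
   (17640, 6667, 830), (16610, 6891, 825), (15511, 7118, 820), (14328, 7350, 815)]

/-- the cells -/
def LO : List (ℚ × ℚ × ℚ) :=
  LZ.map fun t => (mkRat t.1 10000, mkRat t.2.1 100000, mkRat t.2.2 1000)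

theorem head_ok : BO.head = true := by decide +kernel

theorem cells_ok : BO.cells 0 LO = true := by decide +kernel

theorem fin_ok : BO.fin (469 / 1000) (201 / 200) (181 / 50) 5 (5783 / 5000) (37 / 2500) = true := by
  decide +kernel

theorem dt_ok : DO.ok BO = true := by decide +kernel

section

variable {V W M : Type*} [NormedAddCommGroup V] [InnerProductSpace ℝ V] [FiniteDimensional ℝ V]
  [NormedAddCommGroup W] [InnerProductSpace ℝ W] [FiniteDimensional ℝ W]
  [TopologicalSpace M] [ChartedSpace V M]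
  [MeasurableSpace V] [BorelSpace V] [MeasurableSpace M] [BorelSpace M]
  [MeasurableSpace W] [BorelSpace W] [IsManifold 𝓘(ℝ, V) ∞ M]
  [CompactSpace M] [T2Space M]

/-- **the constant of the small box** -/
theorem box_O5 [Nonempty M] (hm : 400 ≤ finrank ℝ V) (hW : finrank ℝ W = finrank ℝ V + 2)
    {F : M → W} (hF : SphImm V F) (hmin : ∀ x n, IsUnitNormal V F x n → meanCurv V F x n = 0)
    {N : M → W} (hNs : ContMDiff 𝓘(ℝ, V) 𝓘(ℝ, W) ∞ N) (hN : ∀ x, IsUnitNormal V F x (N x))
    {ι : Type*} [Fintype ι] [DecidableEq ι] (b : OrthonormalBasis ι ℝ W)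
    (j : ι → ℝ) {m : ℕ} (hmm : m = finrank ℝ V)
    (hL : LSq (nrm (volM V F)) (Matrix.diagonal j) (co b F) (co b N))
    (hh0 : 0 < hh (nrm (volM V F)) (Matrix.diagonal j) (co b F) (co b N))
    (hh1 : hh (nrm (volM V F)) (Matrix.diagonal j) (co b F) (co b N) ≤ 1000 / (m : ℝ) ^ 3)
    (hfr : √(fro (De (nrm (volM V F)) (co b F) (co b N))) ≤ 6 / m)
    (hu : √(uu (nrm (volM V F)) (co b N))
      ≤ 4 * hh (nrm (volM V F)) (Matrix.diagonal j) (co b F) (co b N)) :
    37 / 2500 * hh (nrm (volM V F)) (Matrix.diagonal j) (co b F) (co b N)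
      ≤ ∫ T in (0 : ℝ)..2 / 25, wq (469 / 1000) (201 / 200) (181 / 50) T
        * (cw m T * LL (nrm (volM V F)) m F (fun x => N x - dop b j (F x)) T) := by
  subst hmm
  set m := finrank ℝ V with hmdef
  have hfin : IsFiniteMeasure (volM V F) := isFiniteMeasure_volM hF
  have hm1 : 1 ≤ m := by omega
  have hvpos : 0 < volM V F univ := volM_pos_of_isOpen hW hF isOpen_univ univ_nonempty
  have hnz : NeZero (volM V F) := ⟨fun h => by rw [h] at hvpos; simp at hvpos⟩
  have hT0 : T0Data (nrm (volM V F)) m (co b F) (co b N) :=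
    t0Data_of_min hm1 hW hF hmin hNs hN b
  have hprob : IsProbabilityMeasure (nrm (volM V F)) := hT0.prob
  have hone : OneP (nrm (volM V F)) m F N := oneP_nrm hW hF hmin hNs hN
  have hsc : SecondCountableTopology M := ChartedSpace.secondCountable_of_sigmaCompact V M
  have hnt : Nontrivial W := Module.nontrivial_of_finrank_pos (R := ℝ) (by omega)
  have hmR : (400 : ℝ) ≤ m := by exact_mod_cast hm
  have hm0 : (0 : ℝ) < m := by linarith
  set H := hh (nrm (volM V F)) (Matrix.diagonal j) (co b F) (co b N) with hH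
  -- the size of the defect
  have hHb : H ≤ 1 / 64000 := by
    refine hh1.trans ?_
    rw [div_le_div_iff₀ (by positivity) (by norm_num)]
    have h3 : (400 : ℝ) ^ 3 ≤ (m : ℝ) ^ 3 := pow_le_pow_left₀ (by norm_num) hmR 3
    linarith
  set δ : ℝ := 6 / m with hδ
  have hδ0 : 0 ≤ δ := by positivity
  have hδm : δ * m = 6 := by
    rw [hδ]
    field_simp
  have hδ1 : δ ≤ 6 / 400 := by
    rw [hδ]
    exact div_le_div_of_nonneg_left (by norm_num) (by norm_num) hmR
  have hf : fro (De (nrm (volM V F)) (co b F) (co b N)) ≤ δ ^ 2 := by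
    have := Real.sqrt_le_left hδ0 |>.1 hfr
    exact this
  have hj : ∀ a, j a ^ 2 ≤ 7123 / 1000 := by
    intro a
    have h1 := hT0.w_le (by positivity) hL hδ0 (by linarith) hf a
    have h2 : ((m : ℝ) + 2) * (δ / (1 - δ)) ≤ 6123 / 1000 := by
      rw [← mul_div_assoc, div_le_iff₀ (by linarith)]
      nlinarith
    linarith
  have hP : ∀ a, m2 (nrm (volM V F)) (co b N) (co b N) a a ≤ ((DO.ν : ℚ) : ℝ) := by
    intro a
    have h1 := hT0.P_eq a
    have h2 := (abs_le.1 (hT0.abs_dd_le hδ0 hf a)).2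
    have h3 : ((DO.ν : ℚ) : ℝ) = 7 / 400 := by
      simp only [DO]
      push_cast
      rfl
    rw [h3]
    have h4 : ((m : ℝ) + 2) * m2 (nrm (volM V F)) (co b N) (co b N) a a
        ≤ 1 + (m + 1) * δ := by
      rw [h1]
      have := mul_le_mul_of_nonneg_left h2 (show (0 : ℝ) ≤ (m : ℝ) + 1 by linarith)
      linarith
    have h5 : 1 + ((m : ℝ) + 1) * δ ≤ (m + 2) * (7 / 400) := by nlinarith
    have h6 : (0 : ℝ) < (m : ℝ) + 2 := by linarith
    exact le_of_mul_le_mul_left (h4.trans h5) h6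
  have hs : √(7123 / 1000 : ℝ) ≤ 2669 / 1000 := by
    rw [Real.sqrt_le_left (by norm_num)]
    norm_num
  have hs0 : 0 ≤ √(7123 / 1000 : ℝ) := Real.sqrt_nonneg _
  have hA : (1 + √(7123 / 1000 : ℝ)) ^ 2 ≤ ((BO.A0 : ℚ) : ℝ) := by
    have h3 : ((BO.A0 : ℚ) : ℝ) = 1347 / 100 := by
      simp only [BO]
      push_cast
      rfl
    rw [h3]
    nlinarith
  have e2 : ∫ x, ad b j F N x ∂(nrm (volM V F)) = H := by
    have e3 : H = ∫ x, ‖N x - dop b j (F x)‖ ^ 2 ∂(nrm (volM V F)) := hh_norm b j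
    rw [e3]
    exact integral_congr_ae (Filter.Eventually.of_forall fun x => ad_norm b j x)
  obtain ⟨r1, r2, r3⟩ := rare_pt (ε := 0) hone b hj hA le_rfl
  rw [e2] at r1 r2 r3
  set z : M → W := fun x => N x - dop b j (F x) with hz
  have hzJ : ∀ x, z x = N x - dop b j (F x) := fun x => rfl
  have cz : Continuous z := hone.cn.sub ((dop b j).continuous.comp hone.cp)
  have hu0 : 0 ≤ uu (nrm (volM V F)) (co b N) := Finset.sum_nonneg fun i _ => sq_nonneg _
  have huu : uu (nrm (volM V F)) (co b N) ≤ (4 * H) ^ 2 := by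
    have := Real.sqrt_le_left (by linarith) |>.1 hu
    exact this
  have he' : ‖∫ x, N x ∂(nrm (volM V F))‖ ^ 2 ≤ DO.ep * H := by
    have e1 : ‖∫ x, N x ∂(nrm (volM V F))‖ ^ 2 = uu (nrm (volM V F)) (co b N) := by
      rw [← H662.norm_sq_sum b]
      refine Finset.sum_congr rfl fun a _ => ?_
      rw [← inner_int hone.cn]
      rfl
    rw [e1]
    have h3 : ((DO.ep : ℚ) : ℝ) = 1 / 4000 := by
      simp only [DO]
      push_cast
      rfl
    rw [h3]
    nlinarith
  have hhb : H ≤ ((DO.hb : ℚ) : ℝ) := by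
    have h3 : ((DO.hb : ℚ) : ℝ) = 1 / 64000 := by
      simp only [DO]
      push_cast
      rfl
    rw [h3]
    exact hHb
  have hm0' : ((BO.m0 : ℚ) : ℝ) ≤ m := by
    have h3 : ((BO.m0 : ℚ) : ℝ) = 400 := by
      simp only [BO]
      push_cast
      rfl
    rw [h3]
    exact hmR
  have c1 : ((BO.A0 : ℚ) : ℝ) + 0 ≤ ((DO.A : ℚ) : ℝ) := by
    simp only [BO, DO]
    push_cast
    norm_num
  have c2 : (7123 / 1000 : ℝ) + 0 ≤ ((DO.Q : ℚ) : ℝ) := by
    simp only [DO]
    push_cast
    norm_num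
  have c3 : ((BO.ε : ℚ) : ℝ) = 0 := by
    simp only [BO]
    push_cast
    rfl
  have hr : ∫ x, max (ad b j F N x - BO.A0) 0 ^ 2 ∂(nrm (volM V F)) ≤ (BO.ε * H) ^ 2
      ∧ ∫ x, ad b j F N x ^ 2 ∂(nrm (volM V F)) ≤ DO.A * H
      ∧ ∫ x, qd b j F x * ad b j F N x ∂(nrm (volM V F)) ≤ DO.Q * H := by
    refine ⟨?_, r2.trans (mul_le_mul_of_nonneg_right c1 hh0.le),
      r3.trans (mul_le_mul_of_nonneg_right c2 hh0.le)⟩
    rw [c3]
    exact r1
  have hD : BxData (nrm (volM V F)) m F N z BO (dop b j) :=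
    bxData_of hone hW b hT0 hL cz hzJ dt_ok hm0' hP hh0 hhb he' hr
  have o5R : (BO.Ts : ℝ) ≤ 2 / 25 := by
    have h3 : ((BO.Ts : ℚ) : ℝ) = 17 / 250 := by
      simp only [BO]
      push_cast
      rfl
    rw [h3]
    norm_num
  have hbox := box_c0 BO head_ok cells_ok fin_ok hD (Tm := 2 / 25) o5R (by norm_num) (by
    push_cast
    norm_num)
  have e1 : H = ∫ x, ‖z x‖ ^ 2 ∂(nrm (volM V F)) := hh_norm b j
  rw [← e1] at hbox
  push_cast at hbox
  exact hbox

end

end Vale.Agent.P224.R2.H424.BoxO
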