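import Vale.Agent.P224.R2.H424.Ser

/-!
The exact flow of the Clifford hypersurfaces, in the variable z = 1 - T^2: existence.
-/

namespace Vale.Agent.P224.R2.H424

open Filter Set
open scoped Topology

/-- a function which is twice differentiable on `[0, 1]` with its derivatives -/
structure C2 (f f1 f2 : ℝ → ℝ) : Prop where
  c0 : ContinuousOn f (Icc 0 1)
  c1 : ContinuousOn f1 (Icc 0 1)
  c2 : ContinuousOn f2 (Icc 0 1)
  d1 : ∀ z ∈ Ioo (-1 : ℝ) 1, HasDerivAt f (f1 z) z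
  d2 : ∀ z ∈ Ioo (-1 : ℝ) 1, HasDerivAt f1 (f2 z) z

/-- The normal form of the exact flow of `C_{k,l}`, with `a = m / 2`, `L = delta^2`
(`F` is the function `Phi` and `Q` the function `Pi`). -/
structure ZSol (a L : ℝ) where
  (yt yt1 yt2 y y1 y2 E E1 E2 G G1 G2 F F1 F2 P P1 P2 P3 Q Q1 Q2 : ℝ → ℝ)
  cyt : C2 yt yt1 yt2
  cy : C2 y y1 y2
  cE : C2 E E1 E2
  cG : C2 G G1 G2
  cF : C2 F F1 F2
  cP : C2 P P1 P2
  cP' : C2 P1 P2 P3
  cQ : C2 Q Q1 Q2
  yt0 : yt 0 = 1
  y0 : y 0 = 1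
  E0 : E 0 = 0
  G0 : G 0 = 0
  P0 : P 0 = 0
  P10 : P1 0 = 0
  e0 : ∀ z ∈ Icc (0 : ℝ) 1, y z = yt z - L / 2 * F z
  eF : ∀ z ∈ Icc (0 : ℝ) 1, F z = z * (-3 * E z + 4 * G z) + L / (a * (2 * a + 1)) * z ^ 2 * Q z
  eQ : ∀ z ∈ Icc (0 : ℝ) 1, Q z = 4 * (1 - z) * P2 z - 2 * P1 z
  eA : ∀ z ∈ Icc (0 : ℝ) 1, 4 * z * (1 - z) * yt2 z + (4 * a - 6 * z) * yt1 z
    = 2 * a * z * y1 z + a * y z
  eB : ∀ z ∈ Icc (0 : ℝ) 1, -2 * z * (1 - z) * E1 z
    = (2 * a - (a + 1) * z) * E z - z / 2 * (y z - 2 * (1 - z) * y1 z)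
  eC : ∀ z ∈ Icc (0 : ℝ) 1, -2 * z * (1 - z) * G1 z
    = (2 * a - (a + 1) * z) * G z - L / (4 * (2 * a + 1)) * z ^ 2 * Q z
  eD : ∀ z ∈ Icc (0 : ℝ) 1, z * (1 - L * z / 4) * Q z
    = -2 * a * (2 - z) * P1 z - a * P z - a * (2 * a + 1) * z * (E z - G z)

lemma Sm.c2 {c : ℕ → ℝ} (h : Sm c) : C2 (S c) (S (D c)) (S (D (D c))) where
  c0 := (continuousOn_S h.s0).mono (Icc_subset_Icc (by norm_num) le_rfl)
  c1 := (continuousOn_S h.s1).mono (Icc_subset_Icc (by norm_num) le_rfl)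
  c2 := (continuousOn_S h.s2).mono (Icc_subset_Icc (by norm_num) le_rfl)
  d1 := fun _ hz => hasDerivAt_S h.s0 h.s1 hz
  d2 := fun _ hz => hasDerivAt_S h.s1 h.s2 hz

lemma S_zero (c : ℕ → ℝ) : S c 0 = c 0 := by
  unfold S
  rw [tsum_eq_single 0]
  · simp
  · intro i hi
    simp [hi]

section

variable (a L : ℝ)

/-- coefficients of `yt` -/
noncomputable def kyt (i : ℕ) : ℝ := (st a L i).y
/-- coefficients of `-Phi` -/
noncomputable def kf (i : ℕ) : ℝ := (st a L i).f
/-- coefficients of `E + (L/4) f` -/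
noncomputable def kEt (i : ℕ) : ℝ := (st a L i).E
/-- coefficients of `G` -/
noncomputable def kG (i : ℕ) : ℝ := (st a L i).G
/-- coefficients of `-P` -/
noncomputable def kp : ℕ → ℝ := sh fun i => (st a L i).p
/-- coefficients of `z^2 Pi` -/
noncomputable def kq : ℕ → ℝ := sh fun i => (st a L i).q
/-- coefficients of `y` -/
noncomputable def ky (i : ℕ) : ℝ := kyt a L i + L / 2 * kf a L i
/-- coefficients of `E` -/
noncomputable def kE (i : ℕ) : ℝ := kEt a L i + -(L / 4) * kf a L i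
/-- coefficients of `Phi` -/
noncomputable def kF (i : ℕ) : ℝ := -1 * kf a L i
/-- coefficients of `P` -/
noncomputable def kP (i : ℕ) : ℝ := -1 * kp a L i
/-- coefficients of `Pi` -/
noncomputable def kQ (i : ℕ) : ℝ := (st a L (i + 1)).q

variable {a L}

lemma rec_y (i : ℕ) : kyt a L (i + 1)
    = (i + 1 / 2) * ((i + a / 2) * kyt a L i + a * L / 4 * kf a L i) / ((i + 1) * (i + a)) := rfl

lemma rec_f (i : ℕ) : kf a L (i + 1) = 3 * kEt a L i - 3 * L / 4 * kf a L i - 4 * kG a L i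
    - 2 * L / (2 * a * (2 * a + 1)) * kq a L (i + 1) := rfl

lemma rec_E (i : ℕ) : kEt a L (i + 1) = ((i + 1 + (a - 1) / 2) * kEt a L i
    + a / 4 * ((i + 1 / 2) / (i + a)) * (kyt a L i - L / 2 * kf a L i)
    + a * L / 8 * (2 * kf a L (i + 1) - kf a L i)) / (i + 1 + a) := rfl

lemma rec_G (i : ℕ) : kG a L (i + 1) = ((i + 1 + (a - 1) / 2) * kG a L i
    + L / (8 * (2 * a + 1)) * kq a L (i + 1)) / (i + 1 + a) := rfl

lemma rec_p (i : ℕ) : kp a L (i + 2) = ((i + 1 / 2) * (i + 1 + a / 2) * kp a L (i + 1)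
    + a * (2 * a + 1) / 4 * (kEt a L i - L / 4 * kf a L i - kG a L i)
    - L / 16 * kq a L (i + 1)) / ((i + 2) * (i + 1 + a)) := rfl

lemma rec_q (i : ℕ) : kq a L (i + 2) = 4 * (i + 1) / (i + 1 + a) * (a / 2 * (i + 1 / 2)
    * kp a L (i + 1)
    - a * (2 * a + 1) / 4 * (kEt a L i - L / 4 * kf a L i - kG a L i)
    + L / 16 * kq a L (i + 1)) := rfl

lemma kQ_eq (i : ℕ) : kQ a L i = kq a L (i + 2) := rfl

variable (h : Par a L)
include h

lemma sm_kyt : Sm (kyt a L) := Sm.of_le h (K := 1) fun i => by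
  rw [one_mul]; exact (bd h i).y

lemma sm_kf : Sm (kf a L) := Sm.of_le h (K := 3.65 * a) fun i => (bd h i).f

lemma sm_kEt : Sm (kEt a L) := Sm.of_le h (K := 0.47 * a) fun i => (bd h i).E

lemma sm_kG : Sm (kG a L) := Sm.of_le h (K := 0.083 * a) fun i => (bd h i).G

lemma sm_kQ : Sm (kQ a L) := by
  refine Sm.of_le h (K := 0.655 * (a ^ 3 * (2 * a + 1))) fun i => ?_
  have h1 := (bd h (i + 1)).q
  have h2 := MM_le h (i := i + 1)
  have h3 := MM_le h (i := i)
  have ha := h.a0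
  refine h1.trans ?_
  have : 0 ≤ 0.655 * (a ^ 3 * (2 * a + 1)) := by positivity
  exact mul_le_mul_of_nonneg_left (h2.trans h3) this

lemma sm_kq : Sm (kq a L) := by
  refine Sm.of_le h (K := 0.655 * (a ^ 3 * (2 * a + 1))) fun i => ?_
  have ha := h.a0
  rcases i with _ | i
  · have := MM_pos h.ha 0
    simp only [kq, sh_zero, abs_zero]
    positivity
  · exact (bd h i).q

lemma abs_p_le (i : ℕ) : |kp a L (i + 1)| ≤ 0.29 * (a ^ 2 * (2 * a + 1)) * MM a (i + 1) := by
  have h1 := (bd h i).p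
  have hi : (0 : ℝ) ≤ i := Nat.cast_nonneg i
  refine le_trans ?_ h1
  show |(st a L i).p| ≤ _
  nlinarith [abs_nonneg (st a L i).p]

lemma sm_kp : Sm (kp a L) := by
  refine Sm.of_le h (K := 0.29 * (a ^ 2 * (2 * a + 1))) fun i => ?_
  have ha := h.a0
  rcases i with _ | i
  · have := MM_pos h.ha 0
    simp only [kp, sh_zero, abs_zero]
    positivity
  · exact abs_p_le h i

lemma sm_Dkp : Sm (D (kp a L)) := by
  refine Sm.of_le h (K := 0.29 * (a ^ 2 * (2 * a + 1))) fun i => ?_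
  have ha := h.a0
  have h1 := (bd h i).p
  have hi : (0 : ℝ) ≤ i := Nat.cast_nonneg i
  have h3 := MM_le h (i := i)
  have : |D (kp a L) i| = (i + 1) * |(st a L i).p| := by
    unfold D
    rw [abs_mul, abs_of_nonneg (by positivity : (0:ℝ) ≤ (i:ℝ) + 1)]
    rfl
  rw [this]
  refine h1.trans ?_
  have : 0 ≤ 0.29 * (a ^ 2 * (2 * a + 1)) := by positivity
  exact mul_le_mul_of_nonneg_left h3 this

lemma sm_ky : Sm (ky a L) := (sm_kyt h).lin (sm_kf h) (L / 2)

lemma sm_kE : Sm (kE a L) := (sm_kEt h).lin (sm_kf h) (-(L / 4))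

omit h in
lemma Sm.smul {c : ℕ → ℝ} (hc : Sm c) (k : ℝ) : Sm fun i => k * c i := by
  have h0 : Sm fun _ : ℕ => (0 : ℝ) := by
    unfold Sm
    simpa using summable_zero
  simpa using h0.lin hc k

lemma sm_kF : Sm (kF a L) := (sm_kf h).smul (-1)

lemma sm_kP : Sm (kP a L) := (sm_kp h).smul (-1)

lemma sm_DkP : Sm (D (kP a L)) := by
  have := (sm_Dkp h).smul (-1)
  have e : (fun i => -1 * D (kp a L) i) = D (kP a L) := by
    funext i
    unfold D kP
    ring
  rwa [e] at this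

/-- the recursion of `E` -/
lemma rec_kE (i : ℕ) : (i + 1 + a) * kE a L (i + 1) = (i + 1 + (a - 1) / 2) * kE a L i
    + 1 / 2 * ((i + 1 / 2) * ky a L i - (i + 1) * ky a L (i + 1)) := by
  have ha := h.a0
  have hi : (0 : ℝ) ≤ i := Nat.cast_nonneg i
  unfold kE ky
  have h1 := rec_E (a := a) (L := L) i
  have h2 := rec_y (a := a) (L := L) i
  have n1 : (i : ℝ) + 1 + a ≠ 0 := by positivity
  have n2 : (i : ℝ) + a ≠ 0 := by positivity
  have n3 : (i : ℝ) + 1 ≠ 0 := by positivity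
  rw [h1, h2]
  field_simp
  ring

lemma rec_kQ (i : ℕ) : kQ a L i = 4 * (i + 1) * ((i + 2) * kP a L (i + 2)
    - (i + 1 / 2) * kP a L (i + 1)) := by
  have ha := h.a0
  have hi : (0 : ℝ) ≤ i := Nat.cast_nonneg i
  have n1 : (i : ℝ) + 1 + a ≠ 0 := by positivity
  have n3 : (i : ℝ) + 2 ≠ 0 := by positivity
  rw [kQ_eq, rec_q]
  unfold kP
  rw [rec_p]
  field_simp
  ring

lemma kp_one : kp a L 1 = 0 := rfl

lemma kq_one : kq a L 1 = 0 := rfl

lemma eA_aux {z : ℝ} (hz : |z| ≤ 1) : 4 * z * (1 - z) * S (D (D (kyt a L))) z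
    + (4 * a - 6 * z) * S (D (kyt a L)) z = 2 * a * z * S (D (ky a L)) z + a * S (ky a L) z := by
  have ha := h.a0
  have r0 := rp_S (sm_ky h).s0 hz
  have r1 := rp_S (sm_ky h).s1 hz
  have t1 := rp_S (sm_kyt h).s1 hz
  have t2 := rp_S (sm_kyt h).s2 hz
  have lhs := (((t2.mulz.smul 4).sub (t2.mulz.mulz.smul 4)).add (t1.smul (4 * a))).sub
    (t1.mulz.smul 6)
  have rhs := (r1.mulz.smul (2 * a)).add (r0.smul a)
  have := lhs.uniq rhs ?_
  · linear_combination this
  · intro i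
    have k1 := rec_y (a := a) (L := L) i
    have hi : (0 : ℝ) ≤ i := Nat.cast_nonneg i
    rcases i with _ | i
    · have n2 : (a : ℝ) ≠ 0 := ha.ne'
      simp only [sh_zero, D, ky] at k1 ⊢
      rw [k1]
      push_cast
      field_simp
      ring
    · have k0 := rec_y (a := a) (L := L) i
      have hi' : (0 : ℝ) ≤ i := Nat.cast_nonneg i
      have n1 : (i : ℝ) + 1 + a ≠ 0 := by positivity
      have n2 : (i : ℝ) + 1 + 1 ≠ 0 := by positivity
      rcases i with _ | i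
      · simp only [sh_zero, sh_succ, D, ky] at k1 ⊢
        push_cast at k1 ⊢
        norm_num at k1 n1 n2 ⊢
        rw [k1]
        field_simp
        ring
      · simp only [sh_succ, D, ky] at k1 ⊢
        push_cast at k1 n1 n2 ⊢
        rw [k1]
        field_simp
        ring

lemma eB_aux {z : ℝ} (hz : |z| ≤ 1) : -2 * z * (1 - z) * S (D (kE a L)) z
    = (2 * a - (a + 1) * z) * S (kE a L) z
      - z / 2 * (S (ky a L) z - 2 * (1 - z) * S (D (ky a L)) z) := by
  have ha := h.a0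
  have r0 := rp_S (sm_ky h).s0 hz
  have r1 := rp_S (sm_ky h).s1 hz
  have t0 := rp_S (sm_kE h).s0 hz
  have t1 := rp_S (sm_kE h).s1 hz
  have lhs := (t1.mulz.smul (-2)).sub (t1.mulz.mulz.smul (-2))
  have rhs := ((t0.smul (2 * a)).sub (t0.mulz.smul (a + 1))).sub
    (((r0.mulz.sub (r1.mulz.smul 2)).add (r1.mulz.mulz.smul 2)).smul (1 / 2))
  have := lhs.uniq rhs ?_
  · linear_combination this
  · intro i
    rcases i with _ | i
    · have : kE a L 0 = 0 := by simp [kE, kEt, kf, st]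
      simp only [sh_zero, this]
      ring
    · have k0 := rec_kE h i
      rcases i with _ | i
      · simp only [sh_zero, sh_succ, D] at k0 ⊢
        push_cast at k0 ⊢
        linear_combination (-2) * k0
      · simp only [sh_succ, D] at k0 ⊢
        push_cast at k0 ⊢
        linear_combination (-2) * k0

lemma eC_aux {z : ℝ} (hz : |z| ≤ 1) : -2 * z * (1 - z) * S (D (kG a L)) z
    = (2 * a - (a + 1) * z) * S (kG a L) z - L / (4 * (2 * a + 1)) * z ^ 2 * S (kQ a L) z := by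
  have ha := h.a0
  have r0 := rp_S (sm_kQ h).s0 hz
  have t0 := rp_S (sm_kG h).s0 hz
  have t1 := rp_S (sm_kG h).s1 hz
  have lhs := (t1.mulz.smul (-2)).sub (t1.mulz.mulz.smul (-2))
  have rhs := ((t0.smul (2 * a)).sub (t0.mulz.smul (a + 1))).sub
    (r0.mulz.mulz.smul (L / (4 * (2 * a + 1))))
  have := lhs.uniq rhs ?_
  · linear_combination this
  · intro i
    rcases i with _ | i
    · have : kG a L 0 = 0 := by simp [kG, st]
      simp only [sh_zero, this]
      ring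
    · have k0 := rec_G (a := a) (L := L) i
      have hi' : (0 : ℝ) ≤ i := Nat.cast_nonneg i
      have n1 : (i : ℝ) + 1 + a ≠ 0 := by positivity
      have n2 : 2 * a + 1 ≠ 0 := by positivity
      rcases i with _ | i
      · rw [kq_one h] at k0
        simp only [sh_zero, sh_succ, D] at k0 ⊢
        push_cast at k0 n1 ⊢
        rw [k0]
        field_simp
        ring
      · simp only [sh_succ, D, kQ_eq] at k0 ⊢
        push_cast at k0 n1 ⊢
        rw [k0]
        field_simp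
        ring

lemma eF_aux {z : ℝ} (hz : |z| ≤ 1) : S (kF a L) z = z * (-3 * S (kE a L) z + 4 * S (kG a L) z)
    + L / (a * (2 * a + 1)) * z ^ 2 * S (kQ a L) z := by
  have ha := h.a0
  have r0 := rp_S (sm_kQ h).s0 hz
  have t0 := rp_S (sm_kG h).s0 hz
  have t1 := rp_S (sm_kE h).s0 hz
  have f0 := rp_S (sm_kF h).s0 hz
  have rhs := ((t1.mulz.smul (-3)).add (t0.mulz.smul 4)).add
    (r0.mulz.mulz.smul (L / (a * (2 * a + 1))))
  have := f0.uniq rhs ?_
  · linear_combination this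
  · intro i
    rcases i with _ | i
    · simp [kF, kf, st]
    · have k0 := rec_f (a := a) (L := L) i
      have n2 : 2 * a + 1 ≠ 0 := by positivity
      have n3 : a ≠ 0 := ha.ne'
      rcases i with _ | i
      · rw [kq_one h] at k0
        simp only [sh_zero, sh_succ, kF, kE, k0]
        ring
      · simp only [sh_succ, kQ_eq, kF, kE, k0]
        field_simp
        ring

lemma eQ_aux {z : ℝ} (hz : |z| ≤ 1) : S (kQ a L) z = 4 * (1 - z) * S (D (D (kP a L))) z
    - 2 * S (D (kP a L)) z := by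
  have ha := h.a0
  have r0 := rp_S (sm_kQ h).s0 hz
  have t1 := rp_S (sm_kP h).s1 hz
  have t2 := rp_S (sm_kP h).s2 hz
  have rhs := ((t2.smul 4).sub (t2.mulz.smul 4)).sub (t1.smul 2)
  have := r0.uniq rhs ?_
  · linear_combination this
  · intro i
    have k0 := rec_kQ h i
    rcases i with _ | i
    · simp only [sh_zero, D] at k0 ⊢
      push_cast at k0 ⊢
      rw [k0]
      ring
    · simp only [sh_succ, D] at k0 ⊢
      push_cast at k0 ⊢
      rw [k0]
      ring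

lemma eD_aux {z : ℝ} (hz : |z| ≤ 1) : z * (1 - L * z / 4) * S (kQ a L) z
    = -2 * a * (2 - z) * S (D (kP a L)) z - a * S (kP a L) z
      - a * (2 * a + 1) * z * (S (kE a L) z - S (kG a L) z) := by
  have ha := h.a0
  have q0 := rp_S (sm_kQ h).s0 hz
  have e0 := rp_S (sm_kE h).s0 hz
  have g0 := rp_S (sm_kG h).s0 hz
  have p0 := rp_S (sm_kP h).s0 hz
  have p1 := rp_S (sm_kP h).s1 hz
  have lhs := q0.mulz.sub (q0.mulz.mulz.smul (L / 4))
  have rhs := (((p1.smul (-4 * a)).add (p1.mulz.smul (2 * a))).sub (p0.smul a)).sub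
    ((e0.sub g0).mulz.smul (a * (2 * a + 1)))
  have := lhs.uniq rhs ?_
  · linear_combination this
  · intro i
    rcases i with _ | i
    · have : kp a L 1 = 0 := rfl
      have h2 : kp a L 0 = 0 := rfl
      simp only [sh_zero, D, kP, zero_add, this, h2]
      ring
    · have k0 := rec_p (a := a) (L := L) i
      have k1 := rec_q (a := a) (L := L) i
      have hi' : (0 : ℝ) ≤ i := Nat.cast_nonneg i
      have n1 : (i : ℝ) + 1 + a ≠ 0 := by positivity
      have n2 : (i : ℝ) + 2 ≠ 0 := by positivity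
      rcases i with _ | i
      · rw [kq_one h] at k0 k1
        simp only [sh_zero, sh_succ, D, kP, kE, kQ_eq] at k0 k1 ⊢
        push_cast at k0 k1 n1 n2 ⊢
        norm_num at k0 k1 n1 n2 ⊢
        rw [k1, k0]
        field_simp
        ring
      · simp only [sh_succ, D, kP, kE, kQ_eq] at k0 k1 ⊢
        push_cast at k0 k1 n1 n2 ⊢
        rw [k1]
        rw [show i + 1 + 1 + 1 = (i + 1) + 2 by ring, k0]
        field_simp
        ring

/-- existence of the flow -/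
noncomputable def zsol : ZSol a L where
  yt := S (kyt a L)
  yt1 := S (D (kyt a L))
  yt2 := S (D (D (kyt a L)))
  y := S (ky a L)
  y1 := S (D (ky a L))
  y2 := S (D (D (ky a L)))
  E := S (kE a L)
  E1 := S (D (kE a L))
  E2 := S (D (D (kE a L)))
  G := S (kG a L)
  G1 := S (D (kG a L))
  G2 := S (D (D (kG a L)))
  F := S (kF a L)
  F1 := S (D (kF a L))
  F2 := S (D (D (kF a L)))
  P := S (kP a L)
  P1 := S (D (kP a L))
  P2 := S (D (D (kP a L)))
  P3 := S (D (D (D (kP a L))))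
  Q := S (kQ a L)
  Q1 := S (D (kQ a L))
  Q2 := S (D (D (kQ a L)))
  cyt := (sm_kyt h).c2
  cy := (sm_ky h).c2
  cE := (sm_kE h).c2
  cG := (sm_kG h).c2
  cF := (sm_kF h).c2
  cP := (sm_kP h).c2
  cP' := (sm_DkP h).c2
  cQ := (sm_kQ h).c2
  yt0 := by rw [S_zero]; rfl
  y0 := by rw [S_zero]; simp [ky, kyt, kf, st]
  E0 := by rw [S_zero]; simp [kE, kEt, kf, st]
  G0 := by rw [S_zero]; rfl
  P0 := by rw [S_zero]; simp [kP, kp]
  P10 := by rw [S_zero]; simp [D, kP, kp, st]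
  e0 := fun z hz => by
    have hz' : |z| ≤ 1 := by rw [abs_of_nonneg hz.1]; exact hz.2
    have h1 := rp_S (sm_ky h).s0 hz'
    have h2 := (rp_S (sm_kyt h).s0 hz').sub ((rp_S (sm_kF h).s0 hz').smul (L / 2))
    refine h1.uniq h2 fun i => ?_
    unfold ky kF
    ring
  eF := fun z hz => eF_aux h (by rw [abs_of_nonneg hz.1]; exact hz.2)
  eQ := fun z hz => eQ_aux h (by rw [abs_of_nonneg hz.1]; exact hz.2)
  eA := fun z hz => eA_aux h (by rw [abs_of_nonneg hz.1]; exact hz.2)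
  eB := fun z hz => eB_aux h (by rw [abs_of_nonneg hz.1]; exact hz.2)
  eC := fun z hz => eC_aux h (by rw [abs_of_nonneg hz.1]; exact hz.2)
  eD := fun z hz => eD_aux h (by rw [abs_of_nonneg hz.1]; exact hz.2)

end

end Vale.Agent.P224.R2.H424
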