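import Vale.Agent.P224.R2.H424.Tls9

/-!
Tables of the relative tail.
-/

namespace Vale.Agent.P224.R2.H424.Tls

/-- the weights of the splitting -/
def thX1 : List ℕ := [
  10, 20, 30, 40, 50, 60, 70, 80, 90, 100, 110, 120, 129, 139, 149, 159, 169, 179, 188, 198,
    208, 217, 227, 237, 246, 256, 265, 275, 284, 293, 303, 312, 321, 330, 340, 349, 358, 367,
    376, 385, 393, 402, 411, 420, 428, 437, 445, 454, 462, 471, 479, 487, 495, 503, 511, 519,
    527, 535, 543, 550, 558, 566, 573, 581, 588, 595, 602, 610, 617, 624, 631, 637, 644, 651,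
    658, 664, 671, 677, 683, 690, 696, 702, 708, 714, 720, 726, 732, 737, 743, 748, 754, 759,
    765, 770, 775, 780, 785, 790, 795, 800, 805, 809, 814, 819, 823, 828, 832, 836, 840, 845,
    849, 853, 857, 860, 864, 868, 872, 875, 879, 882, 886, 889, 892, 896, 899, 902, 905, 908,
    911, 914, 917, 919, 922, 925, 927, 930, 932, 935, 937, 940, 942, 944, 946, 948, 950, 952,
    954, 956, 958, 960, 962, 963, 965, 967, 968, 970, 971, 973, 974, 976, 977, 978, 979, 981,
    982, 983, 984, 985, 986, 987, 988, 989, 990, 990, 991, 992, 993, 993, 994, 994, 995, 996,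
    996, 997, 997, 997, 998, 998, 998, 999, 999, 999, 999, 1000, 1000, 1000, 1000, 1000, 1000,
    1000]

/-- the rows: `m`, `j`, bounds of the moment constants, the relative tail -/
def tabX1 : List (ℕ × ℕ × ℚ × ℚ × ℚ × ℚ) := [
  (36, 14, 172323 / 200000000000, 466289 / 1000000000000, 25831 / 100000000000, 977 / 100000),
  (37, 14, 364831 / 500000000000, 390949 / 1000000000000, 214461 / 1000000000000, 31 / 2500),
  (38, 13, 11999 / 10000000000, 24813 / 40000000000, 82281 / 250000000000, 77 / 5000),
  (39, 13, 51699 / 50000000000, 132333 / 250000000000, 278159 / 1000000000000, 47 / 2500),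
  (40, 12, 45371 / 25000000000, 178799 / 200000000000, 45329 / 100000000000, 229 / 10000),
  (41, 12, 158939 / 100000000000, 387723 / 500000000000, 389489 / 1000000000000, 17 / 625),
  (42, 12, 139597 / 100000000000, 674683 / 1000000000000, 67151 / 200000000000, 323 / 10000),
  (43, 11, 10609 / 4000000000, 30737 / 25000000000, 29437 / 50000000000, 381 / 10000),
  (44, 11, 236391 / 100000000000, 27143 / 25000000000, 64399 / 125000000000, 443 / 10000),
  (45, 11, 211191 / 100000000000, 240299 / 250000000000, 452051 / 1000000000000, 32 / 625),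
  (46, 11, 189107 / 100000000000, 853033 / 1000000000000, 198839 / 500000000000, 591 / 10000)]

theorem okX1 : tabX1.all (rowY (91 / 5) 0 (91 / 5) (61 / 5) (0) thX1) = true := by
  decide +kernel

end Vale.Agent.P224.R2.H424.Tls
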