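import Vale.Agent.P224.R2.H176.G.RelD
import Vale.Agent.P224.R2.H925.LamX
import Vale.Agent.P224.R2.H424.TlsTX1
import Vale.Agent.P224.R2.H424.TlsTX8

/-!
The relative tail for the dimensions from 36 with the threshold `lamX (91/5) (61/5)`.
-/

namespace Vale.Agent.P224.R2.H424.Tls

open MeasureTheory Set Function Real Module Matrix Vale.Agent.P224 Vale.Agent.P224.FV
  Vale.Agent.P224.R2.H869 Vale.Agent.P224.R2.H582 Vale.Agent.P224.R2.H820
  Vale.Agent.P224.R2.H484 Vale.Agent.P224.R2.H728 Vale.Agent.P224.R2.H176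
  Vale.Agent.P224.R2.H925
open Vale.Agent.P224.SM2 hiding ker
open scoped Topology RealInnerProductSpace ContDiff Manifold

set_option linter.unusedSectionVars false

/-- the relative tail, no row -/
def relFX1 : ℕ → ℚ
  | 36 => 977 / 100000
  | 37 => 31 / 2500
  | 38 => 77 / 5000
  | 39 => 47 / 2500
  | 40 => 229 / 10000
  | 41 => 17 / 625
  | 42 => 323 / 10000
  | 43 => 381 / 10000
  | 44 => 443 / 10000
  | 45 => 32 / 625
  | 46 => 591 / 10000
  | _ => 0

lemma relFX1_spec : ∀ r ∈ tabX1, r.2.2.2.2.2 = relFX1 r.1 := by decide +kernel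

/-- the relative tail, with the row of the radial part -/
def relFX8 : ℕ → ℚ
  | 36 => 97 / 20000
  | 37 => 301 / 50000
  | 38 => 183 / 25000
  | 39 => 221 / 25000
  | 40 => 21 / 2000
  | 41 => 31 / 2500
  | 42 => 9 / 625
  | 43 => 83 / 5000
  | 44 => 19 / 1000
  | 45 => 217 / 10000
  | 46 => 61 / 2500
  | 47 => 137 / 5000
  | 48 => 307 / 10000
  | 49 => 343 / 10000
  | 50 => 189 / 5000
  | 51 => 83 / 2000
  | 52 => 91 / 2000
  | 53 => 499 / 10000
  | 54 => 109 / 2000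
  | _ => 0

lemma relFX8_spec : ∀ r ∈ tabX8, r.2.2.2.2.2 = relFX8 r.1 := by decide +kernel

lemma exX1 {m : ℕ} (h1 : 36 ≤ m) (h2 : m ≤ 46) : ∃ r ∈ tabX1, r.1 = m := by
  obtain ⟨i, rfl⟩ : ∃ i, m = 36 + i := ⟨m - 36, by omega⟩
  have h : ∀ i < 11, ∃ r ∈ tabX1, r.1 = 36 + i := by decide +kernel
  exact h i (by omega)

lemma exX8 {m : ℕ} (h1 : 36 ≤ m) (h2 : m ≤ 54) : ∃ r ∈ tabX8, r.1 = m := by
  obtain ⟨i, rfl⟩ : ∃ i, m = 36 + i := ⟨m - 36, by omega⟩
  have h : ∀ i < 19, ∃ r ∈ tabX8, r.1 = 36 + i := by decide +kernel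
  exact h i (by omega)

section

variable {V W M : Type*} [NormedAddCommGroup V] [InnerProductSpace ℝ V] [FiniteDimensional ℝ V]
  [NormedAddCommGroup W] [InnerProductSpace ℝ W] [FiniteDimensional ℝ W]
  [TopologicalSpace M] [ChartedSpace V M]
  [MeasurableSpace V] [BorelSpace V] [MeasurableSpace M] [BorelSpace M]
  [MeasurableSpace W] [BorelSpace W] [IsManifold 𝓘(ℝ, V) ∞ M]
  [CompactSpace M] [T2Space M]

lemma lX1 : ∀ T ∈ Ioo (0 : ℝ) 1, T ≤ ((0 : ℚ) : ℝ) →
    ((91 / 5 : ℚ) : ℝ) * (1 - T ^ 10) ≤ (1 - T ^ 2) * lamX (91 / 5) (61 / 5) T := by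
  intro T hT h
  rw [Rat.cast_zero] at h
  exact absurd hT.1 (not_lt.2 h)

lemma lX2 : ∀ T ∈ Ioo (0 : ℝ) 1, ((0 : ℚ) : ℝ) < T →
    ((91 / 5 : ℚ) : ℝ) ≤ (1 - T ^ 2) * lamX (91 / 5) (61 / 5) T ∧
    ((61 / 5 : ℚ) : ℝ) / (1 - T ^ 2) ≤ (1 - T ^ 2) * lamX (91 / 5) (61 / 5) T := by
  intro T hT _
  rw [lamX_mul hT]
  push_cast
  exact ⟨le_max_left _ _, le_max_right _ _⟩

/-- **the relative tail**, `36 ≤ m ≤ 46`, without rows -/
theorem rel36_min (hm : 36 ≤ finrank ℝ V) (hm' : finrank ℝ V ≤ 46)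
    (hW : finrank ℝ W = finrank ℝ V + 2) {F : M → W}
    (hF : SphImm V F) (hmin : ∀ x n, IsUnitNormal V F x n → meanCurv V F x n = 0)
    {N : M → W} (hNs : ContMDiff 𝓘(ℝ, V) 𝓘(ℝ, W) ∞ N) (hN : ∀ x, IsUnitNormal V F x (N x))
    {ι : Type*} [Fintype ι] [DecidableEq ι] (b : OrthonormalBasis ι ℝ W) (j : ι → ℝ)
    {m : ℕ} (hmm : m = finrank ℝ V) :
    AbsTail (volM V F) m F N (fun T => (1 - T ^ 2) * lamX (91 / 5) (61 / 5) T)
      (relFX1 m * hh (nrm (volM V F)) (diagonal j) (co b F) (co b N)) := by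
  have hfin : IsFiniteMeasure (volM V F) := isFiniteMeasure_volM hF
  have hnt : Nontrivial W := Module.nontrivial_of_finrank_pos (R := ℝ) (by omega)
  have hcF : Continuous F := hF.smooth.continuous
  have hcN : Continuous N := hNs.continuous
  have hcz : Continuous (zf b j F N) := by
    unfold zf
    fun_prop
  obtain ⟨C0, hC0'⟩ := (isCompact_univ (X := M)).exists_bound_of_continuousOn hcz.continuousOn
  have h2 := two_of_min hW hF hmin hNs hN
  have h1 := H176.minRow_of_min (by omega) hW hF hmin hNs hN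
  subst hmm
  obtain ⟨r, hr, hrm⟩ := exX1 hm hm'
  have hok := okX1
  rw [List.all_eq_true] at hok
  have h := rel_Y0 (hok r hr) (by norm_num) le_rfl (by norm_num) hrm.symm h2 h1 hcz.measurable
    (fun x => hC0' x (mem_univ x)) (zf_pair b j F N) lX1 lX2
  rw [relFX1_spec r hr, hrm, int_zf] at h
  exact h

/-- **the relative tail**, `36 ≤ m ≤ 54`, with the row of the radial part -/
theorem rel36_min8 (hm : 36 ≤ finrank ℝ V) (hm' : finrank ℝ V ≤ 54)
    (hW : finrank ℝ W = finrank ℝ V + 2) {F : M → W}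
    (hF : SphImm V F) (hmin : ∀ x n, IsUnitNormal V F x n → meanCurv V F x n = 0)
    {N : M → W} (hNs : ContMDiff 𝓘(ℝ, V) 𝓘(ℝ, W) ∞ N) (hN : ∀ x, IsUnitNormal V F x (N x))
    {ι : Type*} [Fintype ι] [DecidableEq ι] (b : OrthonormalBasis ι ℝ W) (j : ι → ℝ)
    {m : ℕ} (hmm : m = finrank ℝ V)
    (hrow : (m : ℝ) * ∫ x, ⟪zf b j F N x, F x⟫ ^ 2 ∂(volM V F)
      ≤ 8 * ∫ x, ‖zf b j F N x‖ ^ 2 ∂(volM V F)) :
    AbsTail (volM V F) m F N (fun T => (1 - T ^ 2) * lamX (91 / 5) (61 / 5) T)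
      (relFX8 m * hh (nrm (volM V F)) (diagonal j) (co b F) (co b N)) := by
  have hfin : IsFiniteMeasure (volM V F) := isFiniteMeasure_volM hF
  have hnt : Nontrivial W := Module.nontrivial_of_finrank_pos (R := ℝ) (by omega)
  have hcF : Continuous F := hF.smooth.continuous
  have hcN : Continuous N := hNs.continuous
  have hcz : Continuous (zf b j F N) := by
    unfold zf
    fun_prop
  obtain ⟨C0, hC0'⟩ := (isCompact_univ (X := M)).exists_bound_of_continuousOn hcz.continuousOn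
  have h2 := two_of_min hW hF hmin hNs hN
  have h1 := H176.minRow_of_min (by omega) hW hF hmin hNs hN
  subst hmm
  obtain ⟨r, hr, hrm⟩ := exX8 hm hm'
  have hok := okX8
  rw [List.all_eq_true] at hok
  have h := rel_Y (hok r hr) (by norm_num) le_rfl (by norm_num) (by norm_num) hrm.symm h2 h1
    hcz.measurable (fun x => hC0' x (mem_univ x)) (zf_pair b j F N) (by push_cast; exact hrow)
    lX1 lX2
  rw [relFX8_spec r hr, hrm, int_zf] at h
  exact h

end

end Vale.Agent.P224.R2.H424.Tls
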