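import Vale.Agent.P224.R2.H424.Tls9

/-!
Tables of the relative tail.
-/

namespace Vale.Agent.P224.R2.H424.Tls

/-- the weights of the splitting -/
def thXA : List ℕ := [
  4, 7, 11, 15, 18, 22, 26, 29, 33, 37, 40, 44, 48, 51, 55, 59, 63, 66, 70, 74, 78, 81, 85, 89,
    93, 96, 100, 104, 108, 112, 116, 119, 123, 127, 131, 135, 139, 143, 147, 151, 155, 159,
    163, 167, 171, 175, 179, 183, 188, 192, 196, 200, 204, 209, 213, 217, 222, 226, 230, 235,
    239, 244, 248, 253, 257, 262, 267, 271, 276, 281, 285, 290, 295, 300, 305, 310, 314, 319,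
    324, 330, 335, 340, 345, 350, 355, 361, 366, 371, 377, 382, 388, 393, 399, 404, 410, 416,
    421, 427, 433, 439, 445, 451, 457, 463, 469, 475, 481, 488, 494, 500, 507, 513, 520, 526,
    533, 539, 546, 553, 560, 566, 573, 580, 587, 594, 601, 608, 615, 622, 629, 636, 644, 651,
    658, 665, 673, 680, 687, 694, 702, 709, 717, 724, 731, 739, 746, 753, 761, 768, 775, 782,
    790, 797, 804, 811, 818, 825, 832, 839, 846, 852, 859, 865, 872, 878, 884, 890, 896, 902,
    908, 913, 919, 924, 929, 934, 939, 944, 948, 953, 957, 961, 965, 968, 972, 975, 978, 981,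
    984, 986, 988, 990, 992, 994, 995, 997, 998, 998, 999, 1000, 1000, 1000]

/-- the rows: `m`, `j`, bounds of the moment constants, the relative tail -/
def tabXA : List (ℕ × ℕ × ℚ × ℚ × ℚ × ℚ) := [
  (36, 14, 172323 / 200000000000, 466289 / 1000000000000, 25831 / 100000000000, 27 / 6250),
  (37, 13, 27947 / 20000000000, 364831 / 500000000000, 390949 / 1000000000000, 107 / 20000),
  (38, 13, 11999 / 10000000000, 24813 / 40000000000, 82281 / 250000000000, 13 / 2000),
  (39, 12, 207853 / 100000000000, 51699 / 50000000000, 132333 / 250000000000, 49 / 6250),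
  (40, 12, 45371 / 25000000000, 178799 / 200000000000, 45329 / 100000000000, 29 / 3125),
  (41, 12, 158939 / 100000000000, 387723 / 500000000000, 389489 / 1000000000000, 11 / 1000),
  (42, 11, 298313 / 100000000000, 139597 / 100000000000, 674683 / 1000000000000, 8 / 625),
  (43, 11, 10609 / 4000000000, 30737 / 25000000000, 29437 / 50000000000, 147 / 10000),
  (44, 11, 236391 / 100000000000, 27143 / 25000000000, 64399 / 125000000000, 169 / 10000),
  (45, 10, 120309 / 25000000000, 211191 / 100000000000, 240299 / 250000000000, 12 / 625)]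

theorem okXA : tabXA.all (rowY (91 / 5) 0 (91 / 5) (61 / 5) (141 / 25) thXA) = true := by
  decide +kernel

end Vale.Agent.P224.R2.H424.Tls
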