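import Vale.Agent.P224.R2.H424.Tls9

/-!
Tables of the relative tail.
-/

namespace Vale.Agent.P224.R2.H424.Tls

/-- the weights of the splitting -/
def thXB : List ℕ := [
  4, 8, 12, 16, 21, 25, 29, 33, 37, 41, 45, 50, 54, 58, 62, 66, 70, 75, 79, 83, 87, 91, 96,
    100, 104, 108, 113, 117, 121, 125, 130, 134, 138, 143, 147, 152, 156, 160, 165, 169, 174,
    178, 183, 187, 192, 196, 201, 205, 210, 215, 219, 224, 229, 233, 238, 243, 248, 252, 257,
    262, 267, 272, 277, 282, 287, 292, 297, 302, 307, 312, 317, 323, 328, 333, 338, 344, 349,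
    354, 360, 365, 371, 376, 382, 387, 393, 399, 404, 410, 416, 422, 427, 433, 439, 445, 451,
    457, 463, 469, 475, 482, 488, 494, 500, 506, 513, 519, 526, 532, 538, 545, 551, 558, 565,
    571, 578, 584, 591, 598, 605, 611, 618, 625, 632, 639, 646, 652, 659, 666, 673, 680, 687,
    694, 701, 708, 715, 722, 729, 735, 742, 749, 756, 763, 770, 776, 783, 790, 797, 803, 810,
    816, 823, 829, 835, 842, 848, 854, 860, 866, 872, 878, 883, 889, 894, 900, 905, 910, 915,
    920, 925, 930, 934, 939, 943, 947, 951, 955, 959, 962, 965, 969, 972, 975, 977, 980, 983,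
    985, 987, 989, 991, 992, 994, 995, 996, 997, 998, 999, 999, 1000, 1000, 1000]

/-- the rows: `m`, `j`, bounds of the moment constants, the relative tail -/
def tabXB : List (ℕ × ℕ × ℚ × ℚ × ℚ × ℚ) := [
  (36, 14, 172323 / 200000000000, 466289 / 1000000000000, 25831 / 100000000000, 473 / 100000),
  (37, 13, 27947 / 20000000000, 364831 / 500000000000, 390949 / 1000000000000, 587 / 100000),
  (38, 13, 11999 / 10000000000, 24813 / 40000000000, 82281 / 250000000000, 713 / 100000),
  (39, 12, 207853 / 100000000000, 51699 / 50000000000, 132333 / 250000000000, 861 / 100000),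
  (40, 12, 45371 / 25000000000, 178799 / 200000000000, 45329 / 100000000000, 51 / 5000),
  (41, 12, 158939 / 100000000000, 387723 / 500000000000, 389489 / 1000000000000, 121 / 10000),
  (42, 11, 298313 / 100000000000, 139597 / 100000000000, 674683 / 1000000000000, 7 / 500),
  (43, 11, 10609 / 4000000000, 30737 / 25000000000, 29437 / 50000000000, 81 / 5000),
  (44, 11, 236391 / 100000000000, 27143 / 25000000000, 64399 / 125000000000, 37 / 2000),
  (45, 10, 120309 / 25000000000, 211191 / 100000000000, 240299 / 250000000000, 53 / 2500),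
  (46, 10, 434849 / 100000000000, 189107 / 100000000000, 853033 / 1000000000000, 119 / 5000),
  (47, 10, 769 / 195312500, 84851 / 50000000000, 151763 / 200000000000, 267 / 10000),
  (48, 10, 89297 / 25000000000, 152609 / 100000000000, 169131 / 250000000000, 299 / 10000)]

theorem okXB : tabXB.all (rowY (91 / 5) 0 (91 / 5) (61 / 5) (747 / 100) thXB) = true := by
  decide +kernel

end Vale.Agent.P224.R2.H424.Tls
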