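import Vale.Agent.P224.R2.H424.RelU36
import Vale.Agent.P224.R2.H424.TlsTXA
import Vale.Agent.P224.R2.H424.TlsTXB
import Vale.Agent.P224.R2.H686.PhiG
import Vale.Agent.P224.R2.H686.Bridge
import Vale.Agent.P224.R2.H460.LawS

/-!
The relative tail for the dimensions 36 to 45, with the bound of the radial part.
-/

namespace Vale.Agent.P224.R2.H424.Tls

open MeasureTheory Set Filter Function Real Module Matrix Vale.Agent.P224
  Vale.Agent.P224.R2.H820 Vale.Agent.P224.R2.H582 Vale.Agent.P224.R2.H627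
  Vale.Agent.P224.R2.H728 Vale.Agent.P224.R2.H484 Vale.Agent.P224.R2.H925
open Vale.Agent.P224.SM2 hiding ker
open Vale.Agent.P224.R2.H176 (NearData NearOut zf zf_pair int_zf)
open Vale.Agent.P224.R2.H686 (Dat aa ph zz ff)
open Vale.Agent.P224.R2.H470 (OneP oneP_of_min)
open Vale.Agent.P224.R2.H662 (dop dop_apply cob)
open scoped Topology RealInnerProductSpace ContDiff Manifold

set_option linter.unusedSectionVars false

section

variable {V W M : Type*} [NormedAddCommGroup V] [InnerProductSpace ℝ V] [FiniteDimensional ℝ V]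
  [NormedAddCommGroup W] [InnerProductSpace ℝ W] [FiniteDimensional ℝ W]
  [TopologicalSpace M] [ChartedSpace V M]
  [MeasurableSpace V] [BorelSpace V] [MeasurableSpace M] [BorelSpace M]
  [MeasurableSpace W] [BorelSpace W] [IsManifold 𝓘(ℝ, V) ∞ M] [CompactSpace M] [T2Space M]

lemma zf_eq {ι : Type*} [Fintype ι] [DecidableEq ι] (b : OrthonormalBasis ι ℝ W) (j : ι → ℝ)
    (F N : M → W) (x : M) : zf b j F N x = zz (dop b j) F N x := by
  unfold zf zz
  rw [dop_apply]
  congr 1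
  exact Finset.sum_congr rfl fun a _ => by rw [real_inner_comm]

/-- the mean over the normalized measure -/
lemma int_nrm' {F : M → W} (f : M → ℝ) :
    ∫ x, f x ∂(nrm (volM V F)) = (∫ x, f x ∂(volM V F)) / (volM V F).real univ := by
  unfold nrm
  rw [integral_smul_measure, ENNReal.toReal_inv, smul_eq_mul, div_eq_inv_mul]
  rfl

/-- the relative tail from the bound of the radial part -/
theorem relU_row (hm : 36 ≤ finrank ℝ V) (hm' : finrank ℝ V ≤ 60)
    (hW : finrank ℝ W = finrank ℝ V + 2) {F : M → W}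
    (hF : SphImm V F) (hmin : ∀ x n, IsUnitNormal V F x n → meanCurv V F x n = 0)
    {ν : ℝ} {κ ε K c : ℚ} {th : List ℕ} {r : ℕ × ℕ × ℚ × ℚ × ℚ × ℚ}
    (hok : rowY (91 / 5) 0 (91 / 5) (61 / 5) c th r = true) (hr : finrank ℝ V = r.1)
    (hc : 0 < c) (hK : 0 ≤ K) (hκ : κ * (finrank ℝ V + 1) ≤ K * finrank ℝ V)
    (hε : r.2.2.2.2.2 ≤ ε) (hε0 : 14 / 10000 ≤ ε)
    (hP : ∀ (N : M → W) (J : W →L[ℝ] W) (Λ : ℝ) [IsProbabilityMeasure (nrm (volM V F))],
      Dat (nrm (volM V F)) (finrank ℝ V) F N J Λ → Λ ^ 2 ≤ K →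
      ∫ x, aa J F N x ∂(nrm (volM V F)) ≤ 1 / 50 →
      ∫ x, ph (finrank ℝ V) J F x ^ 2 ∂(nrm (volM V F))
        ≤ c * ∫ x, aa J F N x ∂(nrm (volM V F))) :
    H925.RelU (91 / 5) (61 / 5) V W M [(κ, ε)] ν (finrank ℝ V) F := by
  have hfin : IsFiniteMeasure (volM V F) := isFiniteMeasure_volM hF
  have hnt : Nontrivial W := Module.nontrivial_of_finrank_pos (R := ℝ) (by omega)
  intro N b j hd k hk hj
  rw [List.mem_singleton] at hk
  subst hk
  simp only at hj ⊢
  have hprob : IsProbabilityMeasure (nrm (volM V F)) := hd.t0.prob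
  have hNs := hd.smooth
  have hN := hd.unit
  have h0 := hd.t0.hh_nonneg (diagonal j)
  have hε' : ((r.2.2.2.2.2 : ℚ) : ℝ) ≤ ε := by exact_mod_cast hε
  have hε0' : (14 / 10000 : ℝ) ≤ ε := by
    have : ((14 / 10000 : ℚ) : ℝ) ≤ ε := by exact_mod_cast hε0
    norm_num at this ⊢
    exact this
  rcases le_or_gt (hh (nrm (volM V F)) (diagonal j) (co b F) (co b N)) (1 / 50) with hs | hs
  · -- small defect: the row
    have hcF : Continuous F := hF.smooth.continuous
    have hcN : Continuous N := hNs.continuous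
    have hcz : Continuous (zf b j F N) := by
      unfold zf
      fun_prop
    obtain ⟨C0, hC0'⟩ :=
      (isCompact_univ (X := M)).exists_bound_of_continuousOn hcz.continuousOn
    have h2 := two_of_min hW hF hmin hNs hN
    have h1 := H176.minRow_of_min (by omega) hW hF hmin hNs hN
    have hone : OneP (nrm (volM V F)) (finrank ℝ V) F N :=
      H460.oneP_smul (oneP_of_min hW hF hmin hNs hN) _
    have hKr : (0 : ℝ) ≤ K := by exact_mod_cast hK
    have d : Dat (nrm (volM V F)) (finrank ℝ V) F N (dop b j) (√K) := by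
      refine Dat.of_LSq hone (by omega) b hd.lsq (Real.sqrt_nonneg _) fun a => ?_
      rw [Real.sq_sqrt hKr]
      refine (hj a).trans ?_
      have : ((κ * (finrank ℝ V + 1) : ℚ) : ℝ) ≤ ((K * finrank ℝ V : ℚ) : ℝ) := by
        exact_mod_cast hκ
      push_cast at this
      exact this
    have ez : ∀ x, aa (dop b j) F N x = ‖zf b j F N x‖ ^ 2 := fun x => by
      rw [zf_eq]
      rfl
    have ep : ∀ x, ph (finrank ℝ V) (dop b j) F x ^ 2
        = finrank ℝ V * ⟪zf b j F N x, F x⟫ ^ 2 := fun x => by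
      rw [zf_eq]
      unfold ph
      rw [d.f_eq, mul_pow, Real.sq_sqrt (Nat.cast_nonneg _), sq_abs, neg_sq]
    have hA : 0 < (volM V F).real univ := by
      have hnz : volM V F ≠ 0 := by
        intro h
        have h3 : nrm (volM V F) univ = 1 := hprob.measure_univ
        unfold nrm at h3
        rw [h] at h3
        simp at h3
      have : volM V F univ ≠ 0 := fun h => hnz (Measure.measure_univ_eq_zero.1 h)
      exact ENNReal.toReal_pos this (measure_ne_top _ _)
    have hhe : ∫ x, aa (dop b j) F N x ∂(nrm (volM V F))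
        = hh (nrm (volM V F)) (diagonal j) (co b F) (co b N) := by
      rw [← int_zf b j, int_nrm']
      simp only [ez]
    have h3 := hP N (dop b j) (√K) d (by rw [Real.sq_sqrt hKr]) (by rw [hhe]; exact hs)
    rw [int_nrm', int_nrm', mul_div_assoc', div_le_div_iff_of_pos_right hA] at h3
    simp only [ez, ep] at h3
    rw [integral_const_mul] at h3
    have h := rel_Y hok (by norm_num) le_rfl (by norm_num) hc.ne' hr h2 h1
      hcz.measurable (fun x => hC0' x (mem_univ x)) (zf_pair b j F N) h3 lX1 lX2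
    rw [int_zf] at h
    have h4 := absTail_mono h (mul_le_mul_of_nonneg_right hε' h0)
    push_cast
    exact h4
  · have hx : (((1 / (60 : ℕ) : ℚ)) : ℝ) ≤ 1 / finrank ℝ V := by
      have e1 : (36 : ℝ) ≤ finrank ℝ V := by exact_mod_cast hm
      have e2 : (finrank ℝ V : ℝ) ≤ 60 := by exact_mod_cast hm'
      push_cast
      apply div_le_div_of_nonneg_left <;> linarith
    have h := abs_X hW hF hmin hNs hN rfl okA_36_60 (by norm_num) hm hx (by norm_num)
    push_cast at h ⊢
    refine absTail_mono h ?_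
    have : (14 / 10000 : ℝ) * (1 / 50)
        ≤ ε * hh (nrm (volM V F)) (diagonal j) (co b F) (co b N) :=
      mul_le_mul hε0' hs.le (by norm_num) ((by norm_num : (0 : ℝ) ≤ 14 / 10000).trans hε0')
    refine le_trans ?_ this
    norm_num

lemma exXA {m : ℕ} (h1 : 36 ≤ m) (h2 : m ≤ 45) :
    ∃ r ∈ tabXA, r.1 = m ∧ r.2.2.2.2.2 ≤ 1 / 50 := by
  obtain ⟨i, rfl⟩ : ∃ i, m = 36 + i := ⟨m - 36, by omega⟩
  have h : ∀ i < 10, ∃ r ∈ tabXA, r.1 = 36 + i ∧ r.2.2.2.2.2 ≤ 1 / 50 := by decide +kernel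
  exact h i (by omega)

lemma exXB {m : ℕ} (h1 : 36 ≤ m) (h2 : m ≤ 48) :
    ∃ r ∈ tabXB, r.1 = m ∧ r.2.2.2.2.2 ≤ 3 / 100 := by
  obtain ⟨i, rfl⟩ : ∃ i, m = 36 + i := ⟨m - 36, by omega⟩
  have h : ∀ i < 13, ∃ r ∈ tabXB, r.1 = 36 + i ∧ r.2.2.2.2.2 ≤ 3 / 100 := by decide +kernel
  exact h i (by omega)

/-- the pair `(1/20, 1/50)`, `36 ≤ m ≤ 45` -/
theorem relU_A (hm : 36 ≤ finrank ℝ V) (hm' : finrank ℝ V ≤ 45)
    (hW : finrank ℝ W = finrank ℝ V + 2) {F : M → W}
    (hF : SphImm V F) (hmin : ∀ x n, IsUnitNormal V F x n → meanCurv V F x n = 0) {ν : ℝ} :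
    H925.RelU (91 / 5) (61 / 5) V W M [(1 / 20, 1 / 50)] ν (finrank ℝ V) F := by
  obtain ⟨r, hr, hrm, hre⟩ := exXA hm hm'
  have hok := okXA
  rw [List.all_eq_true] at hok
  have e1 : (36 : ℚ) ≤ finrank ℝ V := by exact_mod_cast hm
  refine relU_row hm (by omega) hW hF hmin (hok r hr) hrm.symm (by norm_num)
    (K := 67 / 1000) (by norm_num) (by linarith) hre (by norm_num) fun N J Λ _ d h1 h2 => ?_
  have := d.P067 hm (by push_cast at h1; exact h1) h2
  push_cast
  exact this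

/-- the pair `(7/100, 3/100)`, `36 ≤ m ≤ 48` -/
theorem relU_B (hm : 36 ≤ finrank ℝ V) (hm' : finrank ℝ V ≤ 48)
    (hW : finrank ℝ W = finrank ℝ V + 2) {F : M → W}
    (hF : SphImm V F) (hmin : ∀ x n, IsUnitNormal V F x n → meanCurv V F x n = 0) {ν : ℝ} :
    H925.RelU (91 / 5) (61 / 5) V W M [(7 / 100, 3 / 100)] ν (finrank ℝ V) F := by
  obtain ⟨r, hr, hrm, hre⟩ := exXB hm hm'
  have hok := okXB
  rw [List.all_eq_true] at hok
  have e1 : (36 : ℚ) ≤ finrank ℝ V := by exact_mod_cast hm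
  refine relU_row hm (by omega) hW hF hmin (hok r hr) hrm.symm (by norm_num)
    (K := 17 / 200) (by norm_num) (by linarith) hre (by norm_num) fun N J Λ _ d h1 h2 => ?_
  have := d.P085 hm (by push_cast at h1; exact h1) h2
  push_cast
  exact this

/-- both pairs of the tables, `36 ≤ m ≤ 45` -/
theorem relU_45 (hm : 36 ≤ finrank ℝ V) (hm' : finrank ℝ V ≤ 45)
    (hW : finrank ℝ W = finrank ℝ V + 2) {F : M → W}
    (hF : SphImm V F) (hmin : ∀ x n, IsUnitNormal V F x n → meanCurv V F x n = 0) {ν : ℝ} :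
    H925.RelU (91 / 5) (61 / 5) V W M [(1 / 20, 1 / 50), (7 / 100, 3 / 100)] ν
      (finrank ℝ V) F :=
  H577.relU_cons (relU_A hm hm' hW hF hmin) (relU_B hm (by omega) hW hF hmin)

end

end Vale.Agent.P224.R2.H424.Tls
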