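import Vale.Agent.P224.R2.H577.Rel44

/-!
The relative tails of the dimensions from 36 to 54.
-/

namespace Vale.Agent.P224.R2.H424.Tls

open MeasureTheory Set Filter Function Real Module Matrix Vale.Agent.P224 Vale.Agent.P224.FV
  Vale.Agent.P224.R2.H820 Vale.Agent.P224.R2.H582 Vale.Agent.P224.R2.H627
  Vale.Agent.P224.R2.H728 Vale.Agent.P224.R2.H484 Vale.Agent.P224.R2.H925
open Vale.Agent.P224.SM2 hiding ker
open Vale.Agent.P224.R2.H176 (NearData NearOut zf norm_zf int_zf)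
open Vale.Agent.P224.R2.H869 (NrmData nrmData_of_min datR fitR)
open Vale.Agent.P224.R2.H662 (dop dop_apply)
open Vale.Agent.P224.R2.H686 (zz aa ff ph Dat)
open Vale.Agent.P224.R2.H577 (row_zf)
open scoped Topology RealInnerProductSpace ContDiff Manifold

set_option linter.unusedSectionVars false

section

variable {V W M : Type*} [NormedAddCommGroup V] [InnerProductSpace ℝ V] [FiniteDimensional ℝ V]
  [NormedAddCommGroup W] [InnerProductSpace ℝ W] [FiniteDimensional ℝ W]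
  [TopologicalSpace M] [ChartedSpace V M]
  [MeasurableSpace V] [BorelSpace V] [MeasurableSpace M] [BorelSpace M]
  [MeasurableSpace W] [BorelSpace W] [IsManifold 𝓘(ℝ, V) ∞ M]
  [CompactSpace M] [T2Space M]

/-- **the relative tails**, `36 ≤ m ≤ 54`, any window below `j_a^2 = 2 / 25 (m + 1)` -/
theorem relU_54 [Nonempty M] (h1 : 36 ≤ finrank ℝ V) (h2 : finrank ℝ V ≤ 54)
    (hW : finrank ℝ W = finrank ℝ V + 2)
    {F : M → W} (hF : SphImm V F) (hmin : ∀ x n, IsUnitNormal V F x n → meanCurv V F x n = 0)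
    {rels : List (ℚ × ℚ)}
    (hrels : ∀ k ∈ rels, k.1 ≤ 2 / 25 ∧ 1 / 50 ≤ k.2 ∧ relFX8 (finrank ℝ V) ≤ k.2) {ν : ℝ} :
    H925.RelU (91 / 5 : ℚ) (61 / 5 : ℚ) V W M rels ν (finrank ℝ V) F := by
  have hfin : IsFiniteMeasure (volM V F) := isFiniteMeasure_volM hF
  intro N b j hd k hk hj
  obtain ⟨k1, k2, k3⟩ := hrels k hk
  have k2R : (1 / 50 : ℝ) ≤ k.2 := by
    have h := (Rat.cast_le (K := ℝ)).2 k2
    push_cast at h
    exact h
  have D : NrmData V F N := nrmData_of_min (by omega) hW hF hmin hd.smooth hd.unit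
  have hh0 := hd.t0.hh_nonneg (diagonal j)
  have e : hh (nrm (volM V F)) (diagonal j) (co b F) (co b N)
      = ∫ x, aa (dop b j) F N x ∂(nrm (volM V F)) := H662.hh_norm b j
  push_cast
  rcases le_or_gt (∫ x, aa (dop b j) F N x ∂(nrm (volM V F))) (1 / 50) with hη | hη
  · have hrow := row_zf D b h1 hd.lsq (fun a => (hj a).trans
      (mul_le_mul_of_nonneg_right ((Rat.cast_le (K := ℝ)).2 k1) (by positivity))) hη
    refine absTail_mono (rel36_min8 h1 (by omega) hW hF hmin hd.smooth hd.unit b j rfl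
      hrow) (mul_le_mul_of_nonneg_right ?_ hh0)
    exact (Rat.cast_le (K := ℝ)).2 k3
  · have ha := abs_X (c1 := 91 / 5) (c2 := 61 / 5) hW hF hmin hd.smooth hd.unit rfl okA_36_60
      (by norm_num) h1 (inv_blk (by omega) (by omega)) (by norm_num)
    push_cast at ha
    refine absTail_mono ha ?_
    rw [e]
    have : (1 / 50 : ℝ) * (1 / 50) ≤ (k.2 : ℝ)
        * ∫ x, aa (dop b j) F N x ∂(nrm (volM V F)) :=
      mul_le_mul k2R hη.le (by norm_num) (by linarith)
    linarith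

/-- the window of `179`, `45 ≤ m ≤ 54` -/
theorem relU_54s [Nonempty M] (h1 : 45 ≤ finrank ℝ V) (h2 : finrank ℝ V ≤ 54)
    (hW : finrank ℝ W = finrank ℝ V + 2)
    {F : M → W} (hF : SphImm V F) (hmin : ∀ x n, IsUnitNormal V F x n → meanCurv V F x n = 0)
    {ν : ℝ} :
    H925.RelU (91 / 5 : ℚ) (61 / 5 : ℚ) V W M [(2 / 25, relFX8 (finrank ℝ V))] ν
      (finrank ℝ V) F := by
  refine relU_54 (by omega) h2 hW hF hmin fun k hk => ?_
  rw [List.mem_singleton] at hk
  subst hk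
  refine ⟨le_rfl, ?_, le_rfl⟩
  have h3 : ∀ m, 45 ≤ m → m ≤ 54 → 1 / 50 ≤ relFX8 m := by
    intro m g1 g2
    interval_cases m <;> · unfold relFX8; norm_num
  exact h3 _ h1 h2

end

end Vale.Agent.P224.R2.H424.Tls
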