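import Mathlib

/-!
Odd dimensions: the coefficient sequences of the exact flow of the Clifford
hypersurfaces, in the variable z = 1 - T^2, and their majorant.
-/

namespace Vale.Agent.P224.R2.H424

open Filter Finset
open scoped Topology

/-- the state of the recursion at stage `i`:
`y = yt_i`, `f = f_i`, `E = Et_i`, `G = G_i`, `p = p_{i+1}`, `q = pi_{i+1}` -/
structure St where
  y : ℝ
  f : ℝ
  E : ℝ
  G : ℝ
  p : ℝ
  q : ℝ

section defs

variable (a L : ℝ)

/-- one step of the recursion, from stage `i` to stage `i + 1` -/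
noncomputable def fN (s : St) : ℝ := 3 * s.E - 3 * L / 4 * s.f - 4 * s.G
    - 2 * L / (2 * a * (2 * a + 1)) * s.q

/-- one step of the recursion, from stage `i` to stage `i + 1` -/
noncomputable def step (i : ℕ) (s : St) : St where
  y := (i + 1 / 2) * ((i + a / 2) * s.y + a * L / 4 * s.f) / ((i + 1) * (i + a))
  f := fN a L s
  E := ((i + 1 + (a - 1) / 2) * s.E + a / 4 * ((i + 1 / 2) / (i + a)) * (s.y - L / 2 * s.f)
    + a * L / 8 * (2 * fN a L s - s.f)) / (i + 1 + a)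
  G := ((i + 1 + (a - 1) / 2) * s.G + L / (8 * (2 * a + 1)) * s.q) / (i + 1 + a)
  p := ((i + 1 / 2) * (i + 1 + a / 2) * s.p
    + a * (2 * a + 1) / 4 * (s.E - L / 4 * s.f - s.G) - L / 16 * s.q) / ((i + 2) * (i + 1 + a))
  q := 4 * (i + 1) / (i + 1 + a) * (a / 2 * (i + 1 / 2) * s.p
    - a * (2 * a + 1) / 4 * (s.E - L / 4 * s.f - s.G) + L / 16 * s.q)

/-- the sequence of states -/
noncomputable def st : ℕ → St
  | 0 => ⟨1, 0, 0, 0, 0, 0⟩
  | i + 1 => step a L i (st i)

/-- the majorant -/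
noncomputable def MM : ℕ → ℝ
  | 0 => 1
  | i + 1 => MM i * ((i + 1 + (a + 1) / 2) / (i + 1 + a))

end defs

variable {a L : ℝ}

lemma MM_pos (ha : 17 / 2 ≤ a) (i : ℕ) : 0 < MM a i := by
  induction i with
  | zero => exact one_pos
  | succ i ih =>
    have : (0 : ℝ) ≤ i := Nat.cast_nonneg i
    unfold MM
    have h1 : 0 < (i : ℝ) + 1 + (a + 1) / 2 := by linarith
    have h2 : 0 < (i : ℝ) + 1 + a := by linarith
    positivity

lemma MM_succ (i : ℕ) : MM a (i + 1) = MM a i * ((i + 1 + (a + 1) / 2) / (i + 1 + a)) := rfl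

/-- the properties of the parameter -/
structure Par (a L : ℝ) : Prop where
  ha : 17 / 2 ≤ a
  L0 : 0 ≤ L
  hL : L * (4 * a ^ 2 - 1) ≤ 4

namespace Par

variable (h : Par a L)
include h

lemma a0 : 0 < a := by linarith [h.ha]

lemma L1 : L ≤ 1 / 72 := by
  have h1 : L * (4 * (17 / 2) ^ 2 - 1) ≤ L * (4 * a ^ 2 - 1) :=
    mul_le_mul_of_nonneg_left (by nlinarith [h.ha]) h.L0
  have := h1.trans h.hL
  norm_num at this
  linarith

lemma a2L : a ^ 2 * L ≤ 1.0035 := by
  have h1 := h.hL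
  have h2 := h.L1
  nlinarith

lemma aL : a * L ≤ 0.1181 := by
  have h1 := h.a2L
  have h2 : a * (17 / 2 * L) ≤ a * (a * L) :=
    mul_le_mul_of_nonneg_left (mul_le_mul_of_nonneg_right h.ha h.L0) h.a0.le
  nlinarith

end Par

/-- the bounds of the state at stage `i` -/
structure Bd (a : ℝ) (i : ℕ) (s : St) : Prop where
  y : |s.y| ≤ MM a i
  f : |s.f| ≤ 3.65 * a * MM a i
  E : |s.E| ≤ 0.47 * a * MM a i
  G : |s.G| ≤ 0.083 * a * MM a i
  p : (i + 1) * |s.p| ≤ 0.29 * (a ^ 2 * (2 * a + 1)) * MM a (i + 1)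
  q : |s.q| ≤ 0.655 * (a ^ 3 * (2 * a + 1)) * MM a (i + 1)

section steps

variable {i : ℕ}

lemma MM_le (h : Par a L) : MM a (i + 1) ≤ MM a i := by
  have h0 := MM_pos h.ha i
  have hi : (0 : ℝ) ≤ i := Nat.cast_nonneg i
  have ha := h.ha
  rw [MM_succ]
  have h2 : 0 < (i : ℝ) + 1 + a := by linarith
  have : ((i : ℝ) + 1 + (a + 1) / 2) / (i + 1 + a) ≤ 1 := by
    rw [div_le_one h2]; linarith
  nlinarith

lemma MM_le_two (h : Par a L) : MM a i ≤ 2 * MM a (i + 1) := by
  have h0 := MM_pos h.ha i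
  have hi : (0 : ℝ) ≤ i := Nat.cast_nonneg i
  have ha := h.ha
  rw [MM_succ]
  have h2 : 0 < (i : ℝ) + 1 + a := by linarith
  have : (1 : ℝ) ≤ 2 * (((i : ℝ) + 1 + (a + 1) / 2) / (i + 1 + a)) := by
    rw [mul_div_assoc', le_div_iff₀ h2]; linarith
  nlinarith

lemma step_y (h : Par a L) {s : St} (hs : Bd a i s) : |(step a L i s).y| ≤ MM a (i + 1) := by
  have h0 := MM_pos h.ha i
  have hi : (0 : ℝ) ≤ i := Nat.cast_nonneg i
  have ha := h.ha
  have ha0 := h.a0
  have hL0 := h.L0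
  set M := MM a i with hM
  have h2 : 0 < (i : ℝ) + 1 + a := by linarith
  have h3 : 0 < (i : ℝ) + a := by linarith
  have h4 : 0 < (i : ℝ) + 1 := by linarith
  have b1 : |(i + a / 2) * s.y + a * L / 4 * s.f| ≤ (i + a / 2 + 0.916) * M := by
    have e1 : |(i + a / 2) * s.y| ≤ (i + a / 2) * M := by
      rw [abs_mul, abs_of_nonneg (by linarith : (0:ℝ) ≤ i + a / 2)]
      exact mul_le_mul_of_nonneg_left hs.y (by linarith)
    have e2 : |a * L / 4 * s.f| ≤ 0.916 * M := by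
      rw [abs_mul, abs_of_nonneg (by positivity : (0:ℝ) ≤ a * L / 4)]
      have := mul_le_mul_of_nonneg_left hs.f (by positivity : (0:ℝ) ≤ a * L / 4)
      refine this.trans ?_
      have h5 := h.a2L
      have : a * L / 4 * (3.65 * a * M) = (3.65 / 4) * (a ^ 2 * L) * M := by ring
      rw [← hM, this]
      have : (3.65 / 4) * (a ^ 2 * L) ≤ 0.916 := by linarith
      exact mul_le_mul_of_nonneg_right this h0.le
    calc |(i + a / 2) * s.y + a * L / 4 * s.f| ≤ _ := abs_add_le _ _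
      _ ≤ (i + a / 2) * M + 0.916 * M := add_le_add e1 e2
      _ = _ := by ring
  show |(i + 1 / 2) * ((i + a / 2) * s.y + a * L / 4 * s.f) / ((i + 1) * (i + a))| ≤ _
  rw [MM_succ, ← hM, abs_div, abs_mul, abs_of_nonneg (by positivity : (0:ℝ) ≤ (i:ℝ) + 1 / 2),
    abs_of_pos (by positivity : 0 < ((i:ℝ) + 1) * (i + a)), div_le_iff₀ (by positivity)]
  have e3 : M * ((i + 1 + (a + 1) / 2) / (i + 1 + a)) * ((i + 1) * (i + a))
      = M * (((i + 1 + (a + 1) / 2) * ((i + 1) * (i + a))) / (i + 1 + a)) := by ring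
  rw [e3]
  refine (mul_le_mul_of_nonneg_left b1 (by positivity)).trans ?_
  have e4 : ((i : ℝ) + 1 / 2) * ((i + a / 2 + 0.916) * M)
      = M * ((i + 1 / 2) * (i + a / 2 + 0.916)) := by ring
  rw [e4]
  refine mul_le_mul_of_nonneg_left ?_ h0.le
  rw [le_div_iff₀ h2]
  nlinarith [mul_nonneg hi hi, mul_nonneg hi ha0.le, mul_nonneg (mul_nonneg hi hi) hi,
    mul_nonneg (mul_nonneg hi hi) ha0.le, mul_nonneg (mul_nonneg hi ha0.le) (sub_nonneg.2 ha),
    mul_nonneg ha0.le (sub_nonneg.2 ha)]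

lemma step_f (h : Par a L) {s : St} (hs : Bd a i s) :
    |fN a L s| ≤ 3.65 * a * MM a (i + 1) := by
  have h0 := MM_pos h.ha i
  have h0' := MM_pos h.ha (i + 1)
  have hi : (0 : ℝ) ≤ i := Nat.cast_nonneg i
  have ha := h.ha
  have ha0 := h.a0
  have hL0 := h.L0
  have hM2 := MM_le_two h (i := i)
  set M := MM a i with hM
  set M' := MM a (i + 1) with hM'
  have e1 : |3 * s.E| ≤ 3 * (0.47 * a * M) := by
    rw [abs_mul, abs_of_nonneg (by norm_num : (0:ℝ) ≤ 3)]
    linarith [hs.E]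
  have e2 : |3 * L / 4 * s.f| ≤ 0.0381 * a * M := by
    rw [abs_mul, abs_of_nonneg (by positivity : (0:ℝ) ≤ 3 * L / 4)]
    have := mul_le_mul_of_nonneg_left hs.f (by positivity : (0:ℝ) ≤ 3 * L / 4)
    refine this.trans ?_
    have h5 := h.L1
    have : 3 * L / 4 * (3.65 * a * M) = (3 * 3.65 / 4) * L * (a * M) := by ring
    rw [← hM, this, mul_assoc 0.0381]
    refine mul_le_mul_of_nonneg_right ?_ (by positivity)
    linarith
  have e3 : |4 * s.G| ≤ 4 * (0.083 * a * M) := by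
    rw [abs_mul, abs_of_nonneg (by norm_num : (0:ℝ) ≤ 4)]
    linarith [hs.G]
  have e4 : |2 * L / (2 * a * (2 * a + 1)) * s.q| ≤ 0.0774 * a * M' := by
    rw [abs_mul, abs_of_nonneg (by positivity : (0:ℝ) ≤ 2 * L / (2 * a * (2 * a + 1)))]
    have := mul_le_mul_of_nonneg_left hs.q
      (by positivity : (0:ℝ) ≤ 2 * L / (2 * a * (2 * a + 1)))
    refine this.trans ?_
    have h5 := h.aL
    have e : 2 * L / (2 * a * (2 * a + 1)) * (0.655 * (a ^ 3 * (2 * a + 1)) * M')
        = 0.655 * (a * L) * (a * M') := by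
      field_simp
    rw [← hM', e, mul_assoc 0.0774]
    refine mul_le_mul_of_nonneg_right ?_ (by positivity)
    linarith
  have e5 : |fN a L s| ≤ 3 * (0.47 * a * M) + 0.0381 * a * M + 4 * (0.083 * a * M)
      + 0.0774 * a * M' := by
    unfold fN
    calc |3 * s.E - 3 * L / 4 * s.f - 4 * s.G - 2 * L / (2 * a * (2 * a + 1)) * s.q|
        ≤ |3 * s.E - 3 * L / 4 * s.f - 4 * s.G| + |2 * L / (2 * a * (2 * a + 1)) * s.q| :=
          abs_sub _ _
      _ ≤ (|3 * s.E - 3 * L / 4 * s.f| + |4 * s.G|) + |2 * L / (2 * a * (2 * a + 1)) * s.q| := by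
          gcongr; exact abs_sub _ _
      _ ≤ ((|3 * s.E| + |3 * L / 4 * s.f|) + |4 * s.G|)
          + |2 * L / (2 * a * (2 * a + 1)) * s.q| := by
          gcongr; exact abs_sub _ _
      _ ≤ _ := by linarith
  refine e5.trans ?_
  have : a * M ≤ a * (2 * M') := mul_le_mul_of_nonneg_left hM2 ha0.le
  nlinarith [mul_pos ha0 h0']

lemma step_E (h : Par a L) {s : St} (hs : Bd a i s) :
    |(step a L i s).E| ≤ 0.47 * a * MM a (i + 1) := by
  have h0 := MM_pos h.ha i
  have h0' := MM_pos h.ha (i + 1)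
  have hi : (0 : ℝ) ≤ i := Nat.cast_nonneg i
  have ha := h.ha
  have ha0 := h.a0
  have hL0 := h.L0
  have hM1 := MM_le h (i := i)
  have hf := step_f h hs
  set M := MM a i with hM
  set M' := MM a (i + 1) with hM'
  have h2 : 0 < (i : ℝ) + 1 + a := by linarith
  have h3 : 0 < (i : ℝ) + a := by linarith
  have e1 : |(i + 1 + (a - 1) / 2) * s.E| ≤ (i + 1 + (a - 1) / 2) * (0.47 * a * M) := by
    rw [abs_mul, abs_of_nonneg (by linarith : (0:ℝ) ≤ i + 1 + (a - 1) / 2)]
    exact mul_le_mul_of_nonneg_left hs.E (by linarith)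
  have e2 : |a / 4 * ((i + 1 / 2) / (i + a)) * (s.y - L / 2 * s.f)|
      ≤ a / 4 * (1 + 1.825 * (a * L)) * M := by
    have k1 : |s.y - L / 2 * s.f| ≤ (1 + 1.825 * (a * L)) * M := by
      have k2 : |L / 2 * s.f| ≤ 1.825 * (a * L) * M := by
        rw [abs_mul, abs_of_nonneg (by positivity : (0:ℝ) ≤ L / 2)]
        have := mul_le_mul_of_nonneg_left hs.f (by positivity : (0:ℝ) ≤ L / 2)
        refine this.trans (le_of_eq ?_)
        rw [← hM]; ring
      calc |s.y - L / 2 * s.f| ≤ |s.y| + |L / 2 * s.f| := abs_sub _ _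
        _ ≤ M + 1.825 * (a * L) * M := add_le_add hs.y k2
        _ = _ := by ring
    have k3 : (0 : ℝ) ≤ (i + 1 / 2) / (i + a) := by positivity
    have k4 : ((i : ℝ) + 1 / 2) / (i + a) ≤ 1 := by
      rw [div_le_one h3]; linarith
    rw [abs_mul, abs_mul, abs_of_nonneg (by positivity : (0:ℝ) ≤ a / 4), abs_of_nonneg k3]
    calc a / 4 * ((i + 1 / 2) / (i + a)) * |s.y - L / 2 * s.f|
        ≤ a / 4 * 1 * ((1 + 1.825 * (a * L)) * M) := by gcongr
      _ = _ := by ring
  have e3 : |a * L / 8 * (2 * fN a L s - s.f)| ≤ a * L / 8 * (10.95 * a * M) := by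
    rw [abs_mul, abs_of_nonneg (by positivity : (0:ℝ) ≤ a * L / 8)]
    refine mul_le_mul_of_nonneg_left ?_ (by positivity)
    calc |2 * fN a L s - s.f| ≤ |2 * fN a L s| + |s.f| := abs_sub _ _
      _ ≤ 2 * (3.65 * a * M') + 3.65 * a * M := by
          rw [abs_mul, abs_of_nonneg (by norm_num : (0:ℝ) ≤ 2)]
          exact add_le_add (by linarith) hs.f
      _ ≤ 2 * (3.65 * a * M) + 3.65 * a * M := by gcongr
      _ = _ := by ring
  show |((i + 1 + (a - 1) / 2) * s.E + a / 4 * ((i + 1 / 2) / (i + a)) * (s.y - L / 2 * s.f)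
    + a * L / 8 * (2 * fN a L s - s.f)) / (i + 1 + a)| ≤ _
  rw [abs_div, abs_of_pos h2, div_le_iff₀ h2]
  have e4 : M' * (i + 1 + a) = M * (i + 1 + (a + 1) / 2) := by
    rw [hM', MM_succ, ← hM]; field_simp
  have e5 : 0.47 * a * M' * (i + 1 + a) = 0.47 * a * (M * (i + 1 + (a + 1) / 2)) := by
    rw [← e4]; ring
  rw [e5]
  refine (abs_add_three _ _ _).trans ?_
  have h5 := h.aL
  have e6 : a / 4 * (1 + 1.825 * (a * L)) * M + a * L / 8 * (10.95 * a * M)
      = a * M * (1 / 4 + 1.825 * (a * L)) := by ring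
  have e7 : a * M * (1 / 4 + 1.825 * (a * L)) ≤ a * M * 0.47 := by
    refine mul_le_mul_of_nonneg_left ?_ (by positivity)
    linarith
  nlinarith

lemma step_G (h : Par a L) {s : St} (hs : Bd a i s) :
    |(step a L i s).G| ≤ 0.083 * a * MM a (i + 1) := by
  have h0 := MM_pos h.ha i
  have h0' := MM_pos h.ha (i + 1)
  have hi : (0 : ℝ) ≤ i := Nat.cast_nonneg i
  have ha := h.ha
  have ha0 := h.a0
  have hL0 := h.L0
  have hM1 := MM_le h (i := i)
  set M := MM a i with hM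
  set M' := MM a (i + 1) with hM'
  have h2 : 0 < (i : ℝ) + 1 + a := by linarith
  have e1 : |(i + 1 + (a - 1) / 2) * s.G| ≤ (i + 1 + (a - 1) / 2) * (0.083 * a * M) := by
    rw [abs_mul, abs_of_nonneg (by linarith : (0:ℝ) ≤ i + 1 + (a - 1) / 2)]
    exact mul_le_mul_of_nonneg_left hs.G (by linarith)
  have e2 : |L / (8 * (2 * a + 1)) * s.q| ≤ 0.083 * a * M := by
    rw [abs_mul, abs_of_nonneg (by positivity : (0:ℝ) ≤ L / (8 * (2 * a + 1)))]
    have := mul_le_mul_of_nonneg_left hs.q (by positivity : (0:ℝ) ≤ L / (8 * (2 * a + 1)))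
    refine this.trans ?_
    have e : L / (8 * (2 * a + 1)) * (0.655 * (a ^ 3 * (2 * a + 1)) * M')
        = 0.655 / 8 * (a ^ 2 * L) * (a * M') := by
      field_simp
    rw [← hM', e, mul_assoc 0.083]
    have h5 := h.a2L
    have : 0.655 / 8 * (a ^ 2 * L) * (a * M') ≤ 0.083 * (a * M') :=
      mul_le_mul_of_nonneg_right (by linarith) (by positivity)
    refine this.trans ?_
    gcongr
  show |((i + 1 + (a - 1) / 2) * s.G + L / (8 * (2 * a + 1)) * s.q) / (i + 1 + a)| ≤ _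
  rw [abs_div, abs_of_pos h2, div_le_iff₀ h2]
  have e4 : M' * (i + 1 + a) = M * (i + 1 + (a + 1) / 2) := by
    rw [hM', MM_succ, ← hM]; field_simp
  have e5 : 0.083 * a * M' * (i + 1 + a) = 0.083 * a * (M * (i + 1 + (a + 1) / 2)) := by
    rw [← e4]; ring
  rw [e5]
  refine (abs_add_le _ _).trans ?_
  nlinarith

/-- the common source -/
lemma src_le (h : Par a L) {s : St} (hs : Bd a i s) :
    |s.E - L / 4 * s.f - s.G| ≤ 0.5657 * a * MM a i := by
  have h0 := MM_pos h.ha i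
  have ha0 := h.a0
  have hL0 := h.L0
  set M := MM a i with hM
  have e2 : |L / 4 * s.f| ≤ 0.0127 * a * M := by
    rw [abs_mul, abs_of_nonneg (by positivity : (0:ℝ) ≤ L / 4)]
    have := mul_le_mul_of_nonneg_left hs.f (by positivity : (0:ℝ) ≤ L / 4)
    refine this.trans ?_
    have h5 := h.L1
    have : L / 4 * (3.65 * a * M) = (3.65 / 4) * L * (a * M) := by ring
    rw [← hM, this, mul_assoc 0.0127]
    refine mul_le_mul_of_nonneg_right ?_ (by positivity)
    linarith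
  calc |s.E - L / 4 * s.f - s.G| ≤ |s.E - L / 4 * s.f| + |s.G| := abs_sub _ _
    _ ≤ (|s.E| + |L / 4 * s.f|) + |s.G| := by gcongr; exact abs_sub _ _
    _ ≤ (0.47 * a * M + 0.0127 * a * M) + 0.083 * a * M :=
        add_le_add (add_le_add hs.E e2) hs.G
    _ = _ := by ring

lemma Lq_le (h : Par a L) {s : St} (hs : Bd a i s) :
    |L / 16 * s.q| ≤ 0.00484 * (a ^ 2 * (2 * a + 1)) * MM a (i + 1) := by
  have h0' := MM_pos h.ha (i + 1)
  have ha0 := h.a0
  have hL0 := h.L0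
  set M' := MM a (i + 1) with hM'
  rw [abs_mul, abs_of_nonneg (by positivity : (0:ℝ) ≤ L / 16)]
  have := mul_le_mul_of_nonneg_left hs.q (by positivity : (0:ℝ) ≤ L / 16)
  refine this.trans ?_
  have h5 := h.aL
  have e : L / 16 * (0.655 * (a ^ 3 * (2 * a + 1)) * M')
      = (0.655 / 16) * (a * L) * ((a ^ 2 * (2 * a + 1)) * M') := by ring
  rw [← hM', e, mul_assoc 0.00484]
  refine mul_le_mul_of_nonneg_right ?_ (by positivity)
  linarith

lemma step_p (h : Par a L) {s : St} (hs : Bd a i s) :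
    (i + 2) * |(step a L i s).p| ≤ 0.29 * (a ^ 2 * (2 * a + 1)) * MM a (i + 2) := by
  have h0 := MM_pos h.ha i
  have h0' := MM_pos h.ha (i + 1)
  have h0'' := MM_pos h.ha (i + 2)
  have hi : (0 : ℝ) ≤ i := Nat.cast_nonneg i
  have ha := h.ha
  have ha0 := h.a0
  have hL0 := h.L0
  have hM2 := MM_le_two h (i := i)
  have hsrc := src_le h hs
  have hq := Lq_le h hs
  have hp := hs.p
  have e4 : MM a (i + 2) * (i + 2 + a) = MM a (i + 1) * (i + 2 + (a + 1) / 2) := by
    rw [show i + 2 = (i + 1) + 1 by ring, MM_succ]; push_cast; field_simp; ring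
  set M := MM a i with hM
  set M' := MM a (i + 1) with hM'
  set M'' := MM a (i + 2) with hM''
  set K := a ^ 2 * (2 * a + 1) with hK
  have hKpos : 0 < K := by positivity
  have h2 : 0 < (i : ℝ) + 1 + a := by linarith
  have h4 : 0 < (i : ℝ) + 1 := by linarith
  have h5 : 0 < (i : ℝ) + 2 := by linarith
  have b1 : |(i + 1 / 2) * (i + 1 + a / 2) * s.p|
      ≤ (i + 1 / 2) * (i + 1 + a / 2) / (i + 1) * (0.29 * K * M') := by
    have e : (i + 1 / 2) * (i + 1 + a / 2) * s.p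
        = (i + 1 / 2) * (i + 1 + a / 2) / (i + 1) * ((i + 1) * s.p) := by
      field_simp
    rw [e, abs_mul, abs_of_nonneg (by positivity :
      (0:ℝ) ≤ (i + 1 / 2) * (i + 1 + a / 2) / (i + 1)), abs_mul, abs_of_pos h4]
    exact mul_le_mul_of_nonneg_left hp (by positivity)
  have b2 : |a * (2 * a + 1) / 4 * (s.E - L / 4 * s.f - s.G)| ≤ 0.28285 * K * M' := by
    rw [abs_mul, abs_of_nonneg (by positivity : (0:ℝ) ≤ a * (2 * a + 1) / 4)]
    calc a * (2 * a + 1) / 4 * |s.E - L / 4 * s.f - s.G|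
        ≤ a * (2 * a + 1) / 4 * (0.5657 * a * M) := by gcongr
      _ ≤ a * (2 * a + 1) / 4 * (0.5657 * a * (2 * M')) := by gcongr
      _ = 0.28285 * K * M' := by rw [hK]; ring
  show (i + 2) * |((i + 1 / 2) * (i + 1 + a / 2) * s.p
    + a * (2 * a + 1) / 4 * (s.E - L / 4 * s.f - s.G) - L / 16 * s.q) / ((i + 2) * (i + 1 + a))| ≤ _
  rw [abs_div, abs_of_pos (by positivity : 0 < ((i:ℝ) + 2) * (i + 1 + a))]
  have e6 : ∀ X : ℝ, (i + 2) * (X / ((i + 2) * (i + 1 + a))) = X / (i + 1 + a) := by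
    intro X; field_simp
  rw [e6, div_le_iff₀ h2]
  have b3 : |(i + 1 / 2) * (i + 1 + a / 2) * s.p
      + a * (2 * a + 1) / 4 * (s.E - L / 4 * s.f - s.G) - L / 16 * s.q|
      ≤ ((i + 1 / 2) * (i + 1 + a / 2) / (i + 1) + 1) * (0.29 * K * M') := by
    calc |(i + 1 / 2) * (i + 1 + a / 2) * s.p
        + a * (2 * a + 1) / 4 * (s.E - L / 4 * s.f - s.G) - L / 16 * s.q|
        ≤ |(i + 1 / 2) * (i + 1 + a / 2) * s.p
          + a * (2 * a + 1) / 4 * (s.E - L / 4 * s.f - s.G)| + |L / 16 * s.q| := abs_sub _ _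
      _ ≤ (|(i + 1 / 2) * (i + 1 + a / 2) * s.p|
          + |a * (2 * a + 1) / 4 * (s.E - L / 4 * s.f - s.G)|) + |L / 16 * s.q| := by
          gcongr; exact abs_add_le _ _
      _ ≤ ((i + 1 / 2) * (i + 1 + a / 2) / (i + 1) * (0.29 * K * M') + 0.28285 * K * M')
          + 0.00484 * K * M' := add_le_add (add_le_add b1 b2) hq
      _ ≤ _ := by
          have : 0 < K * M' := by positivity
          nlinarith
  refine b3.trans ?_
  have e7 : 0.29 * K * M'' * (i + 1 + a) = 0.29 * K * M' *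
      ((i + 2 + (a + 1) / 2) * (i + 1 + a) / (i + 2 + a)) := by
    have : M'' = M' * (i + 2 + (a + 1) / 2) / (i + 2 + a) := by
      rw [← e4]; field_simp
    rw [this]; ring
  rw [e7, mul_comm]
  refine mul_le_mul_of_nonneg_left ?_ (by positivity)
  have e8 : ((i : ℝ) + 1 / 2) * (i + 1 + a / 2) / (i + 1) ≤ i + 1 + a / 2 - 1 / 2 := by
    rw [div_le_iff₀ h4]; nlinarith
  have e9 : (i : ℝ) + 1 + (a + 1) / 2 ≤ (i + 2 + (a + 1) / 2) * (i + 1 + a) / (i + 2 + a) := by
    rw [le_div_iff₀ (by linarith)]; nlinarith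
  linarith

lemma step_q (h : Par a L) {s : St} (hs : Bd a i s) :
    |(step a L i s).q| ≤ 0.655 * (a ^ 3 * (2 * a + 1)) * MM a (i + 2) := by
  have h0 := MM_pos h.ha i
  have h0' := MM_pos h.ha (i + 1)
  have h0'' := MM_pos h.ha (i + 2)
  have hi : (0 : ℝ) ≤ i := Nat.cast_nonneg i
  have ha := h.ha
  have ha0 := h.a0
  have hL0 := h.L0
  have hsrc := src_le h hs
  have hq := Lq_le h hs
  have hp := hs.p
  have e4 : MM a (i + 2) * (i + 2 + a) = MM a (i + 1) * (i + 2 + (a + 1) / 2) := by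
    rw [show i + 2 = (i + 1) + 1 by ring, MM_succ]; push_cast; field_simp; ring
  have e4' : MM a (i + 1) * (i + 1 + a) = MM a i * (i + 1 + (a + 1) / 2) := by
    rw [MM_succ]; field_simp
  set M := MM a i with hM
  set M' := MM a (i + 1) with hM'
  set M'' := MM a (i + 2) with hM''
  set K := a ^ 2 * (2 * a + 1) with hK
  have hKpos : 0 < K := by positivity
  have h2 : 0 < (i : ℝ) + 1 + a := by linarith
  have h4 : 0 < (i : ℝ) + 1 := by linarith
  have h5 : 0 < (i : ℝ) + 2 + a := by linarith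
  have r1 : (i + 1) / (i + 1 + a) * M' ≤ M'' := by
    have : M'' = M' * (i + 2 + (a + 1) / 2) / (i + 2 + a) := by
      rw [← e4]; field_simp
    rw [this, div_mul_eq_mul_div, div_le_div_iff₀ h2 h5]
    have : (0:ℝ) ≤ M' * ((i + 2 + (a + 1) / 2) * (i + 1 + a) - (i + 1) * (i + 2 + a)) := by
      refine mul_nonneg h0'.le ?_
      nlinarith
    nlinarith
  have r2 : (i + 1) / (i + 1 + a) * M ≤ M'' := by
    have e : M'' = M * ((i + 1 + (a + 1) / 2) * (i + 2 + (a + 1) / 2)) / ((i + 1 + a) * (i + 2 + a)) := by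
      have e1 : M'' = M' * (i + 2 + (a + 1) / 2) / (i + 2 + a) := by
        rw [← e4]; field_simp
      have e2 : M' = M * (i + 1 + (a + 1) / 2) / (i + 1 + a) := by
        rw [← e4']; field_simp
      rw [e1, e2]; field_simp
    rw [e, div_mul_eq_mul_div, div_le_div_iff₀ h2 (by positivity)]
    have : (0:ℝ) ≤ M * (i + 1 + a) * ((i + 1 + (a + 1) / 2) * (i + 2 + (a + 1) / 2)
        - (i + 1) * (i + 2 + a)) := by
      refine mul_nonneg (by positivity) ?_
      nlinarith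
    nlinarith
  have b1 : |a / 2 * (i + 1 / 2) * s.p| ≤ 0.145 * (a * K) * M' := by
    have e : a / 2 * (i + 1 / 2) * s.p = a / 2 * ((i + 1 / 2) / (i + 1)) * ((i + 1) * s.p) := by
      field_simp
    rw [e, abs_mul, abs_of_nonneg (by positivity : (0:ℝ) ≤ a / 2 * ((i + 1 / 2) / (i + 1))),
      abs_mul, abs_of_pos h4]
    have k : ((i:ℝ) + 1 / 2) / (i + 1) ≤ 1 := by rw [div_le_one h4]; linarith
    calc a / 2 * ((i + 1 / 2) / (i + 1)) * ((i + 1) * |s.p|)
        ≤ a / 2 * 1 * (0.29 * K * M') := by gcongr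
      _ = _ := by ring
  have b2 : |a * (2 * a + 1) / 4 * (s.E - L / 4 * s.f - s.G)| ≤ 0.141425 * K * M := by
    rw [abs_mul, abs_of_nonneg (by positivity : (0:ℝ) ≤ a * (2 * a + 1) / 4)]
    calc a * (2 * a + 1) / 4 * |s.E - L / 4 * s.f - s.G|
        ≤ a * (2 * a + 1) / 4 * (0.5657 * a * M) := by gcongr
      _ = 0.141425 * K * M := by rw [hK]; ring
  show |4 * (i + 1) / (i + 1 + a) * (a / 2 * (i + 1 / 2) * s.p
    - a * (2 * a + 1) / 4 * (s.E - L / 4 * s.f - s.G) + L / 16 * s.q)| ≤ _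
  rw [abs_mul, abs_of_nonneg (by positivity : (0:ℝ) ≤ 4 * (i + 1) / (i + 1 + a))]
  have b3 : |a / 2 * (i + 1 / 2) * s.p
      - a * (2 * a + 1) / 4 * (s.E - L / 4 * s.f - s.G) + L / 16 * s.q|
      ≤ 0.145 * (a * K) * M' + 0.141425 * K * M + 0.00484 * K * M' := by
    calc |a / 2 * (i + 1 / 2) * s.p
        - a * (2 * a + 1) / 4 * (s.E - L / 4 * s.f - s.G) + L / 16 * s.q|
        ≤ |a / 2 * (i + 1 / 2) * s.p
          - a * (2 * a + 1) / 4 * (s.E - L / 4 * s.f - s.G)| + |L / 16 * s.q| := abs_add_le _ _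
      _ ≤ (|a / 2 * (i + 1 / 2) * s.p|
          + |a * (2 * a + 1) / 4 * (s.E - L / 4 * s.f - s.G)|) + |L / 16 * s.q| := by
          gcongr; exact abs_sub _ _
      _ ≤ _ := add_le_add (add_le_add b1 b2) hq
  refine (mul_le_mul_of_nonneg_left b3 (by positivity)).trans ?_
  have e10 : 4 * (i + 1) / (i + 1 + a) * (0.145 * (a * K) * M' + 0.141425 * K * M
      + 0.00484 * K * M') = 4 * (0.145 * a + 0.00484) * K * ((i + 1) / (i + 1 + a) * M')
      + 4 * 0.141425 * K * ((i + 1) / (i + 1 + a) * M) := by ring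
  rw [e10]
  calc 4 * (0.145 * a + 0.00484) * K * ((i + 1) / (i + 1 + a) * M')
      + 4 * 0.141425 * K * ((i + 1) / (i + 1 + a) * M)
      ≤ 4 * (0.145 * a + 0.00484) * K * M'' + 4 * 0.141425 * K * M'' := by gcongr
    _ ≤ 0.655 * (a * K) * M'' := by
        have : 0 < K * M'' := by positivity
        nlinarith
    _ = _ := by rw [hK]; ring

theorem bd_step (h : Par a L) {s : St} (hs : Bd a i s) : Bd a (i + 1) (step a L i s) where
  y := step_y h hs
  f := step_f h hs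
  E := step_E h hs
  G := step_G h hs
  p := by
    have := step_p h hs
    push_cast
    rw [show (i : ℝ) + 1 + 1 = i + 2 by ring]
    exact this
  q := step_q h hs

end steps

theorem bd (h : Par a L) (i : ℕ) : Bd a i (st a L i) := by
  induction i with
  | zero =>
    have h1 := MM_pos h.ha 1
    have h2 := h.a0
    constructor <;> simp only [st, MM, abs_zero, abs_one, mul_zero, mul_one, zero_add] <;>
      first | exact le_rfl | positivity
  | succ i ih => exact bd_step h ih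

end Vale.Agent.P224.R2.H424
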