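import Vale.Agent.P224.R2.H424.Seq

/-!
Power series with summable second differences on the closed unit interval.
-/

namespace Vale.Agent.P224.R2.H424

open Filter Finset Set
open scoped Topology

/-- value of the power series -/
noncomputable def S (c : ℕ → ℝ) (z : ℝ) : ℝ := ∑' i, c i * z ^ i

/-- coefficients of the derivative -/
def D (c : ℕ → ℝ) : ℕ → ℝ := fun i => (i + 1) * c (i + 1)

/-- multiplication by `z` -/
def sh (c : ℕ → ℝ) : ℕ → ℝ
  | 0 => 0
  | i + 1 => c i

@[simp] lemma sh_zero (c : ℕ → ℝ) : sh c 0 = 0 := rfl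
@[simp] lemma sh_succ (c : ℕ → ℝ) (i : ℕ) : sh c (i + 1) = c i := rfl

/-- the power series represents a value -/
def Rp (z : ℝ) (c : ℕ → ℝ) (v : ℝ) : Prop := HasSum (fun i => c i * z ^ i) v

namespace Rp

variable {z : ℝ} {c d : ℕ → ℝ} {v w : ℝ}

lemma add (h1 : Rp z c v) (h2 : Rp z d w) : Rp z (fun i => c i + d i) (v + w) := by
  unfold Rp at *
  simpa only [add_mul] using HasSum.add h1 h2

lemma sub (h1 : Rp z c v) (h2 : Rp z d w) : Rp z (fun i => c i - d i) (v - w) := by
  unfold Rp at *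
  simpa only [sub_mul] using HasSum.sub h1 h2

lemma smul (k : ℝ) (h1 : Rp z c v) : Rp z (fun i => k * c i) (k * v) := by
  unfold Rp at *
  simpa only [mul_assoc] using HasSum.mul_left k h1

lemma mulz (h1 : Rp z c v) : Rp z (sh c) (z * v) := by
  unfold Rp at *
  rw [← hasSum_nat_add_iff' 1]
  simp only [Finset.range_one, Finset.sum_singleton, sh_zero, zero_mul, sub_zero, sh_succ]
  have := HasSum.mul_left z h1
  refine this.congr_fun ?_ |> fun h => h
  intro i
  ring

lemma uniq (h1 : Rp z c v) (h2 : Rp z d w) (h : ∀ i, c i = d i) : v = w := by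
  have : c = d := funext h
  subst this
  exact HasSum.unique h1 h2

end Rp

lemma rp_S {c : ℕ → ℝ} (hc : Summable fun i => |c i|) {z : ℝ} (hz : |z| ≤ 1) : Rp z c (S c z) := by
  refine (Summable.of_norm_bounded hc fun i => ?_).hasSum
  rw [Real.norm_eq_abs, abs_mul, abs_pow]
  exact mul_le_of_le_one_right (abs_nonneg _) (pow_le_one₀ (abs_nonneg _) hz)

lemma continuousOn_S {c : ℕ → ℝ} (hc : Summable fun i => |c i|) :
    ContinuousOn (S c) (Icc (-1) 1) := by
  unfold S
  refine continuousOn_tsum (fun i => by fun_prop) hc fun i z hz => ?_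
  rw [Real.norm_eq_abs, abs_mul, abs_pow]
  exact mul_le_of_le_one_right (abs_nonneg _) (pow_le_one₀ (abs_nonneg _) (abs_le.2 hz))

lemma hasDerivAt_S {c : ℕ → ℝ} (hc : Summable fun i => |c i|)
    (hd : Summable fun i => |D c i|) {z : ℝ} (hz : z ∈ Ioo (-1 : ℝ) 1) :
    HasDerivAt (S c) (S (D c) z) z := by
  have hd' : Summable fun i : ℕ => |(i : ℝ) * c i| := by
    rw [← summable_nat_add_iff 1]
    simpa [D] using hd
  have key := hasDerivAt_tsum_of_isPreconnected (g := fun i (y : ℝ) => c i * y ^ i)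
    (g' := fun i (y : ℝ) => c i * (i * y ^ (i - 1))) hd' isOpen_Ioo isPreconnected_Ioo
    (fun i y _ => (hasDerivAt_pow i y).const_mul (c i)) ?_ (y₀ := 0) (by norm_num) ?_ hz
  · refine key.congr_deriv ?_
    have h1 : (∑' i : ℕ, c i * ((i : ℝ) * z ^ (i - 1)))
        = ∑' i : ℕ, c (i + 1) * (((i + 1 : ℕ) : ℝ) * z ^ (i + 1 - 1)) := by
      have hs : Summable fun i : ℕ => c i * ((i : ℝ) * z ^ (i - 1)) := by
        refine Summable.of_norm_bounded hd' fun i => ?_
        rw [Real.norm_eq_abs, abs_mul, abs_mul, abs_pow, abs_mul]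
        have h2 : |z| ^ (i - 1) ≤ 1 := pow_le_one₀ (abs_nonneg _) (abs_le.2 ⟨hz.1.le, hz.2.le⟩)
        have h3 : 0 ≤ |c i| * |(i : ℝ)| := by positivity
        nlinarith
      rw [hs.tsum_eq_zero_add]
      simp
    rw [h1]
    unfold S D
    refine tsum_congr fun i => ?_
    simp only [Nat.add_sub_cancel]
    push_cast
    ring
  · intro i y hy
    rw [Real.norm_eq_abs, abs_mul, abs_mul, abs_pow, abs_mul]
    have h2 : |y| ^ (i - 1) ≤ 1 := pow_le_one₀ (abs_nonneg _) (abs_le.2 ⟨hy.1.le, hy.2.le⟩)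
    have h3 : 0 ≤ |c i| * |(i : ℝ)| := by positivity
    nlinarith
  · exact (rp_S hc (by simp : |(0 : ℝ)| ≤ 1)).summable

/-- second order summability -/
def Sm (c : ℕ → ℝ) : Prop := Summable fun i : ℕ => ((i : ℝ) + 1) ^ 2 * |c i|

namespace Sm

variable {c d : ℕ → ℝ}

lemma s0 (h : Sm c) : Summable fun i => |c i| := by
  refine Summable.of_nonneg_of_le (fun i => abs_nonneg _) (fun i => ?_) h
  have : (0 : ℝ) ≤ i := Nat.cast_nonneg i
  have h1 : (1 : ℝ) ≤ (i + 1) ^ 2 := by nlinarith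
  nlinarith [abs_nonneg (c i)]

lemma s1 (h : Sm c) : Summable fun i => |D c i| := by
  have h' := (summable_nat_add_iff 1).2 h
  refine Summable.of_nonneg_of_le (fun i => abs_nonneg _) (fun i => ?_) h'
  have : (0 : ℝ) ≤ i := Nat.cast_nonneg i
  unfold D
  rw [abs_mul, abs_of_nonneg (by positivity : (0:ℝ) ≤ (i:ℝ) + 1)]
  push_cast
  exact mul_le_mul_of_nonneg_right (by nlinarith) (abs_nonneg _)

lemma s2 (h : Sm c) : Summable fun i => |D (D c) i| := by
  have h' := (summable_nat_add_iff 2).2 h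
  refine Summable.of_nonneg_of_le (fun i => abs_nonneg _) (fun i => ?_) h'
  have : (0 : ℝ) ≤ i := Nat.cast_nonneg i
  unfold D
  rw [abs_mul, abs_mul, abs_of_nonneg (by positivity : (0:ℝ) ≤ (i:ℝ) + 1),
    abs_of_nonneg (by positivity : (0:ℝ) ≤ ((i + 1 : ℕ):ℝ) + 1), ← mul_assoc]
  push_cast
  exact mul_le_mul_of_nonneg_right (by nlinarith) (abs_nonneg _)

lemma lin (h1 : Sm c) (h2 : Sm d) (k : ℝ) : Sm fun i => c i + k * d i := by
  have h3 : Summable fun i : ℕ => ((i : ℝ) + 1) ^ 2 * |c i| + |k| * (((i : ℝ) + 1) ^ 2 * |d i|) :=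
    Summable.add h1 (Summable.mul_left _ h2)
  refine Summable.of_nonneg_of_le (fun i => by positivity) (fun i => ?_) h3
  have h4 : |c i + k * d i| ≤ |c i| + |k| * |d i| := by
    rw [← abs_mul]; exact abs_add_le _ _
  have h5 : (0 : ℝ) ≤ ((i : ℝ) + 1) ^ 2 := by positivity
  nlinarith

end Sm

lemma sm_MM {a L : ℝ} (h : Par a L) : Summable fun i : ℕ => ((i : ℝ) + 1) ^ 2 * MM a i := by
  have ha := h.ha
  set b : ℝ := (a + 1) / 2 with hb
  have hc : 0 < a - b - 3 := by rw [hb]; linarith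
  set g : ℕ → ℝ := fun i => (i + 1 + b) * (i + 2 + b) * (i + 3 + b) with hg
  have hb0 : 0 < b := by rw [hb]; linarith
  have key : ∀ i : ℕ, ((i : ℝ) + 1) ^ 2 * MM a i
      ≤ 2 / (a - b - 3) * (g i * MM a i - g (i + 1) * MM a (i + 1)) := by
    intro i
    have hM := MM_pos h.ha i
    have hi : (0 : ℝ) ≤ i := Nat.cast_nonneg i
    have h2 : 0 < (i : ℝ) + 1 + a := by linarith
    have e1 : g i * MM a i - g (i + 1) * MM a (i + 1)
        = (a - b - 3) * ((i + 1 + b) * (i + 2 + b) * (i + 3 + b) / (i + 1 + a)) * MM a i := by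
      rw [MM_succ, hg, ← hb]
      field_simp
      push_cast
      ring
    rw [e1]
    have e2 : 2 / (a - b - 3) * ((a - b - 3) * ((i + 1 + b) * (i + 2 + b) * (i + 3 + b)
        / (i + 1 + a)) * MM a i)
        = 2 * ((i + 1 + b) * (i + 2 + b) * (i + 3 + b) / (i + 1 + a)) * MM a i := by
      field_simp
    rw [e2]
    refine mul_le_mul_of_nonneg_right ?_ hM.le
    rw [mul_div_assoc', le_div_iff₀ h2]
    have h3 : (i : ℝ) + 1 + a ≤ 2 * (i + 1 + b) := by rw [hb]; linarith
    have h4 : ((i : ℝ) + 1) ^ 2 ≤ (i + 2 + b) * (i + 3 + b) := by nlinarith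
    calc ((i : ℝ) + 1) ^ 2 * (i + 1 + a) ≤ (i + 2 + b) * (i + 3 + b) * (2 * (i + 1 + b)) := by
          gcongr
      _ = _ := by ring
  refine summable_of_sum_range_le (c := 2 / (a - b - 3) * (g 0 * MM a 0)) (fun i => ?_)
    fun n => ?_
  · have := MM_pos h.ha i
    positivity
  · calc ∑ i ∈ range n, ((i : ℝ) + 1) ^ 2 * MM a i
        ≤ ∑ i ∈ range n, 2 / (a - b - 3) * (g i * MM a i - g (i + 1) * MM a (i + 1)) :=
          Finset.sum_le_sum fun i _ => key i
      _ = 2 / (a - b - 3) * (g 0 * MM a 0 - g n * MM a n) := by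
          rw [← Finset.mul_sum, Finset.sum_range_sub']
      _ ≤ _ := by
          have h5 : 0 < MM a n := MM_pos h.ha n
          have h6 : 0 < g n := by
            have : (0 : ℝ) ≤ n := Nat.cast_nonneg n
            simp only [hg]; positivity
          have : 0 < 2 / (a - b - 3) := by positivity
          nlinarith [mul_pos h6 h5, mul_pos this (mul_pos h6 h5)]

lemma Sm.of_le {a L : ℝ} (h : Par a L) {c : ℕ → ℝ} {K : ℝ} (hc : ∀ i, |c i| ≤ K * MM a i) :
    Sm c := by
  refine Summable.of_nonneg_of_le (fun i => by positivity) (fun i => ?_)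
    (Summable.mul_left K (sm_MM h))
  have h5 : (0 : ℝ) ≤ ((i : ℝ) + 1) ^ 2 := by positivity
  nlinarith [mul_le_mul_of_nonneg_left (hc i) h5]

end Vale.Agent.P224.R2.H424
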