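import Vale.Agent.P224.R2.H869.Mom
import Vale.Agent.P224.R2.H484.Abs

/-!
The relative tail bound at level `T`, simple version: the product of the two normal coordinates
is bounded by `m` times one of them.
-/

namespace Vale.Agent.P224.R2.H424.Tls

open MeasureTheory Set Function Module Vale.Agent.P224 Vale.Agent.P224.SM2
  Vale.Agent.P224.R2.H869 Vale.Agent.P224.R2.H582 Vale.Agent.P224.R2.H484
open scoped RealInnerProductSpace

set_option linter.unusedSectionVars false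

variable {X : Type*} [MeasurableSpace X] {E : Type*} [NormedAddCommGroup E]
  [InnerProductSpace ℝ E] [MeasurableSpace E] [BorelSpace E] [SecondCountableTopology E]
  {μ : Measure X} [IsFiniteMeasure μ] {m q : ℕ} {p n z : X → E}

/-- the integral at a fixed second point -/
theorem fix_y (h : CV μ q p) (hq : 0 < q) {T : ℝ} (hT : T ∈ Ico (0 : ℝ) 1) {y : E}
    (hy : ‖y‖ = 1) {w b : E} (hw : ‖w‖ = 1) (j : ℕ) {θ : ℝ} (hθ : 0 < θ) :
    √(1 - T ^ 2) ^ q * ∫ x, ((1 - T * ⟪p x, y⟫) ^ q)⁻¹ *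
        ((√(1 - T ^ 2) * ⟪b, p x⟫ / (1 - T * ⟪p x, y⟫)) ^ 2 * |⟪w, mob T y (p x)⟫| ^ j) ∂μ
      ≤ μ.real univ * ((‖b‖ ^ 2 + T ^ 2 / (1 - T ^ 2) * ⟪b, y⟫ ^ 2)
          * (Mo q (j + 2) + θ * Mo q (j + 1))
        + T ^ 2 / (1 - T ^ 2) * ⟪b, y⟫ ^ 2 * (Mo q j + Mo q (j + 1) / θ)) := by
  have hk := k_pos hT
  have hs := Real.sqrt_pos.2 hk
  have hs2 : √(1 - T ^ 2) * √(1 - T ^ 2) = 1 - T ^ 2 := Real.mul_self_sqrt hk.le
  set bb := (b - ⟪b, y⟫ • y) + (⟪b, y⟫ / √(1 - T ^ 2)) • y with hbb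
  set sh := T * ⟪b, y⟫ / √(1 - T ^ 2) with hsh
  have hbn : ‖bb‖ ^ 2 = ‖b‖ ^ 2 + T ^ 2 / (1 - T ^ 2) * ⟪b, y⟫ ^ 2 := norm_affine_sq hT hy b
  have hshn : sh ^ 2 = T ^ 2 / (1 - T ^ 2) * ⟪b, y⟫ ^ 2 := by
    rw [hsh, div_pow, mul_pow, sq √(1 - T ^ 2), hs2]
    ring
  have mM : Measurable fun x => mob T y (p x) := measurable_mob h.mp T y
  have m1 : Measurable fun x => |⟪bb, mob T y (p x)⟫| := by fun_prop
  have m2 : Measurable fun x => |⟪w, mob T y (p x)⟫| := by fun_prop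
  have b1 : ∀ x, |⟪bb, mob T y (p x)⟫| ≤ ‖bb‖ := fun x => abs_inner_mob_le hT (h.np x) hy bb
  have b2 : ∀ x, |⟪w, mob T y (p x)⟫| ≤ 1 := fun x => by
    have := abs_inner_mob_le hT (h.np x) hy w
    rwa [hw] at this
  have c2 : ∀ x, |⟪w, mob T y (p x)⟫| ^ j ≤ 1 := fun x => pow_le_one₀ (abs_nonneg _) (b2 x)
  have i0 : Integrable (fun x => ((1 - T * ⟪p x, y⟫) ^ q)⁻¹ * |⟪w, mob T y (p x)⟫| ^ j) μ :=
    int_mom h hT hy (m2.pow_const j) (C := 1) fun x => by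
      rw [abs_of_nonneg (by positivity)]
      exact c2 x
  have i1 : Integrable (fun x => ((1 - T * ⟪p x, y⟫) ^ q)⁻¹ *
      (|⟪bb, mob T y (p x)⟫| ^ 1 * |⟪w, mob T y (p x)⟫| ^ j)) μ :=
    int_mom h hT hy ((m1.pow_const 1).mul (m2.pow_const j)) (C := ‖bb‖ ^ 1) fun x => by
      rw [abs_of_nonneg (by positivity)]
      calc _ ≤ ‖bb‖ ^ 1 * 1 := mul_le_mul (pow_le_pow_left₀ (abs_nonneg _) (b1 x) 1) (c2 x)
            (by positivity) (by positivity)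
        _ = _ := mul_one _
  have i2 : Integrable (fun x => ((1 - T * ⟪p x, y⟫) ^ q)⁻¹ *
      (|⟪bb, mob T y (p x)⟫| ^ 2 * |⟪w, mob T y (p x)⟫| ^ j)) μ :=
    int_mom h hT hy ((m1.pow_const 2).mul (m2.pow_const j)) (C := ‖bb‖ ^ 2) fun x => by
      rw [abs_of_nonneg (by positivity)]
      calc _ ≤ ‖bb‖ ^ 2 * 1 := mul_le_mul (pow_le_pow_left₀ (abs_nonneg _) (b1 x) 2) (c2 x)
            (by positivity) (by positivity)
        _ = _ := mul_one _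
  have key : ∫ x, ((1 - T * ⟪p x, y⟫) ^ q)⁻¹ *
        ((√(1 - T ^ 2) * ⟪b, p x⟫ / (1 - T * ⟪p x, y⟫)) ^ 2 * |⟪w, mob T y (p x)⟫| ^ j) ∂μ
      ≤ ∫ x, (((1 - T * ⟪p x, y⟫) ^ q)⁻¹ *
          (|⟪bb, mob T y (p x)⟫| ^ 2 * |⟪w, mob T y (p x)⟫| ^ j)
        + 2 * |sh| * (((1 - T * ⟪p x, y⟫) ^ q)⁻¹ *
          (|⟪bb, mob T y (p x)⟫| ^ 1 * |⟪w, mob T y (p x)⟫| ^ j))
        + sh ^ 2 * (((1 - T * ⟪p x, y⟫) ^ q)⁻¹ * |⟪w, mob T y (p x)⟫| ^ j)) ∂μ := by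
    refine integral_mono_of_nonneg ?_ ((i2.add (i1.const_mul _)).add (i0.const_mul _)) ?_
    · refine Filter.Eventually.of_forall fun x => ?_
      have := v_pos hT (h.np x) hy
      positivity
    · refine Filter.Eventually.of_forall fun x => ?_
      have hv := v_pos hT (h.np x) hy
      simp only
      rw [inner_affine hT (h.np x) hy b, ← hbb, ← hsh]
      have h1 : (⟪bb, mob T y (p x)⟫ + sh) ^ 2
          ≤ |⟪bb, mob T y (p x)⟫| ^ 2 + 2 * |sh| * |⟪bb, mob T y (p x)⟫| + sh ^ 2 := by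
        have h2 := le_abs_self (⟪bb, mob T y (p x)⟫ * sh)
        rw [abs_mul] at h2
        rw [sq_abs]
        nlinarith
      have h3 : 0 ≤ ((1 - T * ⟪p x, y⟫) ^ q)⁻¹ * |⟪w, mob T y (p x)⟫| ^ j := by positivity
      have h4 := mul_le_mul_of_nonneg_left h1 h3
      nlinarith
  have i21 : Integrable (fun x => ((1 - T * ⟪p x, y⟫) ^ q)⁻¹ *
          (|⟪bb, mob T y (p x)⟫| ^ 2 * |⟪w, mob T y (p x)⟫| ^ j)
        + 2 * |sh| * (((1 - T * ⟪p x, y⟫) ^ q)⁻¹ *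
          (|⟪bb, mob T y (p x)⟫| ^ 1 * |⟪w, mob T y (p x)⟫| ^ j))) μ := i2.add (i1.const_mul _)
  rw [integral_add i21 (i0.const_mul _),
    integral_add i2 (i1.const_mul _), integral_const_mul, integral_const_mul] at key
  have e0 := mom_one h hq hT hy w j
  have e1 := mom_two h hq hT hy bb w 1 j
  have e2 := mom_two h hq hT hy bb w 2 j
  rw [hw, one_pow, one_mul] at e0
  rw [hw, one_pow, mul_one, pow_one, add_comm 1 j] at e1
  rw [hw, one_pow, mul_one, add_comm 2 j] at e2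
  have hsq : 0 ≤ √(1 - T ^ 2) ^ q := by positivity
  have hA : 0 ≤ μ.real univ := measureReal_nonneg
  have k1 := mul_le_mul_of_nonneg_left key hsq
  refine k1.trans ?_
  have f0 := mul_le_mul_of_nonneg_left e0 (sq_nonneg sh)
  have f1 := mul_le_mul_of_nonneg_left e1 (show 0 ≤ 2 * |sh| by positivity)
  have hM1 := Mo_nonneg q (j + 1)
  have h5 : 2 * |sh| * ‖bb‖ ≤ θ * ‖bb‖ ^ 2 + sh ^ 2 / θ := by
    have h6 : 0 ≤ (θ * ‖bb‖ - |sh|) ^ 2 / θ := by positivity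
    have h7 : (θ * ‖bb‖ - |sh|) ^ 2 / θ = θ * ‖bb‖ ^ 2 + sh ^ 2 / θ - 2 * |sh| * ‖bb‖ := by
      rw [← sq_abs sh]
      field_simp
      ring
    linarith
  have f2 := mul_le_mul_of_nonneg_left h5 (mul_nonneg hA hM1)
  rw [← hbn, ← hshn]
  simp only [pow_one] at f1 ⊢
  have e3 : μ.real univ * (‖bb‖ ^ 2 * (Mo q (j + 2) + θ * Mo q (j + 1))
      + sh ^ 2 * (Mo q j + Mo q (j + 1) / θ))
      = μ.real univ * (‖bb‖ ^ 2 * Mo q (j + 2)) + μ.real univ * Mo q (j + 1)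
        * (θ * ‖bb‖ ^ 2 + sh ^ 2 / θ) + sh ^ 2 * (μ.real univ * Mo q j) := by
    field_simp
    ring
  rw [e3]
  linarith

/-- the pointwise bound -/
lemma alg_pt {m : ℕ} (hm : 1 ≤ m) {K κ v Z1 Z2 P t l c : ℝ} {j : ℕ} (hv : 0 < v) (hκ : κ ^ 2 = K)
    (hK : 0 < K) (hP : P - t = Z1 - Z2) (a1 : |κ * t / v| ≤ 1) (a2 : |κ * P / v| ≤ 1)
    (hc0 : 0 ≤ c) (hc : ∀ t ∈ Icc (0 : ℝ) 1, m * t - l ≤ c * t ^ j) :
    (v ^ (m + 1))⁻¹ * (P - t) ^ 2 * max (-(m * K * (P * t) / v ^ 2) - l) 0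
      ≤ 2 * c / K * ((v ^ (m - 1))⁻¹ * ((κ * Z2 / v) ^ 2 * |κ * t / v| ^ j)
        + (v ^ (m - 1))⁻¹ * ((κ * Z1 / v) ^ 2 * |κ * P / v| ^ j)) := by
  have hab : (m : ℝ) * K * (P * t) / v ^ 2 = m * ((κ * t / v) * (κ * P / v)) := by
    rw [← hκ]
    field_simp
  have hX : (v ^ (m + 1))⁻¹ * (P - t) ^ 2
      = (v ^ (m - 1))⁻¹ / K * (κ * Z1 / v - κ * Z2 / v) ^ 2 := by
    obtain ⟨q, rfl⟩ : ∃ q, m = q + 1 := ⟨m - 1, by omega⟩
    simp only [Nat.add_sub_cancel]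
    have hκ0 : κ ^ 2 ≠ 0 := by rw [hκ]; exact hK.ne'
    have hκ1 : κ ≠ 0 := fun h => hκ0 (by rw [h]; ring)
    rw [hP, ← hκ]
    field_simp
    ring
  rw [hab, hX]
  set a := κ * t / v with ha
  set b := κ * P / v with hb
  set u := κ * Z1 / v with hu
  set w := κ * Z2 / v with hw
  have hm0 : (0 : ℝ) ≤ m := Nat.cast_nonneg m
  have hM1 : max (-(m * (a * b)) - l) 0 ≤ c * |a| ^ j := by
    refine max_le ((?_ : -(m * (a * b)) - l ≤ m * |a| - l).trans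
      (hc |a| ⟨abs_nonneg _, a1⟩)) (by positivity)
    have h3 : -(a * b) ≤ |a| := by
      have h4 := neg_abs_le (a * b)
      rw [abs_mul] at h4
      nlinarith [abs_nonneg a]
    nlinarith
  have hM2 : max (-(m * (a * b)) - l) 0 ≤ c * |b| ^ j := by
    refine max_le ((?_ : -(m * (a * b)) - l ≤ m * |b| - l).trans
      (hc |b| ⟨abs_nonneg _, a2⟩)) (by positivity)
    have h3 : -(a * b) ≤ |b| := by
      have h4 := neg_abs_le (a * b)
      rw [abs_mul] at h4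
      nlinarith [abs_nonneg b]
    nlinarith
  have hM0 : 0 ≤ max (-(m * (a * b)) - l) 0 := le_max_right _ _
  generalize max (-(m * (a * b)) - l) 0 = M at hM0 hM1 hM2 ⊢
  have hc1 : 0 ≤ (v ^ (m - 1))⁻¹ / K := by positivity
  have h3 : (u - w) ^ 2 * M ≤ 2 * u ^ 2 * (c * |b| ^ j) + 2 * w ^ 2 * (c * |a| ^ j) := by
    have h4 : (u - w) ^ 2 ≤ 2 * u ^ 2 + 2 * w ^ 2 := by nlinarith [sq_nonneg (u + w)]
    calc (u - w) ^ 2 * M ≤ (2 * u ^ 2 + 2 * w ^ 2) * M := mul_le_mul_of_nonneg_right h4 hM0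
      _ = 2 * u ^ 2 * M + 2 * w ^ 2 * M := by ring
      _ ≤ _ := add_le_add (mul_le_mul_of_nonneg_left hM2 (by positivity))
          (mul_le_mul_of_nonneg_left hM1 (by positivity))
  have h8 := mul_le_mul_of_nonneg_left h3 hc1
  refine le_trans (le_of_eq ?_) (h8.trans (le_of_eq ?_))
  · ring
  · ring

/-- the relative tail bound at level `T` -/
theorem E2_TK_rel [Nontrivial E] (h2 : Two μ m p n) (h1 : MinRow μ m p n) (hm : 2 ≤ m) {T l : ℝ}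
    (hT : T ∈ Ico (0 : ℝ) 1) {j : ℕ} {c θ C : ℝ} (hc0 : 0 ≤ c)
    (hc : ∀ t ∈ Icc (0 : ℝ) 1, m * t - l ≤ c * t ^ j) (hθ : 0 < θ) (hz : Measurable z)
    (hzC : ∀ x, ‖z x‖ ≤ C)
    (hzp : ∀ x y, ⟪n x, p y⟫ - ⟪p x, n y⟫ = ⟪z x, p y⟫ - ⟪p x, z y⟫) :
    √(1 - T ^ 2) ^ (m + 1) * E2 μ p n (TK m T l)
      ≤ μ.real univ * (4 * c * ((∫ x, ‖z x‖ ^ 2 ∂μ + T ^ 2 / (1 - T ^ 2) * ∫ x, ⟪z x, p x⟫ ^ 2 ∂μ)
          * (Mo (m - 1) (j + 2) + θ * Mo (m - 1) (j + 1))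
        + T ^ 2 / (1 - T ^ 2) * (∫ x, ⟪z x, p x⟫ ^ 2 ∂μ)
          * (Mo (m - 1) j + Mo (m - 1) (j + 1) / θ))) := by
  have hcv : CV μ (m - 1) p := by
    obtain ⟨q, rfl⟩ : ∃ q, m = q + 1 := ⟨m - 1, by omega⟩
    exact cv_pred_of_min h1
  have hk := k_pos hT
  have hs := Real.sqrt_pos.2 hk
  have hs2 : √(1 - T ^ 2) * √(1 - T ^ 2) = 1 - T ^ 2 := Real.mul_self_sqrt hk.le
  have hA : 0 ≤ μ.real univ := measureReal_nonneg
  have mp := h2.mp
  have mn := h2.mn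
  have hT1 : 0 < 1 - T := by linarith [hT.2]
  set f : X × X → ℝ := fun r => ((1 - T * ⟪p r.1, p r.2⟫) ^ (m - 1))⁻¹ *
    ((√(1 - T ^ 2) * ⟪z r.2, p r.1⟫ / (1 - T * ⟪p r.1, p r.2⟫)) ^ 2 *
      |√(1 - T ^ 2) * ⟪n r.2, p r.1⟫ / (1 - T * ⟪p r.1, p r.2⟫)| ^ j) with hf
  have mf : Measurable f := by
    rw [hf]
    fun_prop
  have hv : ∀ r : X × X, 0 < 1 - T * ⟪p r.1, p r.2⟫ := fun r => v_pos hT (h2.np _) (h2.np _)
  have f0 : ∀ r, 0 ≤ f r := fun r => by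
    have := hv r
    rw [hf]
    positivity
  have hnp : ∀ x y, √(1 - T ^ 2) * ⟪n y, p x⟫ / (1 - T * ⟪p x, p y⟫)
      = ⟪n y, mob T (p y) (p x)⟫ := fun x y => by
    rw [inner_mob_perp hT (h2.np x) (h2.np y) (by rw [real_inner_comm]; exact h2.pn y)]
  have hnp1 : ∀ x y, |√(1 - T ^ 2) * ⟪n y, p x⟫ / (1 - T * ⟪p x, p y⟫)| ≤ 1 := fun x y => by
    rw [hnp]
    have := abs_inner_mob_le hT (h2.np x) (h2.np y) (n y)
    rwa [h2.nn] at this
  have hC : ∀ x, 0 ≤ C := fun x => (norm_nonneg _).trans (hzC x)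
  have if0 : Integrable f (μ.prod μ) := by
    refine Integrable.of_bound mf.aestronglyMeasurable
      (((1 - T) ^ (m - 1))⁻¹ * ((C / (1 - T)) ^ 2 * 1)) (Filter.Eventually.of_forall fun r => ?_)
    rw [Real.norm_eq_abs, abs_of_nonneg (f0 r), hf]
    simp only
    have hvr := hv r
    have h3 : 1 - T ≤ 1 - T * ⟪p r.1, p r.2⟫ := by
      have h4 := (abs_le.1 (abs_real_inner_le_norm (p r.1) (p r.2))).2
      rw [h2.np, h2.np, one_mul] at h4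
      have := mul_le_mul_of_nonneg_left h4 hT.1
      linarith
    have h5 : √(1 - T ^ 2) ≤ 1 := by
      rw [Real.sqrt_le_one]
      nlinarith [sq_nonneg T]
    have h6 : |√(1 - T ^ 2) * ⟪z r.2, p r.1⟫ / (1 - T * ⟪p r.1, p r.2⟫)| ≤ C / (1 - T) := by
      rw [abs_div, abs_mul, abs_of_pos hvr, abs_of_pos hs]
      refine div_le_div₀ (hC r.1) ?_ hT1 h3
      have h7 := abs_real_inner_le_norm (z r.2) (p r.1)
      rw [h2.np, mul_one] at h7
      calc √(1 - T ^ 2) * |⟪z r.2, p r.1⟫| ≤ 1 * C :=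
            mul_le_mul h5 (h7.trans (hzC _)) (abs_nonneg _) zero_le_one
        _ = C := one_mul C
    refine mul_le_mul ?_ (mul_le_mul ?_ ?_ (by positivity) (by positivity)) (by positivity)
      (by positivity)
    · exact inv_anti₀ (pow_pos hT1 _) (pow_le_pow_left₀ hT1.le h3 _)
    · rw [← sq_abs]
      exact pow_le_pow_left₀ (abs_nonneg _) h6 2
    · exact pow_le_one₀ (abs_nonneg _) (hnp1 _ _)
  have isw : Integrable (fun r : X × X => f r.swap) (μ.prod μ) := if0.swap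
  -- the integral of f
  set Ψ := (∫ x, ‖z x‖ ^ 2 ∂μ + T ^ 2 / (1 - T ^ 2) * ∫ x, ⟪z x, p x⟫ ^ 2 ∂μ)
          * (Mo (m - 1) (j + 2) + θ * Mo (m - 1) (j + 1))
        + T ^ 2 / (1 - T ^ 2) * (∫ x, ⟪z x, p x⟫ ^ 2 ∂μ)
          * (Mo (m - 1) j + Mo (m - 1) (j + 1) / θ) with hΨ
  have mz2 : Integrable (fun x => ‖z x‖ ^ 2) μ := by
    refine Integrable.of_bound (by fun_prop) (C ^ 2) (Filter.Eventually.of_forall fun x => ?_)
    rw [Real.norm_eq_abs, abs_of_nonneg (by positivity)]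
    exact pow_le_pow_left₀ (norm_nonneg _) (hzC x) 2
  have mf2 : Integrable (fun x => ⟪z x, p x⟫ ^ 2) μ := by
    refine Integrable.of_bound (by fun_prop) (C ^ 2) (Filter.Eventually.of_forall fun x => ?_)
    rw [Real.norm_eq_abs, abs_of_nonneg (by positivity), ← sq_abs]
    have h7 := abs_real_inner_le_norm (z x) (p x)
    rw [h2.np, mul_one] at h7
    exact pow_le_pow_left₀ (abs_nonneg _) (h7.trans (hzC x)) 2
  have b1 : √(1 - T ^ 2) ^ (m - 1) * ∫ r, f r ∂(μ.prod μ) ≤ μ.real univ * Ψ := by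
    rw [integral_prod_symm _ if0, ← integral_const_mul]
    set A0 := Mo (m - 1) (j + 2) + θ * Mo (m - 1) (j + 1) with hA0
    set A1 := T ^ 2 / (1 - T ^ 2) * (A0 + (Mo (m - 1) j + Mo (m - 1) (j + 1) / θ)) with hA1
    have hb : ∀ y, √(1 - T ^ 2) ^ (m - 1) * ∫ x, f (x, y) ∂μ
        ≤ μ.real univ * (A0 * ‖z y‖ ^ 2 + A1 * ⟪z y, p y⟫ ^ 2) := by
      intro y
      refine (le_of_eq ?_).trans ((fix_y hcv (by omega) hT (y := p y) (w := n y) (b := z y)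
        (h2.np y) (h2.nn y) j hθ).trans (le_of_eq ?_))
      · congr 1
        refine integral_congr_ae (Filter.Eventually.of_forall fun x => ?_)
        simp only [hf]
        rw [hnp]
      · rw [← hA0, hA1]
        ring
    have iR : Integrable (fun y => μ.real univ * (A0 * ‖z y‖ ^ 2 + A1 * ⟪z y, p y⟫ ^ 2)) μ :=
      ((mz2.const_mul _).add (mf2.const_mul _)).const_mul _
    refine (integral_mono_of_nonneg ?_ iR (Filter.Eventually.of_forall hb)).trans (le_of_eq ?_)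
    · exact Filter.Eventually.of_forall fun y => mul_nonneg (by positivity)
        (integral_nonneg fun x => f0 _)
    · rw [integral_const_mul, integral_add (mz2.const_mul _) (mf2.const_mul _),
        integral_const_mul, integral_const_mul, hΨ, hA1]
      ring
  have b2 : E2 μ p n (TK m T l) ≤ 2 * c / (1 - T ^ 2) * (2 * ∫ r, f r ∂(μ.prod μ)) := by
    have e1 : 2 * ∫ r, f r ∂(μ.prod μ) = ∫ r, (f r + f r.swap) ∂(μ.prod μ) := by
      rw [integral_add if0 isw, integral_prod_swap]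
      ring
    rw [e1, ← integral_const_mul]
    unfold E2
    refine integral_mono (int_E2 h2 (measurable_TK m T l) (contOn_TK hT m l))
      ((if0.add isw).const_mul _) fun r => ?_
    obtain ⟨x, y⟩ := r
    have hvr := hv (x, y)
    have a1 := hnp1 x y
    have a2 := hnp1 y x
    simp only [Prod.swap, hf]
    simp only at hvr
    have es : ⟪p y, p x⟫ = ⟪p x, p y⟫ := real_inner_comm _ _
    rw [es] at a2 ⊢
    unfold TK Yk Xk SM2.pr ker
    simp only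
    have e5 : ⟪p x, n y⟫ = ⟪n y, p x⟫ := real_inner_comm _ _
    have e6 : ⟪p x, z y⟫ = ⟪z y, p x⟫ := real_inner_comm _ _
    have hp := hzp x y
    rw [e5, e6] at hp
    rw [e5]
    exact alg_pt (by omega) hvr (by rw [sq, hs2]) hk hp a1 a2 hc0 hc
  obtain ⟨q, rfl⟩ : ∃ q, m = q + 1 := ⟨m - 1, by omega⟩
  simp only [Nat.add_sub_cancel] at b1 ⊢
  have e : √(1 - T ^ 2) ^ (q + 1 + 1) = √(1 - T ^ 2) ^ q * (1 - T ^ 2) := by
    rw [pow_succ, pow_succ, mul_assoc, hs2]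
  rw [e]
  have h6 := mul_le_mul_of_nonneg_left b2
    (by positivity : (0 : ℝ) ≤ √(1 - T ^ 2) ^ q * (1 - T ^ 2))
  have e2 : √(1 - T ^ 2) ^ q * (1 - T ^ 2) * (2 * c / (1 - T ^ 2) * (2 * ∫ r, f r ∂(μ.prod μ)))
      = 4 * c * (√(1 - T ^ 2) ^ q * ∫ r, f r ∂(μ.prod μ)) := by
    field_simp
    ring
  rw [e2] at h6
  have h7 := mul_le_mul_of_nonneg_left b1 (show 0 ≤ 4 * c by positivity)
  refine h6.trans (h7.trans (le_of_eq ?_))
  rw [hΨ]
  simp only [Nat.add_sub_cancel]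
  ring

end Vale.Agent.P224.R2.H424.Tls
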