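import Vale.Agent.P224.R2.H424.Tls3
import Vale.Agent.P224.R2.H484.AbsH

/-!
The relative tail bound, simple version, over a general rational grid.
-/

namespace Vale.Agent.P224.R2.H424.Tls

open MeasureTheory Set Filter Function Real Module Vale.Agent.P224 Vale.Agent.P224.SM2
  Vale.Agent.P224.R2.H820 Vale.Agent.P224.R2.H869 Vale.Agent.P224.R2.H582
  Vale.Agent.P224.R2.H484 Vale.Agent.P224.R2.H627
open scoped RealInnerProductSpace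

set_option linter.unusedSectionVars false

/-- rounding up -/
def ru (x : ℚ) : ℚ := (⌈x * 1000000000000⌉ : ℤ) / 1000000000000

lemma le_ru (x : ℚ) : x ≤ ru x := by
  unfold ru
  rw [le_div_iff₀ (by norm_num)]
  exact Int.le_ceil _

/-- the value of a cell without the weight -/
def cellV (m j : ℕ) (φ l t k θ M0 M1 M2 : ℚ) : ℚ :=
  4 * m * CQ m j l * ((1 + φ * (t ^ 2 / k ^ 2)) * (M2 + θ * M1)
    + φ * (t ^ 2 / k ^ 2) * (M0 + M1 / θ))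

/-- the rational value -/
def relG (N : ℕ) (t k w lc th : ℕ → ℚ) (m j : ℕ) (φ M0 M1 M2 : ℚ) : ℚ :=
  cMQ m * sumQ (fun c => ru (w c *
    cellV m j φ (lc c) (t (c + 1)) (k (c + 1)) (th c) M0 M1 M2)) N

/-- the check -/
def relOKg (N : ℕ) (t k w lc th : ℕ → ℚ) (m j : ℕ) (φ M0 M1 M2 ε : ℚ) : Bool :=
  decide (2 ≤ j) && decide (0 ≤ φ) && decide (0 ≤ M0) && decide (0 ≤ M1) && decide (0 ≤ M2)
    && decide (4 * (j : ℚ) ^ j * ((m - 1 : ℕ) : ℚ) ^ (m - 1)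
        ≤ M0 ^ 2 * (((m - 1 : ℕ) : ℚ) + j) ^ (m - 1 + j))
    && decide (4 * ((j + 1 : ℕ) : ℚ) ^ (j + 1) * ((m - 1 : ℕ) : ℚ) ^ (m - 1)
        ≤ M1 ^ 2 * (((m - 1 : ℕ) : ℚ) + ((j + 1 : ℕ) : ℚ)) ^ (m - 1 + (j + 1)))
    && decide (4 * ((j + 2 : ℕ) : ℚ) ^ (j + 2) * ((m - 1 : ℕ) : ℚ) ^ (m - 1)
        ≤ M2 ^ 2 * (((m - 1 : ℕ) : ℚ) + ((j + 2 : ℕ) : ℚ)) ^ (m - 1 + (j + 2)))
    && (List.range N).all (fun c => decide (0 < lc c) && decide (0 < th c)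
        && (decide ((m : ℚ) ≤ lc c) || decide (0 < k (c + 1))))
    && decide (relG N t k w lc th m j φ M0 M1 M2 ≤ ε)

variable {X : Type*} [MeasurableSpace X] {E : Type*} [NormedAddCommGroup E]
  [InnerProductSpace ℝ E] [MeasurableSpace E] [BorelSpace E] [SecondCountableTopology E]
  {μ : Measure X} [IsFiniteMeasure μ] {m q : ℕ} {p n z : X → E}

/-- the level bound with rational data -/
theorem lev_rel [Nontrivial E] (hm : 2 ≤ m) (h2 : Two μ m p n) (h1 : MinRow μ m p n)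
    {C0 : ℝ} (hz : Measurable z) (hzC : ∀ x, ‖z x‖ ≤ C0)
    (hzp : ∀ x y, ⟪n x, p y⟫ - ⟪p x, n y⟫ = ⟪z x, p y⟫ - ⟪p x, z y⟫)
    {φ : ℝ} (hφ : 0 ≤ φ) (hF : ∫ x, ⟪z x, p x⟫ ^ 2 ∂μ ≤ φ * ∫ x, ‖z x‖ ^ 2 ∂μ)
    {j : ℕ} {l θ C T b κ : ℝ} (hθ : 0 < θ) (hC0 : 0 ≤ C) (hT : T ∈ Ioo (0 : ℝ) 1)
    (hC : ∀ t ∈ Icc (0 : ℝ) 1, m * t - l ≤ C * t ^ j) (hb : T ≤ b) (hκ : 0 < κ)
    (hκ1 : κ ^ 2 ≤ 1 - T ^ 2) :
    √(1 - T ^ 2) ^ (m + 1) * E2 μ p n (TK m T l)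
      ≤ μ.real univ * (4 * C * ((1 + φ * (b ^ 2 / κ ^ 2))
        * (Mo (m - 1) (j + 2) + θ * Mo (m - 1) (j + 1))
      + φ * (b ^ 2 / κ ^ 2) * (Mo (m - 1) j + Mo (m - 1) (j + 1) / θ)) * ∫ x, ‖z x‖ ^ 2 ∂μ) := by
  set A := μ.real univ with hAd
  have hA : 0 ≤ A := measureReal_nonneg
  set H := ∫ x, ‖z x‖ ^ 2 ∂μ with hH
  have hH0 : 0 ≤ H := integral_nonneg fun x => by positivity
  have hM0 := Mo_nonneg (m - 1) j
  have hM1 := Mo_nonneg (m - 1) (j + 1)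
  have hM2 := Mo_nonneg (m - 1) (j + 2)
  have hk : 0 < 1 - T ^ 2 := by nlinarith [hT.1, hT.2]
  have h5 := E2_TK_rel (l := l) h2 h1 hm ⟨hT.1.le, hT.2⟩ hC0 hC hθ hz hzC hzp
  rw [← hH] at h5
  have h6 : T ^ 2 / (1 - T ^ 2) ≤ b ^ 2 / κ ^ 2 := by
    have h7 : T ^ 2 ≤ b ^ 2 := pow_le_pow_left₀ hT.1.le hb 2
    exact div_le_div₀ (by positivity) h7 (by positivity) hκ1
  have hFn : 0 ≤ ∫ x, ⟪z x, p x⟫ ^ 2 ∂μ := integral_nonneg fun x => by positivity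
  have h9 : T ^ 2 / (1 - T ^ 2) * ∫ x, ⟪z x, p x⟫ ^ 2 ∂μ ≤ φ * (b ^ 2 / κ ^ 2) * H := by
    calc T ^ 2 / (1 - T ^ 2) * ∫ x, ⟪z x, p x⟫ ^ 2 ∂μ
        ≤ b ^ 2 / κ ^ 2 * (φ * H) := mul_le_mul h6 hF hFn (by positivity)
      _ = _ := by ring
  have hP : 0 ≤ Mo (m - 1) (j + 2) + θ * Mo (m - 1) (j + 1) := by positivity
  have hR : 0 ≤ Mo (m - 1) j + Mo (m - 1) (j + 1) / θ := by positivity
  have k1 := mul_le_mul_of_nonneg_right h9 hP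
  have k2 := mul_le_mul_of_nonneg_right h9 hR
  have k3 : (H + T ^ 2 / (1 - T ^ 2) * ∫ x, ⟪z x, p x⟫ ^ 2 ∂μ)
        * (Mo (m - 1) (j + 2) + θ * Mo (m - 1) (j + 1))
      + T ^ 2 / (1 - T ^ 2) * (∫ x, ⟪z x, p x⟫ ^ 2 ∂μ)
        * (Mo (m - 1) j + Mo (m - 1) (j + 1) / θ)
      ≤ H * ((1 + φ * (b ^ 2 / κ ^ 2))
        * (Mo (m - 1) (j + 2) + θ * Mo (m - 1) (j + 1))
      + φ * (b ^ 2 / κ ^ 2) * (Mo (m - 1) j + Mo (m - 1) (j + 1) / θ)) := by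
    nlinarith
  have k4 := mul_le_mul_of_nonneg_left k3 (show 0 ≤ A * (4 * C) by positivity)
  refine le_trans (h5.trans (le_of_eq ?_)) (k4.trans (le_of_eq ?_))
  · ring
  · ring

/-- the relative tail over a grid -/
theorem rel_grd [Nontrivial E] {N j : ℕ} {t k w lc th : ℕ → ℚ} (g : Grd N t k w)
    {φ M0 M1 M2 ε : ℚ} (hok : relOKg N t k w lc th m j φ M0 M1 M2 ε = true)
    (hm : 17 ≤ m) (h2 : Two μ m p n) (h1 : MinRow μ m p n)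
    {C0 : ℝ} (hz : Measurable z) (hzC : ∀ x, ‖z x‖ ≤ C0)
    (hzp : ∀ x y, ⟪n x, p y⟫ - ⟪p x, n y⟫ = ⟪z x, p y⟫ - ⟪p x, z y⟫)
    (hF : ∫ x, ⟪z x, p x⟫ ^ 2 ∂μ ≤ φ * ∫ x, ‖z x‖ ^ 2 ∂μ) {l : ℝ → ℝ}
    (hl : ∀ c < N, ∀ T ∈ Ioo (0 : ℝ) 1, ((t c : ℚ) : ℝ) < T → T ≤ t (c + 1) →
      ((lc c : ℚ) : ℝ) ≤ l T) :
    Tail μ m p n l (ε * ((∫ x, ‖z x‖ ^ 2 ∂μ) / μ.real univ)) := by
  unfold relOKg at hok
  simp only [Bool.and_eq_true, Bool.or_eq_true, decide_eq_true_eq, List.all_eq_true,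
    List.mem_range] at hok
  obtain ⟨⟨⟨⟨⟨⟨⟨⟨⟨hj, hφ⟩, hM0⟩, hM1⟩, hM2⟩, k0⟩, k1⟩, k2⟩, hlt⟩, hsum⟩ := hok
  have hm0 : (0 : ℝ) < m := by exact_mod_cast (by omega : 0 < m)
  have hφ' : (0 : ℝ) ≤ φ := by exact_mod_cast hφ
  have b0 : Mo (m - 1) j ≤ (M0 : ℝ) := Mo_le_of (by omega) hM0 k0
  have b1 : Mo (m - 1) (j + 1) ≤ (M1 : ℝ) := Mo_le_of (by omega) hM1 k1
  have b2 : Mo (m - 1) (j + 2) ≤ (M2 : ℝ) := Mo_le_of (by omega) hM2 k2
  have n0 := Mo_nonneg (m - 1) j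
  have n1 := Mo_nonneg (m - 1) (j + 1)
  have n2 := Mo_nonneg (m - 1) (j + 2)
  set A := μ.real univ with hAd
  have hA : 0 ≤ A := measureReal_nonneg
  set H := ∫ x, ‖z x‖ ^ 2 ∂μ with hH
  have hH0 : 0 ≤ H := integral_nonneg fun x => by positivity
  set V : ℕ → ℝ := fun c => ((cellV m j φ (lc c) (t (c + 1)) (k (c + 1)) (th c) M0 M1 M2 : ℚ) : ℝ)
    with hV
  have hCn : ∀ c < N, (0 : ℝ) ≤ (CQ m j (lc c) : ℚ) := fun c hc => by
    exact_mod_cast CQ_nonneg (by omega) (hlt c hc).1.1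
  have hθ : ∀ c < N, (0 : ℝ) < (th c : ℚ) := fun c hc => by exact_mod_cast (hlt c hc).1.2
  have M0' : (0 : ℝ) ≤ M0 := n0.trans b0
  have M1' : (0 : ℝ) ≤ M1 := n1.trans b1
  have M2' : (0 : ℝ) ≤ M2 := n2.trans b2
  have hV0 : ∀ c < N, 0 ≤ V c := by
    intro c hc
    have := hCn c hc
    have := hθ c hc
    rw [hV]
    unfold cellV
    push_cast
    positivity
  have hlev : ∀ c < N, ∀ T ∈ Ioo (0 : ℝ) 1, ((t c : ℚ) : ℝ) < T → T ≤ t (c + 1) →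
      √(1 - T ^ 2) ^ (m + 1) * E2 μ p n (TK m T (l T)) ≤ A ^ 2 * (V c * (H / A) / m) := by
    intro c hc T hT t1 t2
    have hT' : T ∈ Ico (0 : ℝ) 1 := ⟨hT.1.le, hT.2⟩
    have hk : 0 < 1 - T ^ 2 := by nlinarith [hT.1, hT.2]
    have hs := Real.sqrt_pos.2 hk
    have hlT := hl c hc T hT t1 t2
    have hV1 := hV0 c hc
    rcases hA.eq_or_lt with h0 | h0
    · have hz' : μ = 0 := by
        have := (measureReal_eq_zero_iff (measure_ne_top μ univ)).1 h0.symm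
        exact Measure.measure_univ_eq_zero.1 this
      have e0 : E2 μ p n (TK m T (l T)) = 0 := by
        unfold E2
        rw [hz']
        simp
      rw [e0, ← h0]
      simp
    · have e1 : A ^ 2 * (V c * (H / A) / m) = A * (V c / m * H) := by field_simp
      rcases (hlt c hc).2 with h3 | h3
      · have h5 : (m : ℝ) ≤ l T := le_trans (by exact_mod_cast h3) hlT
        rw [E2_TK_eq_zero h2 hT' h5, mul_zero]
        positivity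
      · have hκ : (0 : ℝ) < k (c + 1) := by exact_mod_cast h3
        have h6 := lev_rel (l := l T) (by omega) h2 h1 hz hzC hzp hφ' hF (hθ c hc) (hCn c hc) hT
          (fun t ht => CQ_spec hj (hlt c hc).1.1 hlT ht) t2 hκ (g.k_cell hc hT.2 t1 t2).1
        refine h6.trans ?_
        rw [e1]
        refine mul_le_mul_of_nonneg_left (mul_le_mul_of_nonneg_right ?_ hH0) hA
        have e2 : V c / m = 4 * ((CQ m j (lc c) : ℚ) : ℝ) * ((1 + φ * ((t (c + 1) : ℚ) ^ 2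
            / (k (c + 1) : ℚ) ^ 2)) * (M2 + (th c : ℚ) * M1)
          + φ * ((t (c + 1) : ℚ) ^ 2 / (k (c + 1) : ℚ) ^ 2) * (M0 + M1 / (th c : ℚ))) := by
          rw [hV]
          unfold cellV
          push_cast
          field_simp
        rw [e2]
        have := hCn c hc
        have := hθ c hc
        gcongr
  refine (g.tail hm (φ := fun c => V c * (H / A)) (fun c hc => ?_) hlev).mono ?_
  · have := hV0 c hc
    positivity
  · have h5 : cM m ≤ (cMQ m : ℚ) := cM_le (by omega) le_rfl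
    have e3 : ∑ c ∈ Finset.range N, ((w c : ℚ) : ℝ) * (V c * (H / A))
        = (∑ c ∈ Finset.range N, ((w c : ℚ) : ℝ) * V c) * (H / A) := by
      rw [Finset.sum_mul]
      exact Finset.sum_congr rfl fun c _ => by ring
    rw [e3, ← mul_assoc]
    refine mul_le_mul_of_nonneg_right ?_ (by positivity)
    have h6 : ∑ c ∈ Finset.range N, ((w c : ℚ) : ℝ) * V c
        ≤ ∑ c ∈ Finset.range N, ((ru (w c * cellV m j φ (lc c) (t (c + 1)) (k (c + 1)) (th c)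
          M0 M1 M2) : ℚ) : ℝ) := by
      refine Finset.sum_le_sum fun c _ => ?_
      have h7 := le_ru (w c * cellV m j φ (lc c) (t (c + 1)) (k (c + 1)) (th c) M0 M1 M2)
      have h7' := (Rat.cast_le (K := ℝ)).2 h7
      rw [Rat.cast_mul] at h7'
      exact h7'
    have h8 : (0 : ℝ) ≤ ∑ c ∈ Finset.range N, ((w c : ℚ) : ℝ) * V c :=
      Finset.sum_nonneg fun c hc => mul_nonneg
        (by exact_mod_cast g.w_nonneg c (Finset.mem_range.1 hc)) (hV0 c (Finset.mem_range.1 hc))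
    have h9 : ((relG N t k w lc th m j φ M0 M1 M2 : ℚ) : ℝ) ≤ (ε : ℝ) := by exact_mod_cast hsum
    unfold relG at h9
    rw [Rat.cast_mul, sumQ_cast] at h9
    refine le_trans (mul_le_mul h5 h6 h8 ((cM_nonneg m).trans h5)) h9

end Vale.Agent.P224.R2.H424.Tls
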