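import Vale.Agent.P224.R2.H424.Tls7

/-!
The relative tail for the thresholds `l0 (1 - T^10)` on `(0, t1)` and `max c1 (c2/(1-T^2))`
on `[t1, 1)`.
-/

namespace Vale.Agent.P224.R2.H424.Tls

open MeasureTheory Set Filter Function Real Module Vale.Agent.P224 Vale.Agent.P224.SM2
  Vale.Agent.P224.R2.H820 Vale.Agent.P224.R2.H869 Vale.Agent.P224.R2.H582
  Vale.Agent.P224.R2.H484 Vale.Agent.P224.R2.H627
open scoped RealInnerProductSpace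

set_option linter.unusedSectionVars false

/-- thresholds of the cells -/
def lcY (l0 t1 c1 c2 : ℚ) (c : ℕ) : ℚ :=
  if tR (c + 1) ≤ t1 then (⌊l0 * (1 - tR (c + 1) ^ 10) * 1000⌋ : ℤ) / 1000
  else if tR c < t1 then min ((⌊l0 * (1 - t1 ^ 10) * 1000⌋ : ℤ) / 1000) c1
  else lcG kR c1 c2 c

lemma lcY_le {l0 t1 c1 c2 : ℚ} (h0 : 0 ≤ l0) (ht : 0 ≤ t1) (h2 : 0 ≤ c2) {c : ℕ} (hc : c < 200)
    {l : ℝ → ℝ}
    (l1 : ∀ T ∈ Ioo (0 : ℝ) 1, T ≤ t1 → l0 * (1 - T ^ 10) ≤ l T)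
    (l2 : ∀ T ∈ Ioo (0 : ℝ) 1, t1 < T → c1 ≤ l T ∧ c2 / (1 - T ^ 2) ≤ l T)
    {T : ℝ} (hT : T ∈ Ioo (0 : ℝ) 1) (hT1 : ((tR c : ℚ) : ℝ) < T) (hT2 : T ≤ tR (c + 1)) :
    ((lcY l0 t1 c1 c2 c : ℚ) : ℝ) ≤ l T := by
  have h0' : (0 : ℝ) ≤ l0 := by exact_mod_cast h0
  have ht' : (0 : ℝ) ≤ t1 := by exact_mod_cast ht
  unfold lcY
  split_ifs with h1 h2'
  · have h1' : ((tR (c + 1) : ℚ) : ℝ) ≤ t1 := by exact_mod_cast h1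
    refine le_trans ?_ (l1 T hT (hT2.trans h1'))
    have h3 := Int.floor_le (l0 * (1 - tR (c + 1) ^ 10) * 1000)
    have h4 : ((⌊l0 * (1 - tR (c + 1) ^ 10) * 1000⌋ : ℤ) : ℚ) / 1000
        ≤ l0 * (1 - tR (c + 1) ^ 10) := by linarith
    have h5 : ((((⌊l0 * (1 - tR (c + 1) ^ 10) * 1000⌋ : ℤ) : ℚ) / 1000 : ℚ) : ℝ)
        ≤ ((l0 * (1 - tR (c + 1) ^ 10) : ℚ) : ℝ) := by exact_mod_cast h4
    refine h5.trans ?_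
    push_cast
    have h6 : T ^ 10 ≤ ((tR (c + 1) : ℚ) : ℝ) ^ 10 := pow_le_pow_left₀ hT.1.le hT2 10
    nlinarith
  · rcases le_or_gt T (t1 : ℝ) with h3 | h3
    · refine le_trans ?_ (l1 T hT h3)
      have h6 : T ^ 10 ≤ (t1 : ℝ) ^ 10 := pow_le_pow_left₀ hT.1.le h3 10
      have h7 := Int.floor_le (l0 * (1 - t1 ^ 10) * 1000)
      have h8 : min (((⌊l0 * (1 - t1 ^ 10) * 1000⌋ : ℤ) : ℚ) / 1000) c1
          ≤ l0 * (1 - t1 ^ 10) := (min_le_left _ _).trans (by linarith)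
      have h9 : ((min (((⌊l0 * (1 - t1 ^ 10) * 1000⌋ : ℤ) : ℚ) / 1000) c1 : ℚ) : ℝ)
          ≤ ((l0 * (1 - t1 ^ 10) : ℚ) : ℝ) := by exact_mod_cast h8
      refine h9.trans ?_
      push_cast
      nlinarith
    · refine le_trans ?_ (l2 T hT h3).1
      exact_mod_cast min_le_right _ _
  · have h3 : (t1 : ℝ) ≤ ((tR c : ℚ) : ℝ) := by exact_mod_cast not_lt.1 h2'
    have h4 := l2 T hT (h3.trans_lt hT1)
    exact grdR.lcG_le hc h2 hT hT1 hT2 h4.1 h4.2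

/-- the check of a row; `c = 0` stands for the trivial bound of the radial part -/
def rowY (l0 t1 c1 c2 c : ℚ) (th : List ℕ) (r : ℕ × ℕ × ℚ × ℚ × ℚ × ℚ) : Bool :=
  relOKg 200 tR kR wR (lcY l0 t1 c1 c2) (thL th) r.1 r.2.1 (if c = 0 then 1 else c / r.1)
    r.2.2.1 r.2.2.2.1 r.2.2.2.2.1 r.2.2.2.2.2 && decide (17 ≤ r.1)

variable {X : Type*} [MeasurableSpace X] {E : Type*} [NormedAddCommGroup E]
  [InnerProductSpace ℝ E] [MeasurableSpace E] [BorelSpace E] [SecondCountableTopology E]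
  {μ : Measure X} [IsFiniteMeasure μ] {m q : ℕ} {p n z : X → E}

/-- the relative tail, trivial bound of the radial part -/
theorem rel_Y0 [Nontrivial E] {l0 t1 c1 c2 : ℚ} {th : List ℕ} {r : ℕ × ℕ × ℚ × ℚ × ℚ × ℚ}
    (hok : rowY l0 t1 c1 c2 0 th r = true) (h0 : 0 ≤ l0) (ht : 0 ≤ t1) (hc2 : 0 ≤ c2)
    (hm : m = r.1)
    (h2 : Two μ m p n) (h1 : MinRow μ m p n) {C0 : ℝ} (hz : Measurable z)
    (hzC : ∀ x, ‖z x‖ ≤ C0)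
    (hzp : ∀ x y, ⟪n x, p y⟫ - ⟪p x, n y⟫ = ⟪z x, p y⟫ - ⟪p x, z y⟫)
    {l : ℝ → ℝ} (l1 : ∀ T ∈ Ioo (0 : ℝ) 1, T ≤ t1 → l0 * (1 - T ^ 10) ≤ l T)
    (l2 : ∀ T ∈ Ioo (0 : ℝ) 1, t1 < T → c1 ≤ l T ∧ c2 / (1 - T ^ 2) ≤ l T) :
    Tail μ m p n l ((r.2.2.2.2.2 : ℚ) * ((∫ x, ‖z x‖ ^ 2 ∂μ) / μ.real univ)) := by
  subst hm
  unfold rowY at hok
  simp only [if_true, Bool.and_eq_true, decide_eq_true_eq] at hok
  exact rel_grd grdR hok.1 hok.2 h2 h1 hz hzC hzp (rad_le hz hzC h2.np h2.mp)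
    fun c hc T hT t1' t2 => lcY_le h0 ht hc2 hc l1 l2 hT t1' t2

/-- the relative tail, with a bound of the radial part -/
theorem rel_Y [Nontrivial E] {l0 t1 c1 c2 c : ℚ} {th : List ℕ} {r : ℕ × ℕ × ℚ × ℚ × ℚ × ℚ}
    (hok : rowY l0 t1 c1 c2 c th r = true) (h0 : 0 ≤ l0) (ht : 0 ≤ t1) (hc2 : 0 ≤ c2)
    (hc0 : c ≠ 0) (hm : m = r.1)
    (h2 : Two μ m p n) (h1 : MinRow μ m p n) {C0 : ℝ} (hz : Measurable z)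
    (hzC : ∀ x, ‖z x‖ ≤ C0)
    (hzp : ∀ x y, ⟪n x, p y⟫ - ⟪p x, n y⟫ = ⟪z x, p y⟫ - ⟪p x, z y⟫)
    (hF : m * ∫ x, ⟪z x, p x⟫ ^ 2 ∂μ ≤ c * ∫ x, ‖z x‖ ^ 2 ∂μ)
    {l : ℝ → ℝ} (l1 : ∀ T ∈ Ioo (0 : ℝ) 1, T ≤ t1 → l0 * (1 - T ^ 10) ≤ l T)
    (l2 : ∀ T ∈ Ioo (0 : ℝ) 1, t1 < T → c1 ≤ l T ∧ c2 / (1 - T ^ 2) ≤ l T) :
    Tail μ m p n l ((r.2.2.2.2.2 : ℚ) * ((∫ x, ‖z x‖ ^ 2 ∂μ) / μ.real univ)) := by
  subst hm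
  unfold rowY at hok
  simp only [hc0, if_false, Bool.and_eq_true, decide_eq_true_eq] at hok
  refine rel_grd grdR hok.1 hok.2 h2 h1 hz hzC hzp ?_
    fun c hc T hT t1' t2 => lcY_le h0 ht hc2 hc l1 l2 hT t1' t2
  have h3 : (0 : ℝ) < (r.1 : ℝ) := by
    have := hok.2
    exact_mod_cast (by omega : 0 < r.1)
  rw [Rat.cast_div, Rat.cast_natCast, div_mul_eq_mul_div, le_div_iff₀ h3, mul_comm]
  exact hF

end Vale.Agent.P224.R2.H424.Tls
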