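import Vale.Agent.P224.R2.H424.Tls7

/-!
Tables of the relative tail.
-/

namespace Vale.Agent.P224.R2.H424.Tls

/-- the weights of the splitting -/
def thD8 : List ℕ := [
  5, 10, 14, 19, 24, 29, 33, 38, 43, 48, 53, 57, 62, 67, 72, 77, 82, 86, 91, 96, 101, 106, 111,
    116, 121, 125, 130, 135, 140, 145, 150, 155, 160, 165, 170, 175, 180, 185, 190, 195, 200,
    206, 211, 216, 221, 226, 231, 237, 242, 247, 252, 258, 263, 268, 274, 279, 284, 290, 295,
    301, 306, 312, 317, 323, 328, 334, 339, 345, 351, 356, 362, 368, 374, 379, 385, 391, 397,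
    403, 408, 414, 420, 426, 432, 438, 444, 450, 456, 463, 469, 475, 481, 487, 493, 500, 506,
    512, 519, 525, 531, 538, 544, 550, 557, 563, 570, 576, 583, 589, 596, 602, 609, 615, 622,
    628, 635, 641, 648, 654, 661, 667, 674, 681, 687, 694, 700, 707, 713, 720, 726, 733, 739,
    745, 752, 758, 764, 771, 777, 783, 789, 795, 801, 808, 813, 819, 825, 831, 837, 843, 848,
    854, 859, 865, 870, 875, 880, 885, 890, 895, 900, 905, 909, 914, 918, 923, 927, 931, 935,
    939, 943, 946, 950, 953, 957, 960, 963, 966, 969, 971, 974, 976, 979, 981, 983, 985, 987,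
    989, 990, 992, 993, 994, 995, 996, 997, 998, 999, 999, 1000, 1000, 1000, 1000]

/-- the rows: `m`, `j`, bounds of the moment constants, the relative tail -/
def tabD8 : List (ℕ × ℕ × ℚ × ℚ × ℚ × ℚ) := [
  (31, 15, 60287 / 50000000000, 351843 / 500000000000, 209573 / 500000000000, 307 / 100000),
  (32, 15, 987167 / 1000000000000, 284949 / 500000000000, 41983 / 125000000000, 101 / 25000),
  (33, 14, 145511 / 100000000000, 203121 / 250000000000, 58011 / 125000000000, 519 / 100000),
  (34, 13, 112897 / 50000000000, 121649 / 100000000000, 134411 / 200000000000, 131 / 20000),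
  (35, 13, 5989 / 3125000000, 1277 / 1250000000, 279269 / 500000000000, 811 / 100000),
  (36, 12, 318427 / 100000000000, 163329 / 100000000000, 172323 / 200000000000, 247 / 25000)]

theorem okD8 : tabD8.all (rowX 17 (35 / 2) (23 / 2) (8) thD8) = true := by
  decide +kernel

end Vale.Agent.P224.R2.H424.Tls
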