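import Vale.Agent.P224.R2.H424.Tls9

/-!
Tables of the relative tail.
-/

namespace Vale.Agent.P224.R2.H424.Tls

/-- the weights of the splitting -/
def thG8 : List ℕ := [
  4, 8, 12, 16, 20, 25, 29, 33, 37, 41, 45, 49, 53, 57, 61, 66, 70, 74, 78, 82, 86, 91, 95, 99,
    103, 107, 112, 116, 120, 124, 129, 133, 137, 141, 146, 150, 155, 159, 163, 168, 172, 177,
    181, 185, 190, 194, 199, 204, 208, 213, 217, 222, 227, 231, 236, 241, 246, 250, 255, 260,
    265, 270, 275, 279, 284, 289, 294, 299, 305, 310, 315, 320, 325, 330, 336, 341, 346, 352,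
    357, 362, 368, 373, 379, 384, 390, 396, 401, 407, 413, 418, 424, 430, 436, 442, 448, 454,
    460, 466, 472, 478, 484, 490, 497, 503, 509, 516, 522, 528, 535, 541, 548, 554, 561, 568,
    574, 581, 588, 594, 601, 608, 615, 621, 628, 635, 642, 649, 656, 663, 670, 677, 684, 691,
    698, 704, 711, 718, 725, 732, 739, 746, 753, 760, 767, 774, 780, 787, 794, 800, 807, 814,
    820, 827, 833, 839, 846, 852, 858, 864, 870, 876, 882, 887, 893, 898, 904, 909, 914, 919,
    924, 929, 933, 938, 942, 946, 950, 954, 958, 961, 965, 968, 971, 974, 977, 980, 982, 985,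
    987, 989, 991, 992, 994, 995, 996, 997, 998, 999, 999, 1000, 1000, 1000]

/-- the rows: `m`, `j`, bounds of the moment constants, the relative tail -/
def tabG8 : List (ℕ × ℕ × ℚ × ℚ × ℚ × ℚ) := [
  (36, 14, 172323 / 200000000000, 466289 / 1000000000000, 25831 / 100000000000, 253 / 50000),
  (37, 13, 27947 / 20000000000, 364831 / 500000000000, 390949 / 1000000000000, 313 / 50000),
  (38, 13, 11999 / 10000000000, 24813 / 40000000000, 82281 / 250000000000, 761 / 100000),
  (39, 12, 207853 / 100000000000, 51699 / 50000000000, 132333 / 250000000000, 229 / 25000),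
  (40, 12, 45371 / 25000000000, 178799 / 200000000000, 45329 / 100000000000, 109 / 10000),
  (41, 12, 158939 / 100000000000, 387723 / 500000000000, 389489 / 1000000000000, 8 / 625),
  (42, 11, 298313 / 100000000000, 139597 / 100000000000, 674683 / 1000000000000, 149 / 10000),
  (43, 11, 10609 / 4000000000, 30737 / 25000000000, 29437 / 50000000000, 171 / 10000),
  (44, 11, 236391 / 100000000000, 27143 / 25000000000, 64399 / 125000000000, 49 / 2500),
  (45, 10, 120309 / 25000000000, 211191 / 100000000000, 240299 / 250000000000, 223 / 10000),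
  (46, 10, 434849 / 100000000000, 189107 / 100000000000, 853033 / 1000000000000, 251 / 10000),
  (47, 10, 769 / 195312500, 84851 / 50000000000, 151763 / 200000000000, 141 / 5000),
  (48, 10, 89297 / 25000000000, 152609 / 100000000000, 169131 / 250000000000, 79 / 2500),
  (49, 9, 798873 / 100000000000, 64929 / 20000000000, 68757 / 50000000000, 22 / 625),
  (50, 9, 183423 / 25000000000, 295597 / 100000000000, 124153 / 100000000000, 387 / 10000),
  (51, 9, 674897 / 100000000000, 53923 / 20000000000, 112301 / 100000000000, 213 / 5000),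
  (52, 9, 621761 / 100000000000, 123163 / 50000000000, 101763 / 100000000000, 467 / 10000),
  (53, 9, 143413 / 25000000000, 225411 / 100000000000, 46187 / 50000000000, 511 / 10000)]

theorem okG8 : tabG8.all (rowY (91 / 5) (3 / 5) (91 / 5) (61 / 5) (8) thG8) = true := by
  decide +kernel

end Vale.Agent.P224.R2.H424.Tls
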