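import Vale.Agent.P224.R2.H424.Tls9

/-!
Tables of the relative tail.
-/

namespace Vale.Agent.P224.R2.H424.Tls

/-- the weights of the splitting -/
def thH8 : List ℕ := [
  4, 8, 13, 17, 21, 25, 29, 33, 38, 42, 46, 50, 54, 59, 63, 67, 71, 75, 80, 84, 88, 92, 97,
    101, 105, 110, 114, 118, 123, 127, 131, 136, 140, 144, 149, 153, 158, 162, 167, 171, 176,
    180, 185, 189, 194, 199, 203, 208, 212, 217, 222, 227, 231, 236, 241, 246, 250, 255, 260,
    265, 270, 275, 280, 285, 290, 295, 300, 305, 310, 316, 321, 326, 331, 337, 342, 347, 353,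
    358, 364, 369, 375, 380, 386, 391, 397, 403, 408, 414, 420, 426, 432, 438, 444, 449, 455,
    461, 468, 474, 480, 486, 492, 498, 505, 511, 517, 524, 530, 537, 543, 549, 556, 563, 569,
    576, 582, 589, 596, 602, 609, 616, 623, 630, 636, 643, 650, 657, 664, 671, 678, 684, 691,
    698, 705, 712, 719, 726, 733, 739, 746, 753, 760, 767, 773, 780, 787, 793, 800, 807, 813,
    819, 826, 832, 838, 845, 851, 857, 863, 869, 874, 880, 886, 891, 897, 902, 907, 912, 917,
    922, 927, 931, 936, 940, 944, 948, 952, 956, 959, 963, 966, 969, 972, 975, 978, 981, 983,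
    985, 987, 989, 991, 993, 994, 995, 996, 997, 998, 999, 999, 1000, 1000, 1000]

/-- the rows: `m`, `j`, bounds of the moment constants, the relative tail -/
def tabH8 : List (ℕ × ℕ × ℚ × ℚ × ℚ × ℚ) := [
  (36, 13, 163329 / 100000000000, 172323 / 200000000000, 466289 / 1000000000000, 401 / 50000),
  (37, 13, 27947 / 20000000000, 364831 / 500000000000, 390949 / 1000000000000, 979 / 100000),
  (38, 12, 238807 / 100000000000, 11999 / 10000000000, 24813 / 40000000000, 59 / 5000),
  (39, 12, 207853 / 100000000000, 51699 / 50000000000, 132333 / 250000000000, 141 / 10000),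
  (40, 11, 76073 / 20000000000, 45371 / 25000000000, 178799 / 200000000000, 83 / 5000),
  (41, 11, 84099 / 25000000000, 158939 / 100000000000, 387723 / 500000000000, 12 / 625),
  (42, 11, 298313 / 100000000000, 139597 / 100000000000, 674683 / 1000000000000, 111 / 5000),
  (43, 10, 593169 / 100000000000, 10609 / 4000000000, 30737 / 25000000000, 51 / 2000),
  (44, 10, 533693 / 100000000000, 236391 / 100000000000, 27143 / 25000000000, 289 / 10000),
  (45, 10, 120309 / 25000000000, 211191 / 100000000000, 240299 / 250000000000, 163 / 5000),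
  (46, 10, 434849 / 100000000000, 189107 / 100000000000, 853033 / 1000000000000, 183 / 5000),
  (47, 9, 95187 / 10000000000, 769 / 195312500, 84851 / 50000000000, 409 / 10000),
  (48, 9, 871277 / 100000000000, 89297 / 25000000000, 152609 / 100000000000, 113 / 2500),
  (49, 9, 798873 / 100000000000, 64929 / 20000000000, 68757 / 50000000000, 499 / 10000),
  (50, 9, 183423 / 25000000000, 295597 / 100000000000, 124153 / 100000000000, 549 / 10000),
  (51, 9, 674897 / 100000000000, 53923 / 20000000000, 112301 / 100000000000, 603 / 10000)]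

theorem okH8 : tabH8.all (rowY (91 / 5) (7 / 10) (91 / 5) (61 / 5) (8) thH8) = true := by
  decide +kernel

end Vale.Agent.P224.R2.H424.Tls
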